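import Vale.Agent.P310.Sys

namespace Vale.Agent.P310

open Function

variable {B Var : Type} {s n : ℕ}

def shiftU (s : ℕ) (σ : B → A) : Equiv.Perm (U B s) where
  toFun
    | .inl (b, a) => .inl (b, a + σ b)
    | .inr z => .inr z
  invFun
    | .inl (b, a) => .inl (b, a - σ b)
    | .inr z => .inr z
  left_inv := by rintro (⟨b, a⟩ | z) <;> simp
  right_inv := by rintro (⟨b, a⟩ | z) <;> simp

@[simp] theorem shiftU_inl (σ : B → A) (b : B) (a : A) :
    shiftU s σ (.inl (b, a)) = .inl (b, a + σ b) := rfl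

@[simp] theorem shiftU_inr (σ : B → A) (z) : shiftU s σ (.inr z) = .inr z := rfl

theorem sh_congr (ι : U B s ↪ Fin n) (σ σ' : B → A) (u : Fin n)
    (h : ∀ b a, u = ι (.inl (b, a)) → σ b = σ' b) :
    (shiftU s σ).viaEmbedding ι u = (shiftU s σ').viaEmbedding ι u := by
  by_cases hu : u ∈ Set.range ι
  · obtain ⟨z, rfl⟩ := hu
    rw [Equiv.Perm.viaEmbedding_apply, Equiv.Perm.viaEmbedding_apply]
    rcases z with ⟨b, a⟩ | z
    · simp [h b a rfl]
    · simp
  · rw [Equiv.Perm.viaEmbedding_apply_of_notMem _ _ _ hu,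
      Equiv.Perm.viaEmbedding_apply_of_notMem _ _ _ hu]

theorem relU_shift (S : Sys B Var) (crd : B → Fin 6 → Fin s) (w : Var → F) (y z : U B s)
    (hy : ∀ b a, y = .inl (b, a) → S.ok true b (fun p => w (S.var b p))) :
    relU S crd false y z ↔ relU S crd true (shiftU s (fun b p => w (S.var b p)) y)
      (shiftU s (fun b p => w (S.var b p)) z) := by
  rcases y with ⟨b, a⟩ | ⟨c, v⟩ | _ | _ <;> rcases z with ⟨b', a'⟩ | ⟨c', v'⟩ | _ | _ <;>
    simp only [shiftU_inl, shiftU_inr, relU]
  · refine exists_congr fun p => exists_congr fun p' => and_congr_right fun h => ?_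
    simp [h]
  · rw [S.ok_add b a _ (hy b a rfl)]

theorem wlEquiv_of_dup (S : Sys B Var) (crd : B → Fin 6 → Fin s) (ι : U B s ↪ Fin n) {k : ℕ}
    [Nonempty B] (h : S.Dup k) : WLEquiv k (cfi S crd ι false) (cfi S crd ι true) := by
  classical
  obtain ⟨Φ, ⟨w0, h0⟩, h1, h2, h3⟩ := h
  let sh : (Var → F) → Equiv.Perm (Fin n) := fun w =>
    (shiftU s (fun b p => w (S.var b p))).viaEmbedding ι
  have hf : ∀ u : Fin n, ∃ b0 : B, ∀ b a, u = ι (.inl (b, a)) → b = b0 := by
    intro u
    by_cases hu : ∃ b a, u = ι (.inl (b, a))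
    · obtain ⟨b, a, rfl⟩ := hu
      refine ⟨b, fun b' a' h => ?_⟩
      have := ι.injective h
      simp only [Sum.inl.injEq, Prod.mk.injEq] at this
      exact this.1.symm
    · exact ⟨Classical.arbitrary B, fun b a h => (hu ⟨b, a, h⟩).elim⟩
  choose f hf using hf
  refine wlEquiv_of_system _ _ (fun x x' => ∃ X w, Φ X w ∧ X.card ≤ k ∧
    (∀ i b a, x i = ι (.inl (b, a)) → b ∈ X) ∧ ∀ i, x' i = sh w (x i)) ?_ ?_ ?_
  · refine ⟨fun _ => ι (.inr (.inr true)), fun _ => ι (.inr (.inr true)), ∅, w0, h0, by simp,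
      ?_, ?_⟩
    · intro i b a h
      have := ι.injective h
      simp at this
    · intro i
      simp only [sh]
      rw [Equiv.Perm.viaEmbedding_apply]; rfl
  · rintro x x' ⟨X, w, hΦ, _, hX, hx⟩ i j
    rw [hx i, hx j]
    refine ⟨by simp, ?_⟩
    by_cases hi : x i ∈ Set.range ι
    · by_cases hj : x j ∈ Set.range ι
      · obtain ⟨y, hy⟩ := hi
        obtain ⟨z, hz⟩ := hj
        rw [← hy, ← hz]
        simp only [sh]
        rw [Equiv.Perm.viaEmbedding_apply, Equiv.Perm.viaEmbedding_apply, cfi_adj, cfi_adj,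
          ← relU_shift S crd w y z, ← relU_shift S crd w z y]
        · simp
        · rintro b a rfl
          exact h1 _ _ hΦ b (hX j b a hz.symm)
        · rintro b a rfl
          exact h1 _ _ hΦ b (hX i b a hy.symm)
      · simp only [sh]
        rw [Equiv.Perm.viaEmbedding_apply_of_notMem _ _ _ hj]
        constructor
        · intro h
          obtain ⟨a, b, _, hb⟩ := cfi_adj_range _ _ _ _ h
          exact (hj ⟨b, hb⟩).elim
        · intro h
          obtain ⟨a, b, _, hb⟩ := cfi_adj_range _ _ _ _ h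
          exact (hj ⟨b, hb⟩).elim
    · simp only [sh]
      rw [Equiv.Perm.viaEmbedding_apply_of_notMem _ _ _ hi]
      constructor
      · intro h
        obtain ⟨a, b, ha, _⟩ := cfi_adj_range _ _ _ _ h
        exact (hi ⟨a, ha⟩).elim
      · intro h
        obtain ⟨a, b, ha, _⟩ := cfi_adj_range _ _ _ _ h
        exact (hi ⟨a, ha⟩).elim
  · rintro x x' ⟨X, w, hΦ, hc, hX, hx⟩
    choose Y wb a1 a2 a3 a4 using h3 X w hΦ hc
    refine ⟨(shiftU s (fun b p => wb b (S.var b p))).viaEmbedding ι, fun y i => ?_⟩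
    let z := update x i y
    let X' := (Finset.univ.filter fun j => ∃ b a, z j = ι (.inl (b, a))).image (f ∘ z)
    have hX'c : X'.card ≤ k :=
      Finset.card_image_le.trans ((Finset.card_filter_le _ _).trans (by simp))
    have hX'm : ∀ j b a, z j = ι (.inl (b, a)) → b ∈ X' := by
      intro j b a h
      refine Finset.mem_image.2 ⟨j, Finset.mem_filter.2 ⟨Finset.mem_univ _, b, a, h⟩, ?_⟩
      exact (hf _ b a h).symm
    refine ⟨X', wb (f y), h2 _ _ _ (a1 (f y)) ?_, hX'c, hX'm, ?_⟩
    · intro b hb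
      obtain ⟨j, hj, rfl⟩ := Finset.mem_image.1 hb
      obtain ⟨_, b, a, hj⟩ := Finset.mem_filter.1 hj
      by_cases hji : j = i
      · subst hji
        simp only [z, comp, update_self]
        exact a2 _
      · simp only [z, comp, update_of_ne hji] at hj ⊢
        rw [← hf _ b a hj]
        exact a3 _ (hX j b a hj)
    · intro j
      by_cases hji : j = i
      · subst hji
        simp only [update_self, sh]
        apply sh_congr
        intro b a h
        rw [← hf _ b a h]
      · rw [update_of_ne hji, update_of_ne hji, hx j]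
        simp only [sh]
        apply sh_congr
        intro b a h
        funext p
        exact (a4 _ b (hX j b a h) p).symm

end Vale.Agent.P310
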