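import Vale.Agent.P310.Sys

namespace Vale.Agent.P310

open Function

section Inv
variable {V : Type} [Fintype V] {k : ℕ}

def Rel (k : ℕ) (G H : SimpleGraph V) (u u' : V) : Prop :=
  ∃ x x' i, Stable k G H x x' ∧ x i = u ∧ x' i = u'

theorem Rel.symm {G H : SimpleGraph V} {u u' : V} (h : Rel k G H u u') : Rel k H G u' u := by
  obtain ⟨x, x', i, h, h1, h2⟩ := h
  exact ⟨x', x, i, h.symm, h2, h1⟩

theorem Rel.forth2 (hk : 3 ≤ k) {G H : SimpleGraph V} {u u' : V} (h : Rel k G H u u')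
    (y z : V) : ∃ y' z', Rel k G H y y' ∧ Rel k G H z z' ∧ (G.Adj u y ↔ H.Adj u' y') ∧
      (G.Adj u z ↔ H.Adj u' z') ∧ (y = z ↔ y' = z') := by
  obtain ⟨x, x', i, h, rfl, rfl⟩ := h
  have : ∃ j l : Fin k, j ≠ i ∧ l ≠ i ∧ j ≠ l := by
    by_cases h0 : i.val = 0
    · exact ⟨⟨1, by omega⟩, ⟨2, by omega⟩, by simp [Fin.ext_iff]; omega,
        by simp [Fin.ext_iff]; omega, by simp [Fin.ext_iff]⟩
    · by_cases h1 : i.val = 1
      · exact ⟨⟨0, by omega⟩, ⟨2, by omega⟩, by simp [Fin.ext_iff]; omega,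
          by simp [Fin.ext_iff]; omega, by simp [Fin.ext_iff]⟩
      · exact ⟨⟨0, by omega⟩, ⟨1, by omega⟩, by simp [Fin.ext_iff]; omega,
          by simp [Fin.ext_iff]; omega, by simp [Fin.ext_iff]⟩
  obtain ⟨j, l, hji, hli, hjl⟩ := this
  obtain ⟨y', hy⟩ := h.forth y
  obtain ⟨z', hz⟩ := (hy j).forth z
  have h2 := hz l
  have a := h2.atom
  refine ⟨y', z', ⟨_, _, j, hy j, by simp, by simp⟩, ⟨_, _, l, h2, by simp, by simp⟩, ?_, ?_, ?_⟩
  · simpa [update_of_ne hli.symm, update_of_ne hji.symm, update_of_ne hjl] using (a i j).2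
  · simpa [update_of_ne hli.symm, update_of_ne hji.symm, update_of_ne hjl] using (a i l).2
  · simpa [update_of_ne hli.symm, update_of_ne hji.symm, update_of_ne hjl] using (a j l).1

def Inv (k : ℕ) (G H : SimpleGraph V) (P P' : V → Prop) : Prop :=
  ∀ u u', Rel k G H u u' → (P u ↔ P' u')

theorem Inv.symm {G H : SimpleGraph V} {P P' : V → Prop} (h : Inv k G H P P') :
    Inv k H G P' P := fun u u' hr => (h u' u hr.symm).symm

theorem Inv.nbr (hk : 3 ≤ k) {G H : SimpleGraph V} {P P' : V → Prop} (h : Inv k G H P P') :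
    Inv k G H (fun u => ∃ y, G.Adj u y ∧ P y) (fun u => ∃ y, H.Adj u y ∧ P' y) := by
  have key : ∀ {G H : SimpleGraph V} {P P' : V → Prop}, Inv k G H P P' → ∀ u u',
      Rel k G H u u' → (∃ y, G.Adj u y ∧ P y) → ∃ y, H.Adj u' y ∧ P' y := by
    rintro G H P P' h u u' hr ⟨y, h1, h2⟩
    obtain ⟨y', z', a1, _, a3, _, _⟩ := hr.forth2 hk y y
    exact ⟨y', a3.1 h1, (h _ _ a1).1 h2⟩
  exact fun u u' hr => ⟨key h u u' hr, key h.symm u' u hr.symm⟩

theorem Inv.two (hk : 3 ≤ k) {G H : SimpleGraph V} {P P' : V → Prop} (h : Inv k G H P P') :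
    Inv k G H (fun u => ∃ y z, y ≠ z ∧ G.Adj u y ∧ G.Adj u z ∧ P y ∧ P z)
      (fun u => ∃ y z, y ≠ z ∧ H.Adj u y ∧ H.Adj u z ∧ P' y ∧ P' z) := by
  have key : ∀ {G H : SimpleGraph V} {P P' : V → Prop}, Inv k G H P P' → ∀ u u',
      Rel k G H u u' → (∃ y z, y ≠ z ∧ G.Adj u y ∧ G.Adj u z ∧ P y ∧ P z) →
        ∃ y z, y ≠ z ∧ H.Adj u' y ∧ H.Adj u' z ∧ P' y ∧ P' z := by
    rintro G H P P' h u u' hr ⟨y, z, h0, h1, h2, h3, h4⟩
    obtain ⟨y', z', a1, a2, a3, a4, a5⟩ := hr.forth2 hk y z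
    exact ⟨y', z', fun e => h0 (a5.2 e), a3.1 h1, a4.1 h2, (h _ _ a1).1 h3, (h _ _ a2).1 h4⟩
  exact fun u u' hr => ⟨key h u u' hr, key h.symm u' u hr.symm⟩

theorem Inv.and {G H : SimpleGraph V} {P P' Q Q' : V → Prop} (h : Inv k G H P P')
    (h' : Inv k G H Q Q') : Inv k G H (fun u => P u ∧ Q u) (fun u => P' u ∧ Q' u) :=
  fun u u' hr => and_congr (h u u' hr) (h' u u' hr)

theorem Inv.not {G H : SimpleGraph V} {P P' : V → Prop} (h : Inv k G H P P') :
    Inv k G H (fun u => ¬ P u) (fun u => ¬ P' u) :=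
  fun u u' hr => not_congr (h u u' hr)

theorem Inv.congr {G H : SimpleGraph V} {P P' Q : V → Prop} (h : Inv k G H P P')
    (h1 : ∀ u, P u ↔ Q u) (h2 : ∀ u, P' u ↔ Q u) : Inv k G H Q Q :=
  fun u u' hr => (h1 u).symm.trans ((h u u' hr).trans (h2 u'))

end Inv

variable {B Var : Type} {s n : ℕ} (S : Sys B Var) (crd : B → Fin 6 → Fin s)
  (ι : U B s ↪ Fin n) (g : Bool)

def RulAt (m : ℕ) (u : Fin n) : Prop :=
  ∃ (c : Fin 7) (v : Fin s), u = ι (.inr (.inl (c, v))) ∧ c.val * s + v.val = m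

def IsRul (u : Fin n) : Prop := ∃ z : Fin 7 × Fin s, u = ι (.inr (.inl z))

theorem idx_inj {c c' : Fin 7} {v v' : Fin s} (h : c.val * s + v.val = c'.val * s + v'.val) :
    c = c' ∧ v = v' := by
  have hs : 0 < s := v.pos
  have h1 : (c.val * s + v.val) / s = c.val := by
    rw [mul_comm, Nat.mul_add_div hs, Nat.div_eq_of_lt v.2]; rfl
  have h2 : (c'.val * s + v'.val) / s = c'.val := by
    rw [mul_comm, Nat.mul_add_div hs, Nat.div_eq_of_lt v'.2]; rfl
  have : c = c' := Fin.ext (by rw [← h1, ← h2, h])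
  subst this
  exact ⟨rfl, Fin.ext (by omega)⟩

theorem exists_idx {m : ℕ} (h : m < 7 * s) :
    ∃ (c : Fin 7) (v : Fin s), c.val * s + v.val = m := by
  have hs : 0 < s := by omega
  refine ⟨⟨m / s, (Nat.div_lt_iff_lt_mul hs).2 h⟩, ⟨m % s, Nat.mod_lt _ hs⟩, ?_⟩
  simp only
  rw [mul_comm]; exact Nat.div_add_mod m s

theorem idx_lt (c : Fin 7) (v : Fin s) : c.val * s + v.val < 7 * s := by
  have := c.2; have := v.2; nlinarith

theorem idx_six {c : Fin 7} {v : Fin s} (h : c.val * s + v.val < 6 * s) : c ≠ 6 := by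
  rintro rfl
  have : ((6 : Fin 7) : ℕ) = 6 := rfl
  rw [this] at h; omega

theorem rul_two (hs : 3 ≤ s) (c : Fin 7) (v : Fin s) (h : c.val * s + v.val ≠ 0) :
    ∃ y z : Fin 7 × Fin s, y ≠ z ∧
      (cfi S crd ι g).Adj (ι (.inr (.inl (c, v)))) (ι (.inr (.inl y))) ∧
      (cfi S crd ι g).Adj (ι (.inr (.inl (c, v)))) (ι (.inr (.inl z))) := by
  have hlt := idx_lt c v
  obtain ⟨c1, v1, h1⟩ := exists_idx (s := s) (m := c.val * s + v.val - 1) (by omega)
  have a1 : (cfi S crd ι g).Adj (ι (.inr (.inl (c, v)))) (ι (.inr (.inl (c1, v1)))) := by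
    rw [cfi_adj]
    refine ⟨?_, Or.inr (Or.inl (by omega))⟩
    simp only [ne_eq, Sum.inr.injEq, Sum.inl.injEq, Prod.mk.injEq]
    rintro ⟨rfl, rfl⟩; omega
  by_cases h2 : c.val * s + v.val + 1 < 7 * s
  · obtain ⟨c2, v2, h2⟩ := exists_idx (s := s) h2
    refine ⟨(c1, v1), (c2, v2), ?_, a1, ?_⟩
    · simp only [ne_eq, Prod.mk.injEq]
      rintro ⟨rfl, rfl⟩; omega
    · rw [cfi_adj]
      refine ⟨?_, Or.inl (Or.inl (by omega))⟩
      simp only [ne_eq, Sum.inr.injEq, Sum.inl.injEq, Prod.mk.injEq]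
      rintro ⟨rfl, rfl⟩; omega
  · have h6 : ((6 : Fin 7) : ℕ) = 6 := rfl
    have hc : c = 6 := by
      by_contra hc
      have h3 : c.val ≠ 6 := fun h => hc (Fin.ext h)
      have h4 : c.val ≤ 5 := by have := c.2; omega
      have := v.2
      nlinarith
    subst hc
    refine ⟨(c1, v1), (6, ⟨0, by omega⟩), ?_, a1, ?_⟩
    · simp only [ne_eq, Prod.mk.injEq]
      rintro ⟨rfl, h7⟩
      have h8 : v1.val = 0 := congrArg Fin.val h7
      simp only [h6] at h1 h2
      omega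
    · rw [cfi_adj]
      refine ⟨?_, Or.inl (Or.inr ⟨rfl, rfl⟩)⟩
      simp only [ne_eq, Sum.inr.injEq, Sum.inl.injEq, Prod.mk.injEq, true_and]
      intro h7
      have h8 : v.val = 0 := congrArg Fin.val h7
      simp only [h6] at h2
      omega

theorem adj_pi {u : Fin n} : (cfi S crd ι g).Adj u (ι (.inr (.inr false))) ↔
    u = ι (.inr (.inr true)) := by
  constructor
  · intro h
    obtain ⟨a, b, rfl, hb⟩ := cfi_adj_range _ _ _ _ h
    rw [cfi_adj] at h
    rcases a with ⟨b, a⟩ | ⟨c, v⟩ | _ | _ <;> simp [relU] at h ⊢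
  · rintro rfl
    rw [cfi_adj]; simp [relU]

theorem adj_omega {u : Fin n} : (cfi S crd ι g).Adj u (ι (.inr (.inr true))) ↔
    u = ι (.inr (.inr false)) ∨ IsRul ι u := by
  constructor
  · intro h
    obtain ⟨a, b, rfl, hb⟩ := cfi_adj_range _ _ _ _ h
    rw [cfi_adj] at h
    rcases a with ⟨b, a⟩ | ⟨c, v⟩ | _ | _ <;> simp [relU, IsRul] at h ⊢
  · rintro (rfl | ⟨⟨c, v⟩, rfl⟩) <;> (rw [cfi_adj]; simp [relU])

theorem char_pi (hs : 3 ≤ s) (u : Fin n) :
    ((∃ y, (cfi S crd ι g).Adj u y ∧ True) ∧ ¬ ∃ y z, y ≠ z ∧ (cfi S crd ι g).Adj u y ∧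
      (cfi S crd ι g).Adj u z ∧ True ∧ True) ↔ u = ι (.inr (.inr false)) := by
  constructor
  · rintro ⟨⟨y, hy, _⟩, h2⟩
    obtain ⟨a, b, rfl, -⟩ := cfi_adj_range _ _ _ _ hy
    rcases a with ⟨b, a⟩ | ⟨c, v⟩ | _ | _
    · exfalso
      refine h2 ⟨ι (.inr (.inl (0, crd b 0))), ι (.inr (.inl (1, crd b 1))), by simp, ?_, ?_,
        trivial, trivial⟩
      · rw [cfi_adj]; exact ⟨by simp, Or.inl (Or.inl ⟨0, rfl, rfl⟩)⟩
      · rw [cfi_adj]; exact ⟨by simp, Or.inl (Or.inl ⟨1, rfl, rfl⟩)⟩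
    · exfalso
      by_cases h0 : c.val * s + v.val = 0
      · obtain ⟨c2, v2, h3⟩ := exists_idx (s := s) (m := 1) (by omega)
        refine h2 ⟨ι (.inr (.inr true)), ι (.inr (.inl (c2, v2))), by simp, ?_, ?_,
          trivial, trivial⟩
        · rw [adj_omega]; exact Or.inr ⟨_, rfl⟩
        · rw [cfi_adj]
          refine ⟨?_, Or.inl (Or.inl (by omega))⟩
          simp only [ne_eq, Sum.inr.injEq, Sum.inl.injEq, Prod.mk.injEq]
          rintro ⟨rfl, rfl⟩; omega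
      · obtain ⟨y, z, h1, h3, h4⟩ := rul_two S crd ι g hs c v h0
        exact h2 ⟨_, _, by simpa using h1, h3, h4, trivial, trivial⟩
    · rfl
    · exfalso
      refine h2 ⟨ι (.inr (.inr false)), ι (.inr (.inl (0, ⟨0, by omega⟩))), by simp, ?_, ?_,
        trivial, trivial⟩
      · rw [adj_pi]
      · rw [SimpleGraph.adj_comm, adj_omega]; exact Or.inr ⟨_, rfl⟩
  · rintro rfl
    refine ⟨⟨ι (.inr (.inr true)), ?_, trivial⟩, ?_⟩
    · rw [SimpleGraph.adj_comm, adj_pi]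
    · rintro ⟨y, z, h1, h2, h3, _⟩
      rw [SimpleGraph.adj_comm, adj_pi] at h2 h3
      exact h1 (h2.trans h3.symm)

theorem char_start (hs : 3 ≤ s) (u : Fin n) :
    (IsRul ι u ∧ ¬ ∃ y z, y ≠ z ∧ (cfi S crd ι g).Adj u y ∧
      (cfi S crd ι g).Adj u z ∧ IsRul ι y ∧ IsRul ι z) ↔ RulAt ι 0 u := by
  constructor
  · rintro ⟨⟨⟨c, v⟩, rfl⟩, h2⟩
    by_contra h0
    obtain ⟨y, z, h1, h3, h4⟩ := rul_two S crd ι g hs c v (fun h => h0 ⟨c, v, rfl, h⟩)
    exact h2 ⟨_, _, by simpa using h1, h3, h4, ⟨_, rfl⟩, ⟨_, rfl⟩⟩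
  · rintro ⟨c, v, rfl, h0⟩
    refine ⟨⟨_, rfl⟩, ?_⟩
    rintro ⟨_, _, h1, h2, h3, ⟨⟨c1, v1⟩, rfl⟩, ⟨⟨c2, v2⟩, rfl⟩⟩
    have hc : c ≠ 6 := idx_six (v := v) (by omega)
    rw [cfi_adj] at h2 h3
    simp only [relU, hc, false_and, or_false, and_false] at h2 h3
    obtain ⟨rfl, rfl⟩ := idx_inj (c := c1) (c' := c2) (v := v1) (v' := v2) (by omega)
    exact h1 rfl

theorem char_next (m : ℕ) (hm : m + 1 ≤ 6 * s) (u : Fin n) :
    ((IsRul ι u ∧ ∃ y, (cfi S crd ι g).Adj u y ∧ RulAt ι m y) ∧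
      ¬ (m ≠ 0 ∧ RulAt ι (m - 1) u)) ↔ RulAt ι (m + 1) u := by
  constructor
  · rintro ⟨⟨⟨⟨c, v⟩, rfl⟩, _, h1, c1, v1, rfl, h2⟩, h3⟩
    have hc : c1 ≠ 6 := idx_six (v := v1) (by omega)
    rw [cfi_adj] at h1
    simp only [relU, hc, false_and, or_false, and_false] at h1
    rcases h1.2 with h | h
    · exact (h3 ⟨by omega, c, v, rfl, by omega⟩).elim
    · exact ⟨c, v, rfl, by omega⟩
  · rintro ⟨c, v, rfl, h0⟩
    obtain ⟨c1, v1, h1⟩ := exists_idx (s := s) (m := m) (by omega)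
    refine ⟨⟨⟨_, rfl⟩, ι (.inr (.inl (c1, v1))), ?_, c1, v1, rfl, h1⟩, ?_⟩
    · rw [cfi_adj]
      refine ⟨?_, Or.inr (Or.inl (by omega))⟩
      simp only [ne_eq, Sum.inr.injEq, Sum.inl.injEq, Prod.mk.injEq]
      rintro ⟨rfl, rfl⟩; omega
    · rintro ⟨h2, c2, v2, h3, h4⟩
      have := ι.injective h3
      simp only [Sum.inr.injEq, Sum.inl.injEq, Prod.mk.injEq] at this
      obtain ⟨rfl, rfl⟩ := this
      omega

theorem spo_of_wlEquiv {k : ℕ} (hk : 3 ≤ k) (hs : 3 ≤ s) (hcrd : Injective crd) [Nonempty B]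
    (h : WLEquiv k (cfi S crd ι false) (cfi S crd ι true)) : S.Spo k := by
  set G := cfi S crd ι false with hG
  set H := cfi S crd ι true with hH
  have iT : Inv k G H (fun _ => True) (fun _ => True) := fun _ _ _ => Iff.rfl
  have iPi : Inv k G H (· = ι (.inr (.inr false))) (· = ι (.inr (.inr false))) :=
    ((iT.nbr hk).and (iT.two hk).not).congr (char_pi S crd ι false hs) (char_pi S crd ι true hs)
  have iOm : Inv k G H (· = ι (.inr (.inr true))) (· = ι (.inr (.inr true))) :=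
    (iPi.nbr hk).congr (fun u => by simp [hG, adj_pi]) (fun u => by simp [hH, adj_pi])
  have cR : ∀ g u, ((∃ y, (cfi S crd ι g).Adj u y ∧ y = ι (.inr (.inr true))) ∧
      ¬ u = ι (.inr (.inr false))) ↔ IsRul ι u := by
    intro g u
    simp only [exists_eq_right, adj_omega]
    constructor
    · rintro ⟨h | h, h'⟩
      · exact (h' h).elim
      · exact h
    · rintro ⟨z, rfl⟩
      exact ⟨Or.inr ⟨z, rfl⟩, by simp⟩
  have iR : Inv k G H (IsRul ι) (IsRul ι) :=
    ((iOm.nbr hk).and iPi.not).congr (cR false) (cR true)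
  have iAt : ∀ m, m ≤ 6 * s → Inv k G H (RulAt ι m) (RulAt ι m) := by
    intro m
    induction m using Nat.strong_induction_on with
    | _ m ih =>
      intro hm
      rcases m with _ | m
      · exact (iR.and (iR.two hk).not).congr (char_start S crd ι false hs)
          (char_start S crd ι true hs)
      · have i1 := ih m (by omega) (by omega)
        have i2 := ih (m - 1) (by omega) (by omega)
        have i3 : Inv k G H (fun _ => m ≠ 0) (fun _ => m ≠ 0) := fun _ _ _ => Iff.rfl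
        exact ((iR.and (i1.nbr hk)).and (i3.and i2).not).congr (char_next S crd ι false m hm)
          (char_next S crd ι true m hm)
  have iAdj : ∀ (c : Fin 7) (v : Fin s), c.val * s + v.val ≤ 6 * s → ∀ u u', Rel k G H u u' →
      G.Adj u (ι (.inr (.inl (c, v)))) → H.Adj u' (ι (.inr (.inl (c, v)))) := by
    intro c v hm u u' hr ha
    obtain ⟨y, h1, c1, v1, rfl, h2⟩ :=
      (((iAt _ hm).nbr hk) u u' hr).1 ⟨_, ha, c, v, rfl, rfl⟩
    obtain ⟨rfl, rfl⟩ := idx_inj h2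
    exact h1
  have main : ∀ b u', Rel k G H (ι (.inl (b, 0))) u' →
      ∃ a, u' = ι (.inl (b, a)) ∧ S.ok true b a := by
    intro b u' hr
    have hz : H.Adj u' (ι (.inr (.inl (6, ⟨0, by omega⟩)))) := by
      refine iAdj _ _ (by simp) _ _ hr ?_
      rw [hG, cfi_adj]
      exact ⟨by simp, Or.inl (Or.inr ⟨rfl, rfl, S.ok_zero b⟩)⟩
    have hc : ∀ c : Fin 6, H.Adj u' (ι (.inr (.inl (c.castSucc, crd b c)))) := by
      intro c
      refine iAdj _ _ ?_ _ _ hr ?_
      · have := c.2; have := (crd b c).2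
        simp only [Fin.val_castSucc]
        nlinarith
      · rw [hG, cfi_adj]
        exact ⟨by simp, Or.inl (Or.inl ⟨c, rfl, rfl⟩)⟩
    obtain ⟨z, _, rfl, -⟩ := cfi_adj_range _ _ _ _ hz
    rcases z with ⟨b', a⟩ | z | _ | _
    · have hb : b' = b := by
        apply hcrd
        funext c
        have := hc c
        rw [hH, cfi_adj] at this
        simp only [relU, or_false] at this
        rcases this.2 with ⟨c', h1, h2⟩ | ⟨h1, _⟩
        · obtain rfl := Fin.castSucc_injective _ h1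
          exact h2
        · exact absurd h1 (Fin.castSucc_lt_last c).ne
      subst hb
      refine ⟨a, rfl, ?_⟩
      rw [hH, cfi_adj] at hz
      simp only [relU, or_false] at hz
      rcases hz.2 with ⟨c', h1, h2⟩ | ⟨_, _, h1⟩
      · exact absurd h1.symm (Fin.castSucc_lt_last c').ne
      · exact h1
    · obtain ⟨z', hz'⟩ := (iR _ _ hr).2 ⟨z, rfl⟩
      simpa using ι.injective hz'
    · simpa using (iPi _ _ hr).2 rfl
    · simpa using (iOm _ _ hr).2 rfl
  have mk : ∀ (b : Fin k → B) x', Stable k G H (fun i => ι (.inl (b i, 0))) x' →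
      ∃ a : Fin k → A, x' = fun i => ι (.inl (b i, a i)) := by
    intro b x' hx
    have := fun i => main (b i) (x' i) ⟨_, _, i, hx, rfl, rfl⟩
    choose a ha _ using this
    exact ⟨a, funext ha⟩
  refine ⟨fun b a => Stable k G H (fun i => ι (.inl (b i, 0))) (fun i => ι (.inl (b i, a i))),
    ?_, ?_, ?_, ?_⟩
  · obtain ⟨x', hx⟩ := exists_stable h (fun _ => ι (.inl (Classical.arbitrary B, 0)))
    obtain ⟨a, rfl⟩ := mk (fun _ => Classical.arbitrary B) x' hx
    exact ⟨_, a, hx⟩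
  · intro b a h i
    obtain ⟨a', h1, h2⟩ := main (b i) _ ⟨_, _, i, h, rfl, rfl⟩
    have := ι.injective h1
    simp only [Sum.inl.injEq, Prod.mk.injEq, true_and] at this
    rw [this]; exact h2
  · intro b a h i j p p' hv
    have at1 := h.atom i j
    by_cases hb : b i = b j
    · have h1 := ι.injective (at1.1.1 (by simp only [hb]))
      simp only [Sum.inl.injEq, Prod.mk.injEq] at h1
      rw [hb] at hv
      rw [h1.2, S.var_inj _ hv]
    · by_contra hne
      have h2 : H.Adj (ι (.inl (b i, a i))) (ι (.inl (b j, a j))) := by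
        rw [hH, cfi_adj]
        exact ⟨by simp [hb], Or.inl ⟨p, p', hv, hne⟩⟩
      have h3 := at1.2.2 h2
      simp only [hG, cfi_adj, relU] at h3
      simp at h3
  · intro b a h b'
    obtain ⟨y', hy⟩ := h.forth (ι (.inl (b', 0)))
    obtain ⟨a', rfl, _⟩ := main b' y' 
      ⟨_, _, ⟨0, by omega⟩, hy ⟨0, by omega⟩, by simp, by simp⟩
    refine ⟨a', fun i => ?_⟩
    have e1 : (fun j => ι (.inl (update b i b' j, 0))) =
        update (fun j => ι (.inl (b j, 0))) i (ι (.inl (b', 0))) := by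
      funext j
      by_cases hj : j = i
      · subst hj; simp
      · simp [update_of_ne hj]
    have e2 : (fun j => ι (.inl (update b i b' j, update a i a' j))) =
        update (fun j => ι (.inl (b j, a j))) i (ι (.inl (b', a'))) := by
      funext j
      by_cases hj : j = i
      · subst hj; simp
      · simp [update_of_ne hj]
    show Stable k G H _ _
    rw [e1, e2]
    exact hy i

end Vale.Agent.P310
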