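import Vale.Agent.P310.Lang

namespace Vale.Agent.P310

open Function

variable {κ : ℕ} {Pn : Type}

/-- quantifier-free tests on the block registers -/
inductive QF (κ : ℕ) : Type
  | cst (f : Env0 → Prop)
  | rel (ρ : Sym) (j j' : Fin κ)
  | star (j0 j1 j2 : Fin κ)
  | not (φ : QF κ)
  | and (φ ψ : QF κ)
  | or (φ ψ : QF κ)

def QF.sem (E : Env) (d : Fin κ → ℕ) : QF κ → Prop
  | .cst f => f E.e0
  | .rel ρ j j' => ρ E.e0 (d j) (d j')
  | .star j0 j1 j2 => E.st (d j0) (d j1) (d j2)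
  | .not φ => ¬ φ.sem E d
  | .and φ ψ => φ.sem E d ∧ ψ.sem E d
  | .or φ ψ => φ.sem E d ∨ ψ.sem E d

def ld (t : Fin 3) (j : Fin κ) (φ : Fm κ Pn) : Fm κ Pn := .ex (.inl t) (.and (.eqA t j) φ)

def QF.toFm : Bool → QF κ → Fm κ Pn
  | b, .cst f => .bin fun E _ _ => f E ↔ b = true
  | b, .rel ρ j j' => ld 1 j (ld 2 j' (.bin fun E x y => ρ E x y ↔ b = true))
  | b, .star j0 j1 j2 => ld 0 j0 (ld 1 j1 (ld 2 j2 (.star b)))
  | b, .not φ => φ.toFm (!b)
  | true, .and φ ψ => .and (φ.toFm true) (ψ.toFm true)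
  | false, .and φ ψ => .or (φ.toFm false) (ψ.toFm false)
  | true, .or φ ψ => .or (φ.toFm true) (ψ.toFm true)
  | false, .or φ ψ => .and (φ.toFm false) (ψ.toFm false)

variable {E : Env} {I : Pn → St κ (Fin E.s) → Prop}

/-- values of the block registers -/
def dig (r : St κ (Fin E.s)) : Fin κ → ℕ := fun j => (r (.inr j)).val

theorem sem_ld (t : Fin 3) (j : Fin κ) (φ : Fm κ Pn) (r) :
    (ld t j φ).sem E I r ↔ φ.sem E I (update r (.inl t) (r (.inr j))) := by
  simp [ld, Fm.sem]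

theorem QF.sem_toFm (φ : QF κ) : ∀ (b : Bool) (r : St κ (Fin E.s)),
    (φ.toFm b : Fm κ Pn).sem E I r ↔ (φ.sem E (dig r) ↔ b = true) := by
  induction φ with
  | cst f => intro b r; simp [QF.toFm, Fm.sem, QF.sem]
  | rel ρ j j' => intro b r; simp [QF.toFm, sem_ld, Fm.sem, QF.sem, dig]
  | star j0 j1 j2 => intro b r; simp [QF.toFm, sem_ld, Fm.sem, QF.sem, dig]
  | not φ ih => intro b r; cases b <;> simp [QF.toFm, ih, QF.sem]
  | and φ ψ ih1 ih2 =>
    intro b r; cases b <;> simp [QF.toFm, ih1, ih2, QF.sem, Fm.sem]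
    tauto
  | or φ ψ ih1 ih2 => intro b r; cases b <;> simp [QF.toFm, ih1, ih2, QF.sem, Fm.sem]

def QF.fm (φ : QF κ) : Fm κ Pn := φ.toFm true

@[simp] theorem QF.sem_fm (φ : QF κ) (r : St κ (Fin E.s)) :
    (φ.fm : Fm κ Pn).sem E I r ↔ φ.sem E (dig r) := by
  simp [QF.fm, QF.sem_toFm]

noncomputable def QF.any {α : Type} [Finite α] (f : α → QF κ) : QF κ :=
  ((@Finset.univ α (Fintype.ofFinite α)).toList.map f).foldr .or (.cst fun _ => False)

noncomputable def QF.all {α : Type} [Finite α] (f : α → QF κ) : QF κ :=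
  .not (QF.any fun a => .not (f a))

@[simp] theorem QF.sem_any {α : Type} [Finite α] (f : α → QF κ) (d) :
    (QF.any f).sem E d ↔ ∃ a, (f a).sem E d := by
  have : ∀ l : List α, ((l.map f).foldr QF.or (.cst fun _ => False)).sem E d ↔
      ∃ a ∈ l, (f a).sem E d := by
    intro l
    induction l with
    | nil => simp [QF.sem]
    | cons a l ih => simp [QF.sem, ih]
  simp [QF.any, this]

@[simp] theorem QF.sem_all {α : Type} [Finite α] (f : α → QF κ) (d) :
    (QF.all f).sem E d ↔ ∀ a, (f a).sem E d := by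
  simp [QF.all, QF.sem]

noncomputable def Fm.any {α : Type} [Finite α] (f : α → Fm κ Pn) : Fm κ Pn :=
  ((@Finset.univ α (Fintype.ofFinite α)).toList.map f).foldr .or (.bin fun _ _ _ => False)

noncomputable def Fm.all {α : Type} [Finite α] (f : α → Fm κ Pn) : Fm κ Pn :=
  ((@Finset.univ α (Fintype.ofFinite α)).toList.map f).foldr .and (.bin fun _ _ _ => True)

@[simp] theorem Fm.sem_any {α : Type} [Finite α] (f : α → Fm κ Pn) (r) :
    (Fm.any f).sem E I r ↔ ∃ a, (f a).sem E I r := by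
  have : ∀ l : List α, ((l.map f).foldr Fm.or (.bin fun _ _ _ => False)).sem E I r ↔
      ∃ a ∈ l, (f a).sem E I r := by
    intro l
    induction l with
    | nil => simp [Fm.sem]
    | cons a l ih => simp [Fm.sem, ih]
  simp [Fm.any, this]

@[simp] theorem Fm.sem_all {α : Type} [Finite α] (f : α → Fm κ Pn) (r) :
    (Fm.all f).sem E I r ↔ ∀ a, (f a).sem E I r := by
  have : ∀ l : List α, ((l.map f).foldr Fm.and (.bin fun _ _ _ => True)).sem E I r ↔
      ∀ a ∈ l, (f a).sem E I r := by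
    intro l
    induction l with
    | nil => simp [Fm.sem]
    | cons a l ih => simp [Fm.sem, ih]
  simp [Fm.all, this]

def Fm.guard (p : Prop) (φ : Fm κ Pn) : Fm κ Pn := .and (.bin fun _ _ _ => p) φ

@[simp] theorem Fm.sem_guard (p : Prop) (φ : Fm κ Pn) (r) :
    (Fm.guard p φ).sem E I r ↔ p ∧ φ.sem E I r := Iff.rfl

@[simp] theorem Fm.sem_and (φ ψ : Fm κ Pn) (r) :
    (Fm.and φ ψ).sem E I r ↔ φ.sem E I r ∧ ψ.sem E I r := Iff.rfl

@[simp] theorem Fm.sem_or (φ ψ : Fm κ Pn) (r) :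
    (Fm.or φ ψ).sem E I r ↔ φ.sem E I r ∨ ψ.sem E I r := Iff.rfl

@[simp] theorem Fm.sem_call (p : Pn) (r) : (Fm.call p : Fm κ Pn).sem E I r ↔ I p r := Iff.rfl

/-! ### numbers stored in blocks of registers -/

def bval (s : ℕ) (d : Fin κ → ℕ) : List (Fin κ) → ℕ
  | [] => 0
  | j :: l => d j + s * bval s d l

theorem bval_congr {s : ℕ} {d d' : Fin κ → ℕ} : ∀ {l : List (Fin κ)}, (∀ j ∈ l, d j = d' j) →
    bval s d l = bval s d' l
  | [], _ => rfl
  | j :: l, h => by
    simp only [bval]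
    rw [h j (by simp), bval_congr fun j hj => h j (by simp [hj])]

theorem bval_lt {s : ℕ} {d : Fin κ → ℕ} (hd : ∀ j, d j < s) : ∀ l : List (Fin κ),
    bval s d l < s ^ l.length
  | [] => by simp [bval]
  | j :: l => by
    have h1 := bval_lt hd l
    have h2 := hd j
    simp only [bval, List.length_cons, pow_succ]
    nlinarith

theorem digit_inj {s a b x y : ℕ} (ha : a < s) (hb : b < s) :
    a + s * x = b + s * y ↔ a = b ∧ x = y := by
  constructor
  · intro h
    have h1 := congrArg (· % s) h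
    simp only [Nat.add_mul_mod_self_left, Nat.mod_eq_of_lt ha, Nat.mod_eq_of_lt hb] at h1
    subst h1
    exact ⟨rfl, Nat.eq_of_mul_eq_mul_left (by omega : 0 < s) (by omega)⟩
  · rintro ⟨rfl, rfl⟩; rfl

def QF.cstL : List (Fin κ) → (Env0 → ℕ) → QF κ
  | [], f => .cst fun E => f E = 0
  | j :: l, f => .and (.rel (fun E a _ => a = f E % E.s) j j) (QF.cstL l fun E => f E / E.s)

theorem QF.sem_cstL {d : Fin κ → ℕ} (hd : ∀ j, d j < E.s) : ∀ (l : List (Fin κ)) (f),
    (QF.cstL l f).sem E d ↔ bval E.s d l = f E.e0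
  | [], f => by simp [QF.cstL, QF.sem, bval, eq_comm]
  | j :: l, f => by
    have h := hd j
    simp only [QF.cstL, QF.sem, QF.sem_cstL hd l, bval]
    have hs : E.e0.s = E.s := rfl
    rw [hs, ← digit_inj h (Nat.mod_lt _ (by omega)), Nat.mod_add_div]

def QF.eqL : List (Fin κ) → List (Fin κ) → QF κ
  | j :: l, j' :: l' => .and (.rel (fun _ a b => a = b) j j') (QF.eqL l l')
  | _, _ => .cst fun _ => True

theorem QF.sem_eqL {d : Fin κ → ℕ} (hd : ∀ j, d j < E.s) : ∀ (l l' : List (Fin κ)),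
    l.length = l'.length → ((QF.eqL l l').sem E d ↔ bval E.s d l = bval E.s d l')
  | [], [], _ => by simp [QF.eqL, QF.sem]
  | [], _ :: _, h => by simp at h
  | _ :: _, [], h => by simp at h
  | j :: l, j' :: l', h => by
    simp only [QF.eqL, QF.sem, QF.sem_eqL hd l l' (by simpa using h), bval]
    rw [digit_inj (hd j) (hd j')]

def QF.succL : List (Fin κ) → List (Fin κ) → QF κ
  | j :: l, j' :: l' => .or (.and (.rel (fun _ a b => a + 1 = b) j j') (QF.eqL l l'))
      (.and (.rel (fun E a b => a + 1 = E.s ∧ b = 0) j j') (QF.succL l l'))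
  | _, _ => .cst fun _ => False

theorem QF.sem_succL {d : Fin κ → ℕ} (hd : ∀ j, d j < E.s) : ∀ (l l' : List (Fin κ)),
    l.length = l'.length → ((QF.succL l l').sem E d ↔ bval E.s d l + 1 = bval E.s d l')
  | [], [], _ => by simp [QF.succL, QF.sem, bval]
  | [], _ :: _, h => by simp at h
  | _ :: _, [], h => by simp at h
  | j :: l, j' :: l', h => by
    have h' : l.length = l'.length := by simpa using h
    simp only [QF.succL, QF.sem, QF.sem_eqL hd l l' h', QF.sem_succL hd l l' h', bval]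
    have hs : E.e0.s = E.s := rfl
    rw [hs]
    have h1 := hd j
    have h2 := hd j'
    by_cases h3 : d j + 1 = E.s
    · have : d j + E.s * bval E.s d l + 1 = 0 + E.s * (bval E.s d l + 1) := by
        rw [mul_add]; omega
      rw [this, digit_inj (by omega) h2]
      omega
    · have : d j + E.s * bval E.s d l + 1 = (d j + 1) + E.s * bval E.s d l := by ring
      rw [this, digit_inj (by omega) h2]
      omega

def exL : List (Fin κ) → Fm κ Pn → Fm κ Pn
  | [], φ => φ
  | j :: l, φ => .ex (.inr j) (exL l φ)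

theorem sem_exL (φ : Fm κ Pn) : ∀ (l : List (Fin κ)) (r : St κ (Fin E.s)),
    (exL l φ).sem E I r ↔ ∃ r', (∀ y, (∀ j ∈ l, y ≠ .inr j) → r' y = r y) ∧ φ.sem E I r'
  | [], r => by
    simp only [exL, List.not_mem_nil, IsEmpty.forall_iff, implies_true, forall_const]
    constructor
    · exact fun h => ⟨r, fun _ => rfl, h⟩
    · rintro ⟨r', h1, h2⟩
      rwa [← funext h1]
  | j :: l, r => by
    simp only [exL, Fm.sem, sem_exL φ l, List.mem_cons, forall_eq_or_imp]
    constructor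
    · rintro ⟨v, r', h1, h2⟩
      exact ⟨r', fun y hy => by rw [h1 y hy.2, update_of_ne hy.1], h2⟩
    · rintro ⟨r', h1, h2⟩
      refine ⟨r' (.inr j), r', fun y hy => ?_, h2⟩
      by_cases h : y = .inr j
      · subst h; simp
      · rw [update_of_ne h, h1 y ⟨h, hy⟩]

theorem exists_set (r : St κ (Fin E.s)) : ∀ (l : List (Fin κ)) (x : ℕ), l.Nodup →
    x < E.s ^ l.length → ∃ r' : St κ (Fin E.s), (∀ y, (∀ j ∈ l, y ≠ .inr j) → r' y = r y) ∧
      bval E.s (dig r') l = x
  | [], x, _, hx => ⟨r, fun _ _ => rfl, by simp at hx; simp [bval, hx]⟩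
  | j :: l, x, hl, hx => by
    have hs : 0 < E.s := (r (.inl 0)).pos
    rw [List.nodup_cons] at hl
    obtain ⟨r', h1, h2⟩ := exists_set r l (x / E.s) hl.2 (by
      rw [Nat.div_lt_iff_lt_mul hs]; simpa [pow_succ] using hx)
    refine ⟨update r' (.inr j) ⟨x % E.s, Nat.mod_lt _ hs⟩, fun y hy => ?_, ?_⟩
    · rw [update_of_ne (hy j (by simp)), h1 y fun j hj => hy j (by simp [hj])]
    · simp only [bval]
      rw [bval_congr (d' := dig r'), h2]
      · simp [dig, Nat.mod_add_div]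
      · intro j' hj'
        have : j' ≠ j := fun e => hl.1 (e ▸ hj')
        simp [dig, this]

theorem dig_lt (r : St κ (Fin E.s)) (j) : dig r j < E.s := (r _).2

/-- replace the value of block `l` by a value related to it by `R` (using the scratch block `w`) -/
def chg (l w : List (Fin κ)) (R : QF κ) (φ : Fm κ Pn) : Fm κ Pn :=
  exL w (.and R.fm (exL l (.and (QF.eqL l w).fm φ)))

theorem chg_elim {l w : List (Fin κ)} {R : QF κ} {φ : Fm κ Pn} {R' : ℕ → ℕ → Prop}
    (hlen : l.length = w.length) (hd : l.Disjoint w)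
    (hR : ∀ r : St κ (Fin E.s), R.sem E (dig r) ↔ R' (bval E.s (dig r) w) (bval E.s (dig r) l))
    {r} (h : (chg l w R φ).sem E I r) :
    ∃ r', (∀ j, j ∉ l → j ∉ w → dig r' j = dig r j) ∧
      R' (bval E.s (dig r') l) (bval E.s (dig r) l) ∧ φ.sem E I r' := by
  simp only [chg, sem_exL, Fm.sem_and, QF.sem_fm, hR, QF.sem_eqL (dig_lt _) l w hlen] at h
  obtain ⟨r1, h1, h2, r2, h3, h4, h5⟩ := h
  have a1 : ∀ j, j ∉ w → dig r1 j = dig r j := fun j hj =>
    congrArg Fin.val (h1 _ fun j' hj' e => hj (by cases e; exact hj'))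
  have a2 : ∀ j, j ∉ l → dig r2 j = dig r1 j := fun j hj =>
    congrArg Fin.val (h3 _ fun j' hj' e => hj (by cases e; exact hj'))
  refine ⟨r2, fun j b1 b2 => (a2 j b1).trans (a1 j b2), ?_, h5⟩
  rw [h4, bval_congr fun j hj => a2 j fun h => hd h hj,
    ← bval_congr fun j hj => a1 j fun h => hd hj h]
  exact h2

theorem chg_intro {l w : List (Fin κ)} {R : QF κ} {φ : Fm κ Pn} {R' : ℕ → ℕ → Prop}
    (hlen : l.length = w.length) (hd : l.Disjoint w) (hl : l.Nodup) (hw : w.Nodup)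
    (hR : ∀ r : St κ (Fin E.s), R.sem E (dig r) ↔ R' (bval E.s (dig r) w) (bval E.s (dig r) l))
    {r} (x : ℕ) (hx : x < E.s ^ l.length) (h1 : R' x (bval E.s (dig r) l))
    (h2 : ∀ r', (∀ j, j ∉ l → j ∉ w → dig r' j = dig r j) → bval E.s (dig r') l = x →
      φ.sem E I r') : (chg l w R φ).sem E I r := by
  simp only [chg, sem_exL, Fm.sem_and, QF.sem_fm, hR, QF.sem_eqL (dig_lt _) l w hlen]
  obtain ⟨r1, b1, b2⟩ := exists_set r w x hw (hlen ▸ hx)
  obtain ⟨r2, b3, b4⟩ := exists_set r1 l x hl hx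
  have a1 : ∀ j, j ∉ w → dig r1 j = dig r j := fun j hj =>
    congrArg Fin.val (b1 _ fun j' hj' e => hj (by cases e; exact hj'))
  have a2 : ∀ j, j ∉ l → dig r2 j = dig r1 j := fun j hj =>
    congrArg Fin.val (b3 _ fun j' hj' e => hj (by cases e; exact hj'))
  refine ⟨r1, b1, ?_, r2, b3, ?_, h2 r2 (fun j c1 c2 => (a2 j c1).trans (a1 j c2)) b4⟩
  · rw [b2, bval_congr fun j hj => a1 j fun h => hd hj h]
    exact h1
  · rw [b4, bval_congr fun j hj => a2 j fun h => hd h hj, b2]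

end Vale.Agent.P310
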