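import Mathlib

namespace Vale.Agent.P310

/-- The type of colours after `r` rounds of `k`-dimensional refinement.  It does not depend on
the graph, so colour names are common to all graphs. -/
def Color (k : ℕ) : ℕ → Type
  | 0 => Fin k → Fin k → Prop × Prop
  | r + 1 => Color k r × Multiset (Fin k → Color k r)

/-- The colour `C_r(x)` of a `k`-tuple `x` after `r` rounds of joint-update `k`-WL. -/
noncomputable def wl {V : Type} [Fintype V] (k : ℕ) (X : SimpleGraph V) :
    (r : ℕ) → (Fin k → V) → Color k r
  | 0, x => fun i j => (x i = x j, X.Adj (x i) (x j))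
  | r + 1, x => (wl k X r x,
      (Finset.univ : Finset V).val.map (fun y i => wl k X r (Function.update x i y)))

/-- `k`-WL equivalence: the multisets of colours agree after every round. -/
def WLEquiv (k : ℕ) {n : ℕ} (G H : SimpleGraph (Fin n)) : Prop :=
  ∀ r : ℕ, (Finset.univ : Finset (Fin k → Fin n)).val.map (wl k G r) =
    (Finset.univ : Finset (Fin k → Fin n)).val.map (wl k H r)

open Classical in
/-- The adjacency matrix of `G`, row by row, as a list of `n * n` bits. -/
noncomputable def adjBits {n : ℕ} (G : SimpleGraph (Fin n)) : List Bool :=
  List.ofFn fun p : Fin (n * n) => decide (G.Adj p.divNat p.modNat)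

/-- The input word: adjacency matrix of `G` followed by that of `H`. -/
noncomputable def inputBits {n : ℕ} (G H : SimpleGraph (Fin n)) : List Bool :=
  adjBits G ++ adjBits H

end Vale.Agent.P310
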