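import Vale.Agent.P310.Self

namespace Vale.Agent.P310

open Function

variable {κ : ℕ} {Pn : Type}

/-- the self-describing pair of graphs -/
theorem diag [Finite Pn] {M : ℕ} (hκ : 2 ≤ κ) (L : SLay κ M) (u v : Fin 7 → Fin κ)
    (hu : L.blk 7 = List.ofFn u) (hv : L.blk 8 = List.ofFn v) (body : Pn → Fm κ Pn) (main : Pn) :
    ∃ N : ℕ, ∀ s n : ℕ, N ≤ s → s ^ 6 ≤ n → ∃ (E : Env) (X : Bool → SimpleGraph (Fin E.n)),
      E.s = s ∧ E.n = n ∧ L.AdjOk E (adjQ u v) X ∧
      (WLEquiv (κ + 1) (X false) (X true) ↔ ∀ r, ¬ DerF E body (.call main) r) := by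
  haveI : Finite (Col (Nd body) κ) := by
    refine Finite.of_surjective
      (α := Nd body ⊕ (Nd body × Bool) ⊕ (Nd body × Bool × Bool × Fin (κ + 3)))
      (Sum.elim .node (Sum.elim (fun x => .merge x.1 x.2)
        (fun x => .wire x.1 x.2.1 x.2.2.1 x.2.2.2))) ?_
    rintro (q | ⟨q, σ⟩ | ⟨q, σ, ω, t⟩)
    · exact ⟨.inl q, rfl⟩
    · exact ⟨.inr (.inl (q, σ)), rfl⟩
    · exact ⟨.inr (.inr (q, σ, ω, t)), rfl⟩
  obtain ⟨N, ⟨e⟩⟩ := Finite.exists_equiv_fin (Ty body)
  let code : Ty body → ℕ := fun z => (e z).val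
  have hc : Injective code := fun a b h => e.injective (Fin.ext h)
  refine ⟨N + 3, fun s n hN hn => ?_⟩
  have hs : ∀ z, code z < s := fun z => lt_of_lt_of_le (e z).2 (by omega)
  let ι : U (B1 body s) s ↪ Fin n :=
    ⟨fun a => ⟨num s (dg body code a), (num_lt (dg_lt hs a) (dg_six a)).trans_le hn⟩,
      fun a b h => dg_inj hc (num_inj (dg_lt hs a) (dg_lt hs b) (congrArg Fin.val h))⟩
  haveI : Nonempty (Fin s) := ⟨⟨0, by omega⟩⟩
  haveI : Nonempty (Fin (envOf body main code s n).s) := ⟨⟨0, by show 0 < s; omega⟩⟩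
  haveI : Nonempty (B1 body s) := ⟨((.node none, 0), fun _ => ⟨0, by omega⟩)⟩
  refine ⟨envOf body main code s n, cfi (sysOf body main code s n) (crdOf body code hs) ι,
    rfl, rfl, ?_, ?_⟩
  · intro g r x y hx hy
    have hx' : num s (dig r ∘ u) = x.val := by rw [← hx, Lay.bv, hu, bval_ofFn]; rfl
    have hy' : num s (dig r ∘ v) = y.val := by rw [← hy, Lay.bv, hv, bval_ofFn]; rfl
    have du : ∀ j, (dig r ∘ u) j < s := fun j => dig_lt r _
    have dv : ∀ j, (dig r ∘ v) j < s := fun j => dig_lt r _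
    have key : ∀ (a : U (B1 body s) s) (d : Fin 7 → ℕ) (x : Fin n), (∀ j, d j < s) →
        num s d = x.val → (dg body code a = d ↔ ι a = x) := by
      intro a d x hd hx
      constructor
      · rintro rfl; exact Fin.ext hx
      · rintro rfl; exact num_inj (dg_lt hs a) hd hx.symm
    simp only [adjQ, QF.sem, sem_relQ, cfi, SimpleGraph.fromRel_adj]
    rw [QF.sem_eqL (dig_lt r) _ _ (by simp), bval_ofFn, bval_ofFn, genRel_iff main hc hs g du dv,
      genRel_iff main hc hs g dv du]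
    simp only [key _ _ x du hx', key _ _ y dv hy']
    refine and_congr_left fun _ => not_congr ?_
    show num s _ = num s _ ↔ _
    rw [hx', hy', Fin.val_inj]
  · constructor
    · intro h r hd
      have h1 := spo_of_wlEquiv _ _ _ (by omega) (by omega) (crdOf_inj hc hs) h
      refine (progOf (envOf body main code s n) body main).not_spo (by omega) none r rfl
        (der_of_derF main hd _) (Sys.Spo.of_comap _ h1 (ofBase body) ?_ ?_)
      · rintro ⟨c, i, r⟩
        funext p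
        refine Prog.gv_eq _ _ fun y hy => ?_
        have := reg_pos (scope_tag_known _ _ _ _ _ _ hy)
        simp only [toBase, ofBase] at this ⊢
        rw [this]
      · rintro ⟨c, i, r⟩
        funext a
        rcases c with q | ⟨q, σ⟩ | ⟨q, σ, ω, t⟩
        · show okNode _ _ _ _ _ _ _ = okNode _ _ _ _ _ _ _
          rcases hk : (progOf (envOf body main code s n) body main).kind q with test | _ | x | _
          · simp only [okNode]
            congr 1
            exact propext ((progOf _ body main).test_local q test hk i _ _ fun y hy => by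
              simp only [toBase, ofBase, reg_pos hy])
          all_goals rfl
        · rfl
        · rfl
    · intro h
      refine wlEquiv_of_dup _ _ _ (Sys.Dup.comap (Prog.dup _ (by omega) ?_) _)
      rintro (_ | ⟨φ, hφ⟩) r hk hd
      · obtain ⟨_, ⟨⟩, hd⟩ := derF_of_der main hd
        exact h r hd
      · cases φ <;> cases hk

theorem exists_lay (M : ℕ) (h : 7 * M + 21 ≤ κ) : ∃ (L : SLay κ M) (u v : Fin 7 → Fin κ),
    L.blk 7 = List.ofFn u ∧ L.blk 8 = List.ofFn v := by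
  let len : Fin 10 → ℕ := fun a => if a < 7 then M else 7
  let st : Fin 10 → ℕ := fun a => if a < 7 then a.val * M else 7 * M + (a.val - 7) * 7
  have hb : ∀ a, st a + len a ≤ κ := by
    intro a
    fin_cases a <;> simp [st, len] <;> omega
  have hd : ∀ a b, a < b → st a + len a ≤ st b := by
    intro a b hab
    fin_cases a <;> fin_cases b <;> simp [st, len] at hab ⊢ <;> omega
  let f : ∀ a, Fin (len a) → Fin κ := fun a j => ⟨st a + j.val, by have := hb a; omega⟩
  refine ⟨⟨⟨fun a => List.ofFn (f a), sc10, ?_, ?_, ?_⟩, rfl, ?_, ?_⟩, f 7, f 8, rfl, rfl⟩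
  · intro a
    exact List.nodup_ofFn.2 fun i j h => Fin.ext (by simpa [f] using h)
  · intro a b hab j h1 h2
    rw [List.mem_ofFn] at h1 h2
    obtain ⟨i, rfl⟩ := h1
    obtain ⟨i', h2⟩ := h2
    have h3 : st b + i'.val = st a + i.val := congrArg Fin.val h2
    rcases lt_or_gt_of_ne hab with h | h <;> have := hd _ _ h <;> omega
  · intro a
    simp only [List.length_ofFn, len, sc10]
    split_ifs <;> simp_all
  · intro a ha; simp [len, ha]
  · intro a ha; simp [len, ha]

theorem exists_root (N : ℕ) : ∃ n0 : ℕ, ∀ n ≥ n0, ∃ s, N ≤ s ∧ 4 ≤ s ∧ s ^ 6 ≤ n ∧ n < s ^ 7 := by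
  refine ⟨(N + 4) ^ 6, fun n hn => ?_⟩
  have h1 := Nat.pow_nthRoot_le (n := 6) (a := n) (by simp)
  have h2 := Nat.lt_pow_nthRoot_add_one (n := 6) (by simp) n
  set s := Nat.nthRoot 6 n
  have h3 : N + 4 ≤ s := by
    have := lt_of_pow_lt_pow_left₀ 6 (Nat.zero_le _) (hn.trans_lt h2)
    omega
  refine ⟨s, by omega, by omega, h1, h2.trans_le ?_⟩
  have h4 : 4 * (s + 1) ≤ 5 * s := by omega
  have h5 := Nat.pow_le_pow_left h4 6
  have h6 : 4 * s ^ 6 ≤ s ^ 7 := by rw [pow_succ' s 6]; exact Nat.mul_le_mul_right _ (by omega)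
  rw [mul_pow, mul_pow] at h5
  omega

theorem rpow_le {k n s t : ℕ} (hk : 100 ≤ k) (hs : 4 ≤ s) (hn : n < s ^ 7)
    (ht : s ^ ((k - 22) / 7) ≤ t) : (n : ℝ) ^ ((1 / 100 : ℝ) * k) ≤ t := by
  have h1 : (n : ℝ) ≤ (s : ℝ) ^ (7 : ℝ) := by exact_mod_cast hn.le
  have hs1 : (1 : ℝ) ≤ s := by exact_mod_cast (by omega : 1 ≤ s)
  calc (n : ℝ) ^ ((1 / 100 : ℝ) * k) ≤ ((s : ℝ) ^ (7 : ℝ)) ^ ((1 / 100 : ℝ) * k) :=
        Real.rpow_le_rpow (Nat.cast_nonneg _) h1 (by positivity)
    _ = (s : ℝ) ^ (7 * ((1 / 100 : ℝ) * k)) := by rw [← Real.rpow_mul (by positivity)]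
    _ ≤ (s : ℝ) ^ (((k - 22) / 7 : ℕ) : ℝ) := by
        apply Real.rpow_le_rpow_of_exponent_le hs1
        have : 7 * k ≤ 100 * ((k - 22) / 7) := by omega
        have : (7 * k : ℝ) ≤ 100 * ((k - 22) / 7 : ℕ) := by exact_mod_cast this
        linarith
    _ ≤ t := by rw [Real.rpow_natCast]; exact_mod_cast ht

end Vale.Agent.P310
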