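import Vale.Agent.P310.Defs

namespace Vale.Agent.P310

open Function

variable {V : Type} [Fintype V] {k : ℕ}

/-- preservation of atomic types -/
def Atom (G H : SimpleGraph V) (x x' : Fin k → V) : Prop :=
  ∀ i j, (x i = x j ↔ x' i = x' j) ∧ (G.Adj (x i) (x j) ↔ H.Adj (x' i) (x' j))

theorem wl_eq_of_system (G H : SimpleGraph V) (R : (Fin k → V) → (Fin k → V) → Prop)
    (hat : ∀ x x', R x x' → Atom G H x x')
    (hext : ∀ x x', R x x' → ∃ β : V ≃ V, ∀ y i, R (update x i y) (update x' i (β y))) :
    ∀ r x x', R x x' → wl k G r x = wl k H r x' := by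
  intro r
  induction r with
  | zero =>
    intro x x' h
    funext i j
    have := hat x x' h i j
    simp only [wl]
    rw [propext this.1, propext this.2]
  | succ r ih =>
    intro x x' h
    obtain ⟨β, hβ⟩ := hext x x' h
    simp only [wl]
    refine Prod.ext (ih x x' h) ?_
    show Multiset.map _ _ = Multiset.map _ _
    have : (Finset.univ : Finset V).val.map β = (Finset.univ : Finset V).val := by simp
    conv_rhs => rw [← this, Multiset.map_map]
    refine Multiset.map_congr rfl ?_
    intro y _
    funext i
    exact ih _ _ (hβ y i)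

open Classical in
theorem count_eq_of_system {C : Type} (c c' : (Fin k → V) → C)
    (R : (Fin k → V) → (Fin k → V) → Prop) (hc : ∀ x x', R x x' → c x = c' x')
    (hext : ∀ x x', R x x' → ∃ β : V ≃ V, ∀ y i, R (update x i y) (update x' i (β y)))
    (γ : C) : ∀ j : ℕ, j ≤ k → ∀ x x', R x x' →
      (Finset.univ.filter fun z : Fin k → V => (∀ i : Fin k, j ≤ i.val → z i = x i) ∧ c z = γ).card =
      (Finset.univ.filter fun z : Fin k → V =>
        (∀ i : Fin k, j ≤ i.val → z i = x' i) ∧ c' z = γ).card := by
  have key : ∀ (d : (Fin k → V) → C) (j : ℕ) (hj : j < k) (x : Fin k → V),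
      (Finset.univ.filter fun z : Fin k → V =>
        (∀ i : Fin k, j + 1 ≤ i.val → z i = x i) ∧ d z = γ).card =
      ∑ y : V, (Finset.univ.filter fun z : Fin k → V =>
        (∀ i : Fin k, j ≤ i.val → z i = update x ⟨j, hj⟩ y i) ∧ d z = γ).card := by
    intro d j hj x
    rw [Finset.card_eq_sum_card_fiberwise (f := fun z => z ⟨j, hj⟩) (t := Finset.univ)
      (by intro z _; simp)]
    refine Finset.sum_congr rfl fun y _ => ?_
    congr 1
    ext z
    simp only [Finset.mem_filter, Finset.mem_univ, true_and]
    constructor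
    · rintro ⟨⟨h1, h2⟩, h3⟩
      refine ⟨fun i hi => ?_, h2⟩
      by_cases hij : i = ⟨j, hj⟩
      · subst hij; simpa using h3
      · rw [update_of_ne hij]
        apply h1
        have : i.val ≠ j := fun h => hij (Fin.ext h)
        omega
    · rintro ⟨h1, h2⟩
      refine ⟨⟨fun i hi => ?_, h2⟩, ?_⟩
      · have hij : i ≠ ⟨j, hj⟩ := by
          intro h; subst h; simp at hi
        rw [h1 i (by omega), update_of_ne hij]
      · simpa using h1 ⟨j, hj⟩ le_rfl
  intro j
  induction j with
  | zero =>
    intro _ x x' h
    have e : ∀ (d : (Fin k → V) → C) (x : Fin k → V),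
        (Finset.univ.filter fun z : Fin k → V =>
          (∀ i : Fin k, 0 ≤ i.val → z i = x i) ∧ d z = γ) =
          if d x = γ then {x} else ∅ := by
      intro d x
      ext z
      simp only [Finset.mem_filter, Finset.mem_univ, true_and, zero_le, forall_const]
      split_ifs with hd
      · simp only [Finset.mem_singleton]
        constructor
        · rintro ⟨h1, _⟩; exact funext h1
        · rintro rfl; exact ⟨fun _ => rfl, hd⟩
      · simp only [Finset.notMem_empty, iff_false, not_and]
        intro h1 h2
        exact hd (by rw [← funext h1]; exact h2)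
    rw [e, e, hc x x' h]
    split_ifs <;> simp
  | succ j ih =>
    intro hj x x' h
    have hj' : j < k := hj
    rw [key c j hj', key c' j hj']
    obtain ⟨β, hβ⟩ := hext x x' h
    conv_rhs => rw [← β.sum_comp]
    exact Finset.sum_congr rfl fun y _ => ih hj'.le _ _ (hβ y _)

theorem wlEquiv_of_system {n : ℕ} (G H : SimpleGraph (Fin n))
    (R : (Fin k → Fin n) → (Fin k → Fin n) → Prop) (hne : ∃ x x', R x x')
    (hat : ∀ x x', R x x' → Atom G H x x')
    (hext : ∀ x x', R x x' → ∃ β : Fin n ≃ Fin n,
      ∀ y i, R (update x i y) (update x' i (β y))) : WLEquiv k G H := by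
  classical
  intro r
  obtain ⟨x, x', h⟩ := hne
  rw [Multiset.ext]
  intro γ
  have := count_eq_of_system (wl k G r) (wl k H r) R (wl_eq_of_system G H R hat hext r) hext γ
    k le_rfl x x' h
  rw [Multiset.count_map, Multiset.count_map]
  have e : ∀ (d : (Fin k → Fin n) → Color k r) (x : Fin k → Fin n),
      (Finset.univ.filter fun z : Fin k → Fin n =>
        (∀ i : Fin k, k ≤ i.val → z i = x i) ∧ d z = γ).card =
      (Multiset.filter (fun a => γ = d a) Finset.univ.val).card := by
    intro d x
    rw [← Finset.filter_val, Finset.card_val]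
    congr 1
    ext z
    simp only [Finset.mem_filter, Finset.mem_univ, true_and]
    constructor
    · rintro ⟨_, h⟩; exact h.symm
    · intro h; exact ⟨fun i hi => absurd i.2 (by omega), h.symm⟩
  rw [← e _ x, ← e _ x']
  convert this

theorem wl_mono (G H : SimpleGraph V) (x x' : Fin k → V) :
    ∀ r r', r ≤ r' → wl k G r' x = wl k H r' x' → wl k G r x = wl k H r x' := by
  intro r r' h
  induction h with
  | refl => exact id
  | step _ ih =>
    intro h
    apply ih
    simp only [wl] at h
    exact congrArg Prod.fst h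

theorem exists_forall_of_mono {α : Type} [Finite α] (P : ℕ → α → Prop)
    (hmono : ∀ r r' a, r ≤ r' → P r' a → P r a) (h : ∀ r, ∃ a, P r a) : ∃ a, ∀ r, P r a := by
  by_contra hc
  push Not at hc
  choose f hf using hc
  obtain ⟨N, hN⟩ := (Set.finite_range f).bddAbove
  obtain ⟨a, ha⟩ := h N
  exact hf a (hmono _ _ a (hN ⟨a, rfl⟩) ha)

/-- the stable equivalence of tuples -/
def Stable (k : ℕ) (G H : SimpleGraph V) (x x' : Fin k → V) : Prop :=
  ∀ r, wl k G r x = wl k H r x'

theorem Stable.symm {G H : SimpleGraph V} {x x' : Fin k → V} (h : Stable k G H x x') :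
    Stable k H G x' x := fun r => (h r).symm

theorem Stable.atom {G H : SimpleGraph V} {x x' : Fin k → V} (h : Stable k G H x x') :
    Atom G H x x' := by
  intro i j
  have := congrFun (congrFun (h 0) i) j
  simp only [wl, Prod.mk.injEq, eq_iff_iff] at this
  exact this

theorem Stable.forth {G H : SimpleGraph V} {x x' : Fin k → V} (h : Stable k G H x x') (y : V) :
    ∃ y', ∀ i, Stable k G H (update x i y) (update x' i y') := by
  have := exists_forall_of_mono
    (fun r y' => ∀ i, wl k G r (update x i y) = wl k H r (update x' i y'))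
    (fun r r' a hr ha i => wl_mono G H _ _ r r' hr (ha i)) (by
      intro r
      have h1 := h (r + 1)
      simp only [wl] at h1
      have h2 := congrArg Prod.snd h1
      simp only at h2
      have h3 : (fun i => wl k G r (update x i y)) ∈
          (Finset.univ : Finset V).val.map (fun y i => wl k G r (update x i y)) :=
        Multiset.mem_map_of_mem _ (Finset.mem_univ y)
      rw [h2, Multiset.mem_map] at h3
      obtain ⟨y', _, hy'⟩ := h3
      exact ⟨y', fun i => (congrFun hy' i).symm⟩)
  obtain ⟨y', hy'⟩ := this
  exact ⟨y', fun i r => hy' r i⟩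

theorem exists_stable {n : ℕ} {G H : SimpleGraph (Fin n)} (h : WLEquiv k G H)
    (x : Fin k → Fin n) : ∃ x', Stable k G H x x' := by
  refine exists_forall_of_mono (fun r x' => wl k G r x = wl k H r x')
    (fun r r' a hr ha => wl_mono G H _ _ r r' hr ha) ?_
  intro r
  have h3 : wl k G r x ∈ (Finset.univ : Finset (Fin k → Fin n)).val.map (wl k G r) :=
    Multiset.mem_map_of_mem _ (Finset.mem_univ x)
  rw [h r, Multiset.mem_map] at h3
  obtain ⟨y', _, hy'⟩ := h3
  exact ⟨y', hy'.symm⟩

end Vale.Agent.P310
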