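import Vale.Agent.P310.Comb

namespace Vale.Agent.P310

open Function

variable {κ : ℕ}

def dl (c : Fin 5) : Fin 7 := ⟨c.val + 1, by omega⟩
def dt (t : Fin 3) : Fin 7 := ⟨t.val + 1, by omega⟩

def Zr (d : Fin 7 → ℕ) : Prop := d 2 = 0 ∧ d 3 = 0 ∧ d 4 = 0 ∧ d 5 = 0

def Alive (E : Env) (g : Bool) (d : Fin 7 → ℕ) : Prop :=
  E.d.aliveT g (d 0) ∨ (∃ t, E.d.isEq t (d 0) ∧ ¬ d (dt t) = d 5) ∨
    (E.d.isBin (d 0) ∧ ¬ E.st (d 0) (d 2) (d 3)) ∨
    (E.d.isStar true (d 0) ∧ ¬ E.st (d 1) (d 2) (d 3)) ∨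
    (E.d.isStar false (d 0) ∧ E.st (d 1) (d 2) (d 3))

def GenRel (E : Env) (g : Bool) (d d' : Fin 7 → ℕ) : Prop :=
  d 6 = 0 ∧ d' 6 = 0 ∧
    ((E.d.isMain (d 0) ∧ E.d.isMain (d' 0) ∧ ∃ p p', E.d.conflict p p' (d 0) (d' 0) ∧
        ∀ c c', E.d.link p p' c c' (d 0) (d' 0) → d (dl c) = d' (dl c')) ∨
      (E.d.isMain (d 0) ∧ Zr d' ∧ ((E.d.isRuler 0 (d' 0) ∧ E.d.color (d 0) (d' 1)) ∨
        (∃ c : Fin 5, E.d.isRuler (dl c) (d' 0) ∧ d (dl c) = d' 1) ∨
        (E.d.isRuler 6 (d' 0) ∧ d' 1 = 0 ∧ Alive E g d))) ∨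
      (Zr d ∧ Zr d' ∧ ∃ c c' : Fin 7, E.d.isRuler c (d 0) ∧ E.d.isRuler c' (d' 0) ∧
        (c'.val * E.s + d' 1 = c.val * E.s + d 1 + 1 ∨ (c = 6 ∧ c' = 6))) ∨
      (E.d.isSpec true (d 0) ∧ Zr d ∧ d 1 = 0 ∧ Zr d' ∧ ∃ c, E.d.isRuler c (d' 0)) ∨
      (E.d.isSpec false (d 0) ∧ Zr d ∧ d 1 = 0 ∧ E.d.isSpec true (d' 0) ∧ Zr d' ∧ d' 1 = 0))

def QF.un (f : Env0 → ℕ → Prop) (j : Fin κ) : QF κ := .rel (fun E a _ => f E a) j j
def QF.z (j : Fin κ) : QF κ := QF.un (fun _ a => a = 0) j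
def QF.eq (j j' : Fin κ) : QF κ := .rel (fun _ a b => a = b) j j'
def zrQ (u : Fin 7 → Fin κ) : QF κ :=
  .and (.z (u 2)) (.and (.z (u 3)) (.and (.z (u 4)) (.z (u 5))))

noncomputable def aliveQ (g : Bool) (u : Fin 7 → Fin κ) : QF κ :=
  .or (.un (fun E => E.d.aliveT g) (u 0))
    (.or (.any fun t => .and (.un (fun E => E.d.isEq t) (u 0)) (.not (.eq (u (dt t)) (u 5))))
      (.or (.and (.un (fun E => E.d.isBin) (u 0)) (.not (.star (u 0) (u 2) (u 3))))
        (.or (.and (.un (fun E => E.d.isStar true) (u 0)) (.not (.star (u 1) (u 2) (u 3))))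
          (.and (.un (fun E => E.d.isStar false) (u 0)) (.star (u 1) (u 2) (u 3))))))

noncomputable def relQ (g : Bool) (u v : Fin 7 → Fin κ) : QF κ :=
  .and (.z (u 6)) (.and (.z (v 6))
    (.or (.and (.un (fun E => E.d.isMain) (u 0)) (.and (.un (fun E => E.d.isMain) (v 0))
        (.any fun p => .any fun p' => .and (.rel (fun E => E.d.conflict p p') (u 0) (v 0))
          (.all fun c => .all fun c' => .or (.not (.rel (fun E => E.d.link p p' c c') (u 0) (v 0)))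
            (.eq (u (dl c)) (v (dl c')))))))
      (.or (.and (.un (fun E => E.d.isMain) (u 0)) (.and (zrQ v)
          (.or (.and (.un (fun E => E.d.isRuler 0) (v 0)) (.rel (fun E => E.d.color) (u 0) (v 1)))
            (.or (.any fun c : Fin 5 => .and (.un (fun E => E.d.isRuler (dl c)) (v 0))
                (.eq (u (dl c)) (v 1)))
              (.and (.un (fun E => E.d.isRuler 6) (v 0)) (.and (.z (v 1)) (aliveQ g u)))))))
        (.or (.and (zrQ u) (.and (zrQ v) (.any fun c : Fin 7 => .any fun c' : Fin 7 =>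
            .and (.un (fun E => E.d.isRuler c) (u 0)) (.and (.un (fun E => E.d.isRuler c') (v 0))
              (.rel (fun E a b => c'.val * E.s + b = c.val * E.s + a + 1 ∨ (c = 6 ∧ c' = 6))
                (u 1) (v 1))))))
          (.or (.and (.un (fun E => E.d.isSpec true) (u 0)) (.and (zrQ u) (.and (.z (u 1))
              (.and (zrQ v) (.any fun c => .un (fun E => E.d.isRuler c) (v 0))))))
            (.and (.un (fun E => E.d.isSpec false) (u 0)) (.and (zrQ u) (.and (.z (u 1))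
              (.and (.un (fun E => E.d.isSpec true) (v 0)) (.and (zrQ v) (.z (v 1))))))))))))

theorem sem_relQ (E : Env) (g : Bool) (u v : Fin 7 → Fin κ) (d : Fin κ → ℕ) :
    (relQ g u v).sem E d ↔ GenRel E g (d ∘ u) (d ∘ v) := by
  simp only [relQ, GenRel, aliveQ, Alive, zrQ, Zr, QF.sem, QF.sem_any, QF.sem_all, QF.un, QF.z,
    QF.eq, comp, Env.e0, imp_iff_not_or]

noncomputable def adjQ (u v : Fin 7 → Fin κ) (g : Bool) : QF κ :=
  .and (.not (.eqL (List.ofFn u) (List.ofFn v))) (.or (relQ g u v) (relQ g v u))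

def num (s : ℕ) (d : Fin 7 → ℕ) : ℕ := bval s d (List.finRange 7)

theorem bval_map {m : ℕ} (s : ℕ) (d : Fin κ → ℕ) (u : Fin m → Fin κ) :
    ∀ l : List (Fin m), bval s d (l.map u) = bval s (d ∘ u) l
  | [] => rfl
  | j :: l => by simp [bval, bval_map s d u l]

theorem bval_ofFn (s : ℕ) (d : Fin κ → ℕ) (u : Fin 7 → Fin κ) :
    bval s d (List.ofFn u) = num s (d ∘ u) := by
  rw [List.ofFn_eq_map, bval_map, num]

theorem bval_inj {s : ℕ} {d d' : Fin κ → ℕ} (hd : ∀ j, d j < s) (hd' : ∀ j, d' j < s) :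
    ∀ l : List (Fin κ), bval s d l = bval s d' l → ∀ j ∈ l, d j = d' j
  | [], _ => by simp
  | j :: l, h => by
    simp only [bval] at h
    rw [digit_inj (hd j) (hd' j)] at h
    simp only [List.mem_cons, forall_eq_or_imp]
    exact ⟨h.1, bval_inj hd hd' l h.2⟩

theorem num_inj {s : ℕ} {d d' : Fin 7 → ℕ} (hd : ∀ j, d j < s) (hd' : ∀ j, d' j < s)
    (h : num s d = num s d') : d = d' :=
  funext fun j => bval_inj hd hd' _ h j (List.mem_finRange j)

theorem num_lt {s : ℕ} {d : Fin 7 → ℕ} (hd : ∀ j, d j < s) (h6 : d 6 = 0) : num s d < s ^ 6 := by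
  have : num s d = bval s d [0, 1, 2, 3, 4, 5] := by
    have : List.finRange 7 = [0, 1, 2, 3, 4, 5, 6] := by decide
    simp [num, this, bval, h6]
  rw [this]
  exact bval_lt hd _

end Vale.Agent.P310
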