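import Vale.Agent.P310.Sys

namespace Vale.Agent.P310

open Function

abbrev Reg (κ : ℕ) := Fin 3 ⊕ Fin κ
abbrev St (κ : ℕ) (V : Type) := Reg κ → V

variable {κ : ℕ} {V Q : Type}

/-- registers known to row `i` -/
def known (i : Fin (κ + 1)) : Reg κ → Prop
  | .inl _ => True
  | .inr j => i.val = j.val ∨ i.val = j.val + 1

/-- registers known at level `e` (between rows `e - 1` and `e`) -/
def lev (e : ℕ) : Reg κ → Prop
  | .inl _ => True
  | .inr j => e = j.val + 1

theorem known_of_lev_up {i : Fin (κ + 1)} {y : Reg κ} (h : lev i.val y) : known i y := by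
  rcases y with y | y
  · trivial
  · exact Or.inr h

theorem known_of_lev_dn {i : Fin (κ + 1)} {y : Reg κ} (h : lev (i.val + 1) y) : known i y := by
  rcases y with y | y
  · trivial
  · exact Or.inl (by simp only [lev] at h; omega)

inductive Kind (κ : ℕ) (V : Type) : Type
  | leaf (test : Fin (κ + 1) → St κ V → Prop)
  | and
  | orx (x : Option (Reg κ))
  | root

structure Prog (Q : Type) (κ : ℕ) (V : Type) where
  kind : Q → Kind κ V
  child : Q → Bool → Q
  test_local : ∀ q test, kind q = .leaf test → ∀ i r r', (∀ y, known i y → r y = r' y) →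
    (test i r ↔ test i r')

def agreeOff (x : Option (Reg κ)) (r r' : St κ V) : Prop := ∀ y, some y ≠ x → r y = r' y

inductive Prog.Der (P : Prog Q κ V) : Q → St κ V → Prop
  | leaf {q test r} : P.kind q = .leaf test → (∀ i, test i r) → Der P q r
  | and {q r} : P.kind q = .and → Der P (P.child q false) r → Der P (P.child q true) r → Der P q r
  | orx {q x r r' σ} : P.kind q = .orx x → agreeOff x r r' → Der P (P.child q σ) r' → Der P q r

def Kind.mask : Kind κ V → Option (Reg κ)
  | .orx x => x
  | _ => none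

inductive Col (Q : Type) (κ : ℕ) : Type
  | node (q : Q)
  | merge (q : Q) (σ : Bool)
  | wire (q : Q) (σ ω : Bool) (t : Fin (κ + 3))

inductive Tag (Q : Type) (κ : ℕ) : Type
  | N (q : Q) (i : Fin (κ + 1))
  | O (q : Q) (σ : Bool) (i : Fin (κ + 1))
  | H (q : Q) (σ ω : Bool) (t : ℕ) (i : Fin (κ + 1))
  | G (q : Q) (σ ω : Bool) (t : ℕ) (e : ℕ)
  | Z

def scope (mask : Q → Option (Reg κ)) : Tag Q κ → Reg κ → Prop
  | .N _ i, y => known i y
  | .O q _ i, y => known i y ∧ some y ≠ mask q
  | .H _ _ _ _ i, y => known i y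
  | .G _ _ _ _ e, y => lev e y
  | .Z, _ => False

def hTag (child : Q → Bool → Q) (q : Q) (σ ω : Bool) (t : ℕ) (i : Fin (κ + 1)) : Tag Q κ :=
  if t = 0 then .N (child q σ) i else .H q σ ω t i

def tag (child : Q → Bool → Q) : Col Q κ → Fin (κ + 1) → Fin 4 → Tag Q κ
  | .node q, i => ![.N q i, .O q false i, .O q true i, .Z]
  | .merge q σ, i => ![.O q σ i, .H q σ false (κ + 3) i, .H q σ true (κ + 3) i, .Z]
  | .wire q σ ω t, i => ![hTag child q σ ω t i, .H q σ ω (t + 1) i, .G q σ ω t i,
      .G q σ ω t (i + 1)]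

open Classical in
noncomputable def res (S : Reg κ → Prop) (r : St κ V) : Reg κ → Option V :=
  fun y => if S y then some (r y) else none

theorem res_eq_iff {S : Reg κ → Prop} {r r' : St κ V} :
    res S r = res S r' ↔ ∀ y, S y → r y = r' y := by
  constructor
  · intro h y hy
    simpa [res, hy] using congrFun h y
  · intro h
    funext y
    by_cases hy : S y <;> simp [res, hy, h y]

def okNode (g : Bool) (k : Kind κ V) (i : Fin (κ + 1)) (r : St κ V) (a b c : F) : Prop :=
  match k with
  | .leaf test => test i r → a = 0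
  | .and => a = b + c
  | .orx _ => a = b ∧ a = c
  | .root => b = if g = true ∧ i = 0 then 1 else 0

def okWire (i : Fin (κ + 1)) (a b c d : F) : F :=
  a + b + (if i = 0 then 0 else c) + (if i = Fin.last κ then 0 else d)

abbrev Base (Q : Type) (κ : ℕ) (V : Type) := Col Q κ × Fin (κ + 1) × St κ V
abbrev GVar (Q : Type) (κ : ℕ) (V : Type) := Tag Q κ × (Reg κ → Option V)

def Prog.mask (P : Prog Q κ V) (q : Q) : Option (Reg κ) := (P.kind q).mask

noncomputable def Prog.gv (P : Prog Q κ V) (T : Tag Q κ) (r : St κ V) : GVar Q κ V :=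
  (T, res (scope P.mask T) r)

def Prog.okc (P : Prog Q κ V) (g : Bool) (c : Col Q κ) (i : Fin (κ + 1)) (r : St κ V) (a : A) :
    Prop :=
  match c with
  | .node q => okNode g (P.kind q) i r (a 0) (a 1) (a 2)
  | .merge _ _ => a 0 = a 1 + a 2
  | .wire _ _ _ _ => okWire i (a 0) (a 1) (a 2) (a 3) = 0

theorem tag_inj (child : Q → Bool → Q) (c : Col Q κ) (i : Fin (κ + 1)) :
    Injective (tag child c i) := by
  intro p p' h
  rcases c with q | ⟨q, σ⟩ | ⟨q, σ, ω, t⟩
  · fin_cases p <;> fin_cases p' <;> simp_all [tag]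
  · fin_cases p <;> fin_cases p' <;> simp_all [tag]
  · by_cases ht : t.val = 0 <;> fin_cases p <;> fin_cases p' <;> simp_all [tag, hTag]

theorem F_add_self (a : F) : a + a = 0 := by
  fin_cases a <;> rfl

theorem okNode_add (k : Kind κ V) (i : Fin (κ + 1)) (r : St κ V) {a b c a' b' c' : F}
    (h : okNode true k i r a' b' c') :
    okNode false k i r a b c ↔ okNode true k i r (a + a') (b + b') (c + c') := by
  rcases k with test | _ | x | _
  · simp only [okNode] at h ⊢
    refine imp_congr_right fun ht => ?_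
    rw [h ht, add_zero]
  · simp only [okNode] at h ⊢
    rw [h]
    constructor
    · rintro rfl; ring
    · intro h; linear_combination h
  · simp only [okNode] at h ⊢
    rw [← h.1, ← h.2]; simp
  · simp only [okNode] at h ⊢
    rw [h]; simp

noncomputable def Prog.sys (P : Prog Q κ V) : Sys (Base Q κ V) (GVar Q κ V) where
  var b p := P.gv (tag P.child b.1 b.2.1 p) b.2.2
  ok g b a := P.okc g b.1 b.2.1 b.2.2 a
  var_inj b := fun _ _ h => tag_inj _ _ _ (congrArg Prod.fst h)
  ok_zero := by
    rintro ⟨c, i, r⟩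
    rcases c with q | ⟨q, σ⟩ | ⟨q, σ, ω, t⟩
    · simp only [Prog.okc]
      rcases P.kind q with test | _ | x | _ <;> simp [okNode]
    · simp [Prog.okc]
    · simp [Prog.okc, okWire]
  ok_add := by
    rintro ⟨c, i, r⟩ a σ' h
    rcases c with q | ⟨q, σ⟩ | ⟨q, σ, ω, t⟩
    · exact okNode_add _ _ _ h
    · simp only [Prog.okc, Pi.add_apply] at h ⊢
      rw [h]
      constructor
      · intro h; rw [h]; ring
      · intro h; linear_combination h
    · simp only [Prog.okc, Pi.add_apply, okWire] at h ⊢
      constructor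
      · intro h'; split_ifs at h h' ⊢ <;> linear_combination h + h'
      · intro h'; split_ifs at h h' ⊢ <;> linear_combination h' - h

theorem Prog.gv_eq (P : Prog Q κ V) (T : Tag Q κ) {r r' : St κ V}
    (h : ∀ y, scope P.mask T y → r y = r' y) : P.gv T r = P.gv T r' := by
  simp only [Prog.gv, res_eq_iff.2 h]

theorem scope_tag_known (mask : Q → Option (Reg κ)) (child : Q → Bool → Q) (c : Col Q κ)
    (i : Fin (κ + 1)) (p : Fin 4) (y : Reg κ) (h : scope mask (tag child c i p) y) :
    known i y := by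
  rcases c with q | ⟨q, σ⟩ | ⟨q, σ, ω, t⟩
  · fin_cases p <;> simp_all [tag, scope]
  · fin_cases p <;> simp_all [tag, scope]
  · fin_cases p
    · by_cases ht : t.val = 0 <;> simp_all [tag, scope, hTag]
    · simp_all [tag, scope]
    · exact known_of_lev_up h
    · exact known_of_lev_dn h

/-- telescoping over the rows -/
theorem sum_okWire (a b : Fin (κ + 1) → F) (g : ℕ → F) :
    ∑ i : Fin (κ + 1), okWire i (a i) (b i) (g i.val) (g (i.val + 1)) = ∑ i, a i + ∑ i, b i := by
  simp only [okWire, Finset.sum_add_distrib]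
  have h1 : ∑ i : Fin (κ + 1), (if i = 0 then 0 else g i.val) = ∑ j : Fin κ, g (j.val + 1) := by
    rw [Fin.sum_univ_succ]; simp
  have h2 : ∑ i : Fin (κ + 1), (if i = Fin.last κ then 0 else g (i.val + 1)) =
      ∑ j : Fin κ, g (j.val + 1) := by
    rw [Fin.sum_univ_castSucc]; simp
  rw [h1, h2, add_assoc, F_add_self, add_zero]

end Vale.Agent.P310
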