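import Vale.Agent.P310.Grid

namespace Vale.Agent.P310

open Function

variable {κ : ℕ} {V Q : Type}

def Prog.Local (P : Prog Q κ V) (w : Tag Q κ → St κ V → F) : Prop :=
  ∀ T r r', (∀ y, scope P.mask T y → r y = r' y) → w T r = w T r'

structure Prog.Uni (P : Prog Q κ V) (w : Tag Q κ → St κ V → F) (ρ : Q → Bool → Bool → ℕ → F) :
    Prop where
  node : ∀ q i r, okNode true (P.kind q) i r (w (.N q i) r) (w (.O q false i) r)
    (w (.O q true i) r)
  merge : ∀ q σ i r, w (.O q σ i) r =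
    w (.H q σ false (κ + 3) i) r + w (.H q σ true (κ + 3) i) r
  wire : ∀ q σ ω t, t < κ + 3 → ∀ i r, okWire i (w (hTag P.child q σ ω t i) r)
    (w (.H q σ ω (t + 1) i) r) (w (.G q σ ω t i) r) (w (.G q σ ω t (i + 1)) r) =
      if i = 0 then ρ q σ ω t else 0

structure Pot (Ψ : ℕ → St κ V → F) (c : F) : Prop where
  loc : ∀ e r r', (∀ y, lev e y → r y = r' y) → Ψ e r = Ψ e r'
  top : ∀ r, Ψ 0 r = c
  bot : ∀ r, Ψ (κ + 1) r = 0

def dd (Ψ : ℕ → St κ V → F) (i : Fin (κ + 1)) (r : St κ V) : F := Ψ i r + Ψ (i + 1) r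

theorem Pot.smul {Ψ : ℕ → St κ V → F} (h : Pot Ψ 1) (c : F) : Pot (c • Ψ) c where
  loc e r r' hr := by simp [h.loc e r r' hr]
  top r := by simp [h.top]
  bot r := by simp [h.bot]

@[simp] theorem dd_smul (c : F) (Ψ : ℕ → St κ V → F) (i) (r) : dd (c • Ψ) i r = c * dd Ψ i r := by
  simp [dd, mul_add]

@[simp] theorem dd_add (Ψ Ψ' : ℕ → St κ V → F) (i) (r) :
    dd (Ψ + Ψ') i r = dd Ψ i r + dd Ψ' i r := by
  simp only [dd, Pi.add_apply]; ring

theorem Pot.sum_dd {Ψ : ℕ → St κ V → F} {c : F} (h : Pot Ψ c) (r : St κ V) :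
    ∑ i, dd Ψ i r = c := by
  have : ∀ n : ℕ, ∑ i ∈ Finset.range n, (Ψ i r + Ψ (i + 1) r) = Ψ 0 r + Ψ n r := by
    intro n
    induction n with
    | zero => simp [F_add_self]
    | succ n ih =>
      rw [Finset.sum_range_succ, ih]
      linear_combination F_add_self (Ψ n r)
  simp only [dd]
  rw [Fin.sum_univ_eq_sum_range (fun i => Ψ i r + Ψ (i + 1) r), this, h.top, h.bot, add_zero]

theorem Pot.dd_loc {Ψ : ℕ → St κ V → F} {c : F} (h : Pot Ψ c) (i : Fin (κ + 1)) (r r' : St κ V)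
    (hr : ∀ y, known i y → r y = r' y) : dd Ψ i r = dd Ψ i r' := by
  simp only [dd]
  rw [h.loc _ r r' fun y hy => hr y (known_of_lev_up hy),
    h.loc _ r r' fun y hy => hr y (known_of_lev_dn hy)]

def stp (i0 : Fin (κ + 1)) : ℕ → St κ V → F := fun e _ => if e ≤ i0.val then 1 else 0

theorem pot_stp (i0 : Fin (κ + 1)) : Pot (stp (V := V) i0) 1 where
  loc _ _ _ _ := rfl
  top _ := by simp [stp]
  bot _ := by have := i0.2; simp [stp]; omega

theorem dd_stp (i0 i : Fin (κ + 1)) (r : St κ V) : dd (stp i0) i r = if i = i0 then 1 else 0 := by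
  simp only [dd, stp, Fin.ext_iff]
  split_ifs <;> first | omega | simp [F_add_self]

/-- the modification attached to potentials -/
def Prog.delta (P : Prog Q κ V) (ΨN : Q → ℕ → St κ V → F) (ΨO : Q → Bool → ℕ → St κ V → F)
    (ΨH : Q → Bool → Bool → ℕ → ℕ → St κ V → F) (η : Q → Fin (κ + 1) → St κ V → F) :
    Tag Q κ → St κ V → F
  | .N q i, r => dd (ΨN q) i r + η q i r
  | .O q σ i, r => dd (ΨO q σ) i r
  | .H q σ ω t i, r => dd (ΨH q σ ω t) i r + η (P.child q σ) i r
  | .G q σ ω t e, r => ΨH q σ ω t e r + ΨH q σ ω (t + 1) e r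
  | .Z, _ => 0

section modify
variable (P : Prog Q κ V) (ΨN : Q → ℕ → St κ V → F) (ΨO : Q → Bool → ℕ → St κ V → F)
    (ΨH : Q → Bool → Bool → ℕ → ℕ → St κ V → F) (η : Q → Fin (κ + 1) → St κ V → F)

theorem Prog.delta_hTag (h0 : ∀ q σ ω, ΨH q σ ω 0 = ΨN (P.child q σ)) (q σ ω t i r) :
    P.delta ΨN ΨO ΨH η (hTag P.child q σ ω t i) r =
      dd (ΨH q σ ω t) i r + η (P.child q σ) i r := by
  by_cases ht : t = 0
  · subst ht; simp [hTag, Prog.delta, h0]
  · simp [hTag, ht, Prog.delta]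

theorem Prog.Uni.modify {w : Tag Q κ → St κ V → F} {ρ : Q → Bool → Bool → ℕ → F}
    (hU : P.Uni w ρ) (cH : Q → Bool → Bool → ℕ → F)
    (h0 : ∀ q σ ω, ΨH q σ ω 0 = ΨN (P.child q σ))
    (hH : ∀ q σ ω t, Pot (ΨH q σ ω t) (cH q σ ω t))
    (hm : ∀ q σ, ΨO q σ = ΨH q σ false (κ + 3) + ΨH q σ true (κ + 3))
    (hn : ∀ q i r, okNode false (P.kind q) i r (dd (ΨN q) i r + η q i r) (dd (ΨO q false) i r)
      (dd (ΨO q true) i r)) :
    P.Uni (P.delta ΨN ΨO ΨH η + w)
      (fun q σ ω t => ρ q σ ω t + cH q σ ω t + cH q σ ω (t + 1)) where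
  node q i r := (okNode_add _ _ _ (hU.node q i r)).1 (hn q i r)
  merge q σ i r := by
    simp only [Pi.add_apply, Prog.delta, hm, dd_add, hU.merge]
    linear_combination - F_add_self (η (P.child q σ) i r)
  wire q σ ω t ht i r := by
    have h1 := hU.wire q σ ω t ht i r
    simp only [Pi.add_apply, P.delta_hTag ΨN ΨO ΨH η h0]
    simp only [Prog.delta, okWire, dd] at h1 ⊢
    have t1 := (hH q σ ω t).top r
    have t2 := (hH q σ ω (t + 1)).top r
    have b1 := (hH q σ ω t).bot r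
    have b2 := (hH q σ ω (t + 1)).bot r
    have e := F_add_self (η (P.child q σ) i r)
    have e1 := F_add_self (ΨH q σ ω t i r)
    have e2 := F_add_self (ΨH q σ ω (t + 1) i r)
    have e3 := F_add_self (ΨH q σ ω t (i + 1) r)
    have e4 := F_add_self (ΨH q σ ω (t + 1) (i + 1) r)
    by_cases hi0 : i = 0 <;> by_cases hil : i = Fin.last κ
    · have hi0' : i.val = 0 := by simp [hi0]
      have hil' : i.val + 1 = κ + 1 := by simp [hil]
      simp only [if_pos hi0, if_pos hil] at h1 ⊢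
      rw [hil', b1, b2]
      rw [hi0'] at *
      linear_combination h1 + e + t1 + t2
    · have hi0' : i.val = 0 := by simp [hi0]
      simp only [if_pos hi0, if_neg hil] at h1 ⊢
      rw [hi0'] at h1 e3 e4 ⊢
      linear_combination h1 + e + t1 + t2 + e3 + e4
    · have hil' : i.val + 1 = κ + 1 := by simp [hil]
      simp only [if_neg hi0, if_pos hil] at h1 ⊢
      rw [hil', b1, b2]
      linear_combination h1 + e + e1 + e2
    · simp only [if_neg hi0, if_neg hil] at h1 ⊢
      linear_combination h1 + e + e1 + e2 + e3 + e4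

theorem Prog.delta_local (cN : Q → F) (cH : Q → Bool → Bool → ℕ → F)
    (hN : ∀ q, Pot (ΨN q) (cN q))
    (hH : ∀ q σ ω t, Pot (ΨH q σ ω t) (cH q σ ω t))
    (hO : ∀ q σ i r r', (∀ y, known i y → some y ≠ P.mask q → r y = r' y) →
      dd (ΨO q σ) i r = dd (ΨO q σ) i r')
    (hη : ∀ q i r r', (∀ y, known i y → r y = r' y) → η q i r = η q i r') :
    P.Local (P.delta ΨN ΨO ΨH η) := by
  intro T r r' h
  rcases T with ⟨q, i⟩ | ⟨q, σ, i⟩ | ⟨q, σ, ω, t, i⟩ | ⟨q, σ, ω, t, e⟩ | _
  · simp only [Prog.delta]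
    rw [(hN q).dd_loc i r r' h, hη q i r r' h]
  · exact hO q σ i r r' fun y h1 h2 => h y ⟨h1, h2⟩
  · simp only [Prog.delta]
    rw [(hH q σ ω t).dd_loc i r r' h, hη _ i r r' h]
  · simp only [Prog.delta]
    rw [(hH q σ ω t).loc e r r' h, (hH q σ ω (t + 1)).loc e r r' h]
  · rfl

end modify

theorem Prog.Uni.obit {P : Prog Q κ V} {w : Tag Q κ → St κ V → F} {ρ : Q → Bool → Bool → ℕ → F}
    (hU : P.Uni w ρ) (q σ r) : ∑ i, w (.O q σ i) r =
      ∑ t ∈ Finset.range (κ + 3), ρ q σ false t + ∑ t ∈ Finset.range (κ + 3), ρ q σ true t := by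
  have key : ∀ ω t, t ≤ κ + 3 → ∑ i, w (hTag P.child q σ ω t i) r =
      ∑ i, w (.N (P.child q σ) i) r + ∑ t' ∈ Finset.range t, ρ q σ ω t' := by
    intro ω t
    induction t with
    | zero => simp [hTag]
    | succ t ih =>
      intro ht
      have h1 := sum_okWire (fun i => w (hTag P.child q σ ω t i) r)
        (fun i => w (.H q σ ω (t + 1) i) r) (fun e => w (.G q σ ω t e) r)
      simp only [hU.wire q σ ω t ht, Finset.sum_ite_eq', Finset.mem_univ, if_true] at h1
      rw [ih (by omega)] at h1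
      simp only [hTag, Nat.add_eq_zero_iff, one_ne_zero, and_false, if_false]
      rw [Finset.sum_range_succ]
      linear_combination - h1 - F_add_self (∑ i, w (.N (P.child q σ) i) r) -
        F_add_self (∑ t' ∈ Finset.range t, ρ q σ ω t')
  have k1 := key false _ le_rfl
  have k2 := key true _ le_rfl
  simp only [hTag, Nat.add_eq_zero_iff, OfNat.ofNat_ne_zero, and_false, if_false] at k1 k2
  simp only [hU.merge, Finset.sum_add_distrib, k1, k2]
  linear_combination F_add_self (∑ i, w (.N (P.child q σ) i) r)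

def Chain (X : Finset (Base Q κ V)) (x : Option (Reg κ)) (r : St κ V) : Prop :=
  ∀ i, ∃ b ∈ X, b.2.1 = i ∧ ∀ y, known i y → some y ≠ x → b.2.2 y = r y

theorem Chain.mono {X Y : Finset (Base Q κ V)} {x r} (h : Chain X x r) (hXY : X ⊆ Y) :
    Chain Y x r := fun i => by
  obtain ⟨b, h1, h2⟩ := h i
  exact ⟨b, hXY h1, h2⟩

theorem exists_free (X : Finset (Base Q κ V)) (hX : X.card ≤ κ + 2) (q : Q) (σ ω : Bool) :
    ∃ t : Fin (κ + 3), ∀ i r, (Col.wire q σ ω t, i, r) ∉ X := by
  by_contra h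
  push Not at h
  choose i r h using h
  have := Finset.card_le_card_of_injOn (s := Finset.univ) (t := X)
    (fun t => (Col.wire q σ ω t, i t, r t)) (fun t _ => h t) (fun t _ t' _ h => by
      simp only [Prod.mk.injEq, Col.wire.injEq] at h
      exact h.1.2.2.2)
  simp at this; omega

theorem unique_rows (X : Finset (Base Q κ V)) (hX : X.card ≤ κ + 1)
    (f : Fin (κ + 1) → Base Q κ V) (hf : ∀ i, f i ∈ X ∧ (f i).2.1 = i) :
    ∀ b ∈ X, b = f b.2.1 := by
  classical
  have hinj : Injective f := fun i j h => by rw [← (hf i).2, ← (hf j).2, h]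
  have : Finset.univ.image f = X := by
    apply Finset.eq_of_subset_of_card_le
    · intro b hb
      obtain ⟨i, _, rfl⟩ := Finset.mem_image.1 hb
      exact (hf i).1
    · rw [Finset.card_image_of_injective _ hinj]; simpa using hX
  intro b hb
  rw [← this] at hb
  obtain ⟨i, _, rfl⟩ := Finset.mem_image.1 hb
  rw [(hf i).2]

theorem pot_exists (X : Finset (Base Q κ V)) (hX : X.card ≤ κ + 1) (x : Option (Reg κ))
    (hc : ¬ ∃ r, Chain X x r) : ∃ ψ : ℕ → St κ V → F, Pot ψ 1 ∧
      (∀ b ∈ X, dd ψ b.2.1 b.2.2 = 0) ∧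
      ∀ i r r', (∀ y, known i y → some y ≠ x → r y = r' y) → dd ψ i r = dd ψ i r' := by
  classical
  by_cases h : ∃ i0, ∀ b ∈ X, b.2.1 ≠ i0
  · obtain ⟨i0, h⟩ := h
    exact ⟨stp i0, pot_stp i0, fun b hb => by simp [dd_stp, h b hb],
      fun i r r' _ => by simp [dd_stp]⟩
  push Not at h
  choose f hf using h
  have hu := unique_rows X hX f hf
  by_cases h : ∀ j : Fin κ, ∀ y, lev (j.val + 1) y → some y ≠ x →
      (f j.castSucc).2.2 y = (f j.succ).2.2 y
  · exfalso
    apply hc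
    refine ⟨Sum.elim (fun t => (f 0).2.2 (.inl t)) (fun j => (f j.castSucc).2.2 (.inr j)),
      fun i => ⟨f i, (hf i).1, (hf i).2, ?_⟩⟩
    rintro (t | j) h1 h2
    · simp only [Sum.elim_inl]
      induction i using Fin.induction with
      | zero => rfl
      | succ i ih => rw [← ih trivial, h i (.inl t) trivial h2]
    · simp only [Sum.elim_inr]
      rcases h1 with h1 | h1
      · have : i = j.castSucc := Fin.ext h1
        rw [this]
      · have : i = j.succ := Fin.ext h1
        rw [this, h j (.inr j) rfl h2]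
  push Not at h
  obtain ⟨j, y0, a1, a2, a3⟩ := h
  let ψ : ℕ → St κ V → F := fun e r => if e ≤ j.val then 1 else if e = j.val + 1 ∧
    (∀ y, lev (j.val + 1) y → some y ≠ x → r y = (f j.castSucc).2.2 y) then 1 else 0
  have hinv : ∀ e r r', (∀ y, lev e y → some y ≠ x → r y = r' y) → ψ e r = ψ e r' := by
    intro e r r' hr
    simp only [ψ]
    congr 2
    apply propext
    refine and_congr_right fun he => ?_
    subst he
    exact forall_congr' fun y => forall_congr' fun h1 => forall_congr' fun h2 => by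
      rw [hr y h1 h2]
  refine ⟨ψ, ⟨fun e r r' hr => hinv e r r' fun y h1 _ => hr y h1, fun r => by simp [ψ],
    fun r => ?_⟩, ?_, ?_⟩
  · have := j.2
    simp only [ψ]
    rw [if_neg (by omega), if_neg (by omega)]
  · intro b hb
    simp only [dd, ψ]
    rcases lt_trichotomy b.2.1.val j.val with h | h | h
    · rw [if_pos h.le, if_pos (Nat.succ_le_of_lt h)]; rfl
    · have : b.2.1 = j.castSucc := Fin.ext h
      have hb2 : b = f j.castSucc := by rw [← this]; exact hu b hb
      rw [if_pos h.le, if_neg (by omega), if_pos ⟨by omega, fun y _ _ => by rw [← hb2]⟩]; rfl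
    · rw [if_neg (by omega), if_neg (show ¬ b.2.1.val + 1 ≤ j.val by omega),
        if_neg (show ¬ (b.2.1.val + 1 = j.val + 1 ∧ _) from fun h' => by omega), if_neg, add_zero]
      rintro ⟨h1, h2⟩
      have : b.2.1 = j.succ := Fin.ext h1
      have hb2 : b = f j.succ := by rw [← this]; exact hu b hb
      exact a3 (by rw [← h2 y0 a1 a2, ← hb2])
  · intro i r r' hr
    simp only [dd]
    rw [hinv _ r r' fun y h1 h2 => hr y (known_of_lev_up h1) h2,
      hinv _ r r' fun y h1 h2 => hr y (known_of_lev_dn h1) h2]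

theorem chain_agree (hκ : 1 ≤ κ) (X : Finset (Base Q κ V)) (hX : X.card ≤ κ + 2)
    {x x' : Option (Reg κ)} {r r' : St κ V} (h : Chain X x r) (h' : Chain X x' r') (y : Reg κ)
    (hy : some y ≠ x) (hy' : some y ≠ x') : r y = r' y := by
  by_contra hne
  obtain ⟨i1, i2, h12, k1, k2⟩ : ∃ i1 i2 : Fin (κ + 1), i1 ≠ i2 ∧ known i1 y ∧ known i2 y := by
    rcases y with t | j
    · exact ⟨0, Fin.last κ, by simp [Fin.ext_iff]; omega, trivial, trivial⟩
    · exact ⟨j.castSucc, j.succ, by simp [Fin.ext_iff], Or.inl rfl, Or.inr rfl⟩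
  choose f hf1 hf2 hf3 using h
  choose f' hf1' hf2' hf3' using h'
  have d : ∀ i i', known i' y → f i ≠ f' i' := by
    intro i i' hk e
    have : i = i' := by rw [← hf2 i, ← hf2' i', e]
    subst this
    exact hne (by rw [← hf3 i y hk hy, ← hf3' i y hk hy', e])
  have := Finset.card_le_card_of_injOn (s := (Finset.univ : Finset (Fin (κ + 1) ⊕ Bool))) (t := X)
    (Sum.elim f (fun b => if b then f' i1 else f' i2)) (by
      rintro (i | _ | _) _
      · exact hf1 i
      · exact hf1' i2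
      · exact hf1' i1) (by
      have d' : f' i1 ≠ f' i2 := fun e => h12 (by rw [← hf2' i1, ← hf2' i2, e])
      rintro (i | _ | _) _ (i' | _ | _) _ e
      · have : i = i' := by rw [← hf2 i, ← hf2 i']; exact congrArg (·.2.1) e
        rw [this]
      · exact (d _ _ k2 e).elim
      · exact (d _ _ k1 e).elim
      · exact (d _ _ k2 e.symm).elim
      · rfl
      · exact (d' e.symm).elim
      · exact (d _ _ k1 e.symm).elim
      · exact (d' e).elim
      · rfl)
  simp at this; omega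

theorem exists_cons [Nonempty V] (hκ : 1 ≤ κ) (X : Finset (Base Q κ V)) (hX : X.card ≤ κ + 2) :
    ∃ r1 : St κ V, ∀ x r, Chain X x r → agreeOff x r r1 := by
  classical
  have : ∀ y : Reg κ, ∃ v : V, ∀ x r, Chain X x r → some y ≠ x → r y = v := by
    intro y
    by_cases h : ∃ x r, Chain X x r ∧ some y ≠ x
    · obtain ⟨x, r, h1, h2⟩ := h
      exact ⟨r y, fun x' r' h3 h4 => chain_agree hκ X hX h3 h1 y h4 h2⟩
    · exact ⟨Classical.arbitrary V, fun x r h1 h2 => (h ⟨x, r, h1, h2⟩).elim⟩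
  choose r1 h using this
  exact ⟨r1, fun x r hc y hy => h y x r hc hy⟩

end Vale.Agent.P310
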