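import Vale.Agent.P310.GridDup1

namespace Vale.Agent.P310

open Function

variable {κ : ℕ} {V Q : Type}

def Loc (X : Finset (Base Q κ V)) (ρ : Q → Bool → Bool → ℕ → F) : Prop :=
  ∀ q σ ω (t : Fin (κ + 3)) i r, (Col.wire q σ ω t, i, r) ∈ X → ρ q σ ω t = 0

structure Prog.Truth (P : Prog Q κ V) (w : Tag Q κ → St κ V → F) (ρ : Q → Bool → Bool → ℕ → F)
    (r0 : St κ V) : Prop where
  node : ∀ q, P.Der q r0 → ∑ i, w (.N q i) r0 = 0
  wire : ∀ q σ ω t, t < κ + 3 → P.Der (P.child q σ) r0 → ρ q σ ω t = 0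

def Cons (X : Finset (Base Q κ V)) (r0 : St κ V) : Prop :=
  ∀ x r, Chain X x r → agreeOff x r r0

def Prog.Good (P : Prog Q κ V) (X : Finset (Base Q κ V)) (w : Tag Q κ → St κ V → F) : Prop :=
  ∃ ρ r0, P.Uni w ρ ∧ Loc X ρ ∧ P.Truth w ρ r0 ∧ Cons X r0

theorem Prog.Der.orx_congr {P : Prog Q κ V} {q x r r'} (hk : P.kind q = .orx x)
    (h : P.Der q r) (hr : agreeOff x r r') : P.Der q r' := by
  cases h with
  | leaf h1 _ => rw [hk] at h1; cases h1
  | and h1 _ _ => rw [hk] at h1; cases h1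
  | orx h1 h2 h3 =>
    rw [hk] at h1; cases h1
    exact .orx hk (fun y hy => (hr y hy).symm.trans (h2 y hy)) h3

/-- the case without a full chain -/
theorem Prog.extend_nochain (P : Prog Q κ V) [Nonempty V] (hκ : 1 ≤ κ)
    (hroot : ∀ q r, P.kind q = .root → ¬ P.Der (P.child q false) r)
    (X Y : Finset (Base Q κ V)) (hX : X.card ≤ κ + 1) (hY : Y.card ≤ κ + 2) (hXY : X ⊆ Y)
    (hc : ¬ ∃ r, Chain X none r) (w : Tag Q κ → St κ V → F) (hw : P.Good X w) :
    ∃ δ, P.Local δ ∧ P.Good Y (δ + w) ∧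
      ∀ b ∈ X, ∀ p, δ (tag P.child b.1 b.2.1 p) b.2.2 = 0 := by
  classical
  obtain ⟨ρ, r0, hU, hL, hT, hC⟩ := hw
  obtain ⟨r1, hr1⟩ := exists_cons hκ Y hY
  have hψ : ∀ q, ∃ ψ : ℕ → St κ V → F, Pot ψ 1 ∧ (∀ b ∈ X, dd ψ b.2.1 b.2.2 = 0) ∧
      ((¬ ∃ r, Chain X (P.mask q) r) → ∀ i r r',
        (∀ y, known i y → some y ≠ P.mask q → r y = r' y) → dd ψ i r = dd ψ i r') := by
    intro q
    by_cases h : ∃ r, Chain X (P.mask q) r
    · obtain ⟨ψ, h1, h2, _⟩ := pot_exists X hX none hc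
      exact ⟨ψ, h1, h2, fun h' => (h' h).elim⟩
    · obtain ⟨ψ, h1, h2, h3⟩ := pot_exists X hX _ h
      exact ⟨ψ, h1, h2, fun _ => h3⟩
  choose ψ ψ1 ψ2 ψ3 using hψ
  choose tW htW using exists_free Y hY
  obtain ⟨rt, hrt⟩ : ∃ rt : Q → Bool → Bool → F,
    ∀ q σ ω, rt q σ ω = ∑ t ∈ Finset.range (κ + 3), ρ q σ ω t := ⟨_, fun _ _ _ => rfl⟩
  have ob : ∀ q σ r, ∑ i, w (.O q σ i) r = rt q σ false + rt q σ true := by
    intro q σ r; rw [hrt, hrt]; exact hU.obit q σ r
  have horx : ∀ q x, P.kind q = .orx x → ∀ σ r,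
      ∑ i, w (.N q i) r = rt q σ false + rt q σ true := by
    intro q x hk σ r
    rw [← ob q σ r]
    refine Finset.sum_congr rfl fun i _ => ?_
    have := hU.node q i r
    rw [hk] at this
    cases σ
    · exact this.1
    · exact this.2
  have hδ : ∀ q, ∃ (dN : F) (dO : Bool → F),
      (∀ σ, P.Der (P.child q σ) r1 → dO σ = rt q σ false + rt q σ true) ∧
      (∀ i r (c : F), okNode false (P.kind q) i r (dN * c + 0) (dO false * c) (dO true * c)) ∧
      (P.Der q r1 → ∑ i, w (.N q i) r1 = dN) ∧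
      ((∃ r, Chain X (P.mask q) r) → ∀ σ, dO σ = 0) := by
    intro q
    rcases hk : P.kind q with test | _ | x | _
    · refine ⟨0, fun σ => if P.Der (P.child q σ) r1 then rt q σ false + rt q σ true else 0,
        fun σ h => by simp [h], fun i r c => by simp [okNode], fun hd => ?_,
        fun h => (hc (by simpa [Prog.mask, hk, Kind.mask] using h)).elim⟩
      refine Finset.sum_eq_zero fun i _ => ?_
      have := hU.node q i r1
      rw [hk] at this
      cases hd with
      | leaf h1 h2 => rw [hk] at h1; cases h1; exact this (h2 i)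
      | and h1 _ _ => rw [hk] at h1; cases h1
      | orx h1 _ _ => rw [hk] at h1; cases h1
    · refine ⟨_, fun σ => if P.Der (P.child q σ) r1 then rt q σ false + rt q σ true else 0,
        fun σ h => by simp [h], fun i r c => by
          simp only [okNode]; rw [add_zero, ← add_mul], fun hd => ?_,
        fun h => (hc (by simpa [Prog.mask, hk, Kind.mask] using h)).elim⟩
      cases hd with
      | leaf h1 h2 => rw [hk] at h1; cases h1
      | and h1 h2 h3 =>
        rw [if_pos h2, if_pos h3, ← ob q false r1, ← ob q true r1, ← Finset.sum_add_distrib]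
        refine Finset.sum_congr rfl fun i _ => ?_
        have := hU.node q i r1
        rw [hk] at this
        exact this
      | orx h1 _ _ => rw [hk] at h1; cases h1
    · refine ⟨if P.Der q r1 then ∑ i, w (.N q i) r1 else 0,
        fun σ => if P.Der q r1 then ∑ i, w (.N q i) r1 else 0, fun σ h => ?_,
        fun i r c => by simp [okNode], fun hd => by simp [hd], ?_⟩
      · rw [if_pos (Prog.Der.orx hk (fun _ _ => rfl) h)]
        exact horx q x hk σ r1
      · rintro ⟨r, hr⟩ σ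
        have hm : P.mask q = x := by simp [Prog.mask, hk, Kind.mask]
        rw [hm] at hr
        split_ifs with hd
        · have h1 : agreeOff x r1 r0 := fun y hy =>
            (hr1 x r (hr.mono hXY) y hy).symm.trans (hC x r hr y hy)
          rw [horx q x hk σ r1, ← horx q x hk σ r0]
          exact hT.node q (hd.orx_congr hk h1)
        · rfl
    · refine ⟨0, fun σ => if P.Der (P.child q σ) r1 then rt q σ false + rt q σ true else 0,
        fun σ h => by simp [h], fun i r c => by simp [okNode, hroot q r1 hk], fun hd => ?_,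
        fun h => (hc (by simpa [Prog.mask, hk, Kind.mask] using h)).elim⟩
      cases hd with
      | leaf h1 h2 => rw [hk] at h1; cases h1
      | and h1 _ _ => rw [hk] at h1; cases h1
      | orx h1 _ _ => rw [hk] at h1; cases h1
  choose dN dO d1 d2 d3 d4 using hδ
  obtain ⟨ε, hε1, hε2⟩ : ∃ ε : Q → Bool → Bool → F,
      (∀ q σ ω, P.Der (P.child q σ) r1 → ε q σ ω = rt q σ ω + dN (P.child q σ)) ∧
      ∀ q σ, dO q σ = ε q σ false + ε q σ true := by
    refine ⟨fun q σ ω => if P.Der (P.child q σ) r1 then rt q σ ω + dN (P.child q σ)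
      else if ω then 0 else dO q σ, fun q σ ω h => by simp [h], fun q σ => ?_⟩
    by_cases h : P.Der (P.child q σ) r1
    · simp only [if_pos h, d1 q σ h]
      linear_combination - F_add_self (dN (P.child q σ))
    · simp [h]
  let cH : Q → Bool → Bool → ℕ → F := fun q σ ω t =>
    if t ≤ (tW q σ ω).val then dN (P.child q σ) + ∑ t' ∈ Finset.range t, ρ q σ ω t'
    else ε q σ ω + ∑ t' ∈ Finset.Ico t (κ + 3), ρ q σ ω t'
  let ΨH : Q → Bool → Bool → ℕ → ℕ → St κ V → F := fun q σ ω t =>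
    cH q σ ω t • (if t ≤ (tW q σ ω).val then ψ (P.child q σ) else ψ q)
  have hH : ∀ q σ ω t, Pot (ΨH q σ ω t) (cH q σ ω t) := by
    intro q σ ω t
    apply Pot.smul
    split_ifs <;> exact ψ1 _
  have hH0 : ∀ q σ ω, ΨH q σ ω 0 = dN (P.child q σ) • ψ (P.child q σ) := by
    intro q σ ω; simp [ΨH, cH]
  have hHL : ∀ q σ ω, ΨH q σ ω (κ + 3) = ε q σ ω • ψ q := by
    intro q σ ω
    have : ¬ κ + 3 ≤ (tW q σ ω).val := by have := (tW q σ ω).2; omega
    simp [ΨH, cH, this]
  have hc1 : ∀ q σ ω t, t < κ + 3 → t ≠ (tW q σ ω).val →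
      cH q σ ω t + cH q σ ω (t + 1) = ρ q σ ω t := by
    intro q σ ω t ht hne
    simp only [cH]
    by_cases h : t < (tW q σ ω).val
    · rw [if_pos h.le, if_pos (Nat.succ_le_of_lt h), Finset.sum_range_succ]
      linear_combination F_add_self (dN (P.child q σ)) +
        F_add_self (∑ t' ∈ Finset.range t, ρ q σ ω t')
    · rw [if_neg (by omega), if_neg (by omega), Finset.sum_eq_sum_Ico_succ_bot ht]
      linear_combination F_add_self (ε q σ ω) +
        F_add_self (∑ t' ∈ Finset.Ico (t + 1) (κ + 3), ρ q σ ω t')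
  have hc2 : ∀ q σ ω, ρ q σ ω (tW q σ ω) + cH q σ ω (tW q σ ω) + cH q σ ω (tW q σ ω + 1) =
      rt q σ ω + dN (P.child q σ) + ε q σ ω := by
    intro q σ ω
    simp only [cH]
    rw [if_pos le_rfl, if_neg (by omega), hrt,
      ← Finset.sum_range_add_sum_Ico _ (Nat.succ_le_of_lt (tW q σ ω).2), Finset.sum_range_succ]
    ring
  have hdd : ∀ q σ ω t, ∀ b ∈ X, dd (ΨH q σ ω t) b.2.1 b.2.2 = 0 := by
    intro q σ ω t b hb
    simp only [ΨH, dd_smul]
    split_ifs <;> simp [ψ2 _ b hb]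
  refine ⟨P.delta (fun q => dN q • ψ q) (fun q σ => dO q σ • ψ q) ΨH 0,
    P.delta_local _ _ _ _ dN cH (fun q => (ψ1 q).smul _) hH ?_ (fun _ _ _ _ _ => rfl),
    ⟨_, r1, hU.modify P _ _ _ _ cH hH0 hH ?_ ?_, ?_, ⟨?_, ?_⟩, hr1⟩, ?_⟩
  · intro q σ i r r' hr
    simp only [dd_smul]
    by_cases h : ∃ r, Chain X (P.mask q) r
    · simp [d4 q h σ]
    · rw [ψ3 q h i r r' hr]
  · intro q σ
    rw [hHL, hHL, ← add_smul, hε2]
  · intro q i r
    simpa only [dd_smul, Pi.zero_apply] using d2 q i r _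
  · intro q σ ω t i r hm
    have : t.val ≠ (tW q σ ω).val := fun h => htW q σ ω i r (Fin.ext h ▸ hm)
    simp only
    rw [add_assoc, hc1 q σ ω t t.2 this, F_add_self]
  · intro q hd
    simp only [Pi.add_apply, Prog.delta, Pi.zero_apply, add_zero, Finset.sum_add_distrib]
    rw [((ψ1 q).smul _).sum_dd, d3 q hd, F_add_self]
  · intro q σ ω t ht hd
    by_cases h : t = (tW q σ ω).val
    · subst h
      rw [hc2, hε1 q σ ω hd, F_add_self]
    · rw [add_assoc, hc1 q σ ω t ht h, F_add_self]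
  · rintro ⟨c, i, r⟩ hb p
    have h1 : ∀ q, dd (ψ q) i r = 0 := fun q => ψ2 q _ hb
    have h2 : ∀ q σ ω t, dd (ΨH q σ ω t) i r = 0 := fun q σ ω t => hdd q σ ω t _ hb
    rcases c with q | ⟨q, σ⟩ | ⟨q, σ, ω, t⟩
    · fin_cases p <;> simp [tag, Prog.delta, h1]
    · fin_cases p <;> simp [tag, Prog.delta, h1, h2]
    · have hne : t.val ≠ (tW q σ ω).val := fun h => htW q σ ω i r (Fin.ext h ▸ hXY hb)
      have h3 : ΨH q σ ω t + ΨH q σ ω (t + 1) = 0 := by
        have h4 := hc1 q σ ω t t.2 hne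
        rw [hL q σ ω t i r hb] at h4
        simp only [ΨH]
        by_cases h : t.val < (tW q σ ω).val
        · rw [if_pos h.le, if_pos (Nat.succ_le_of_lt h), ← add_smul, h4, zero_smul]
        · rw [if_neg (by omega), if_neg (by omega), ← add_smul, h4, zero_smul]
      have h5 : ∀ e, ΨH q σ ω t e r + ΨH q σ ω (t + 1) e r = 0 := fun e =>
        congrFun (congrFun h3 e) r
      fin_cases p
      · simp [tag, P.delta_hTag (fun q => dN q • ψ q) (fun q σ => dO q σ • ψ q) ΨH 0 hH0, h2]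
      · simp [tag, Prog.delta, h2]
      · simp [tag, Prog.delta, h5]
      · simp [tag, Prog.delta, h5]

end Vale.Agent.P310
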