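import Vale.Agent.P310.GridDup2

namespace Vale.Agent.P310

open Function

variable {κ : ℕ} {V Q : Type}

theorem F_eq_one {a : F} (h : a ≠ 0) : a = 1 := by
  fin_cases a
  · exact (h rfl).elim
  · rfl

@[simp] theorem dd_zero (i : Fin (κ + 1)) (r : St κ V) : dd 0 i r = 0 := by simp [dd]

theorem Prog.false_flip (P : Prog Q κ V) (c : Q) (r0 : St κ V) (hc : ¬ P.Der c r0) :
    ∃ (i0 : Fin (κ + 1)) (e : Fin (κ + 1) → St κ V → F) (bad : Bool → F),
      (∀ i r, okNode false (P.kind c) i r (e i r) (bad false * dd (stp i0) i r)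
        (bad true * dd (stp i0) i r)) ∧
      (∀ σ, P.Der (P.child c σ) r0 → bad σ = 0) ∧
      (∀ i r r', (∀ y, known i y → r y = r' y) → e i r = e i r') ∧
      ∀ i, e i r0 = if i = i0 then 1 else 0 := by
  classical
  rcases hk : P.kind c with test | _ | x | _
  · have : ∃ i0, ¬ test i0 r0 := by
      by_contra h
      push Not at h
      exact hc (.leaf hk h)
    obtain ⟨i0, h0⟩ := this
    refine ⟨i0, fun i r => if i = i0 ∧ ∀ y, known i y → r y = r0 y then 1 else 0, 0, ?_,
      fun _ _ => rfl, ?_, fun i => by simp⟩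
    · intro i r ht
      apply if_neg
      rintro ⟨rfl, h⟩
      exact h0 ((P.test_local c test hk i r r0 h).1 ht)
    · intro i r r' h
      exact if_congr (and_congr_right fun _ => forall_congr' fun y => forall_congr' fun hy => by
        rw [h y hy]) rfl rfl
  · by_cases h : P.Der (P.child c false) r0
    · refine ⟨0, dd (stp 0), fun σ => if σ then 1 else 0, fun i r => by simp [okNode], ?_,
        (pot_stp 0).dd_loc, fun i => dd_stp _ _ _⟩
      rintro (_ | _) h'
      · rfl
      · exact (hc (.and hk h h')).elim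
    · refine ⟨0, dd (stp 0), fun σ => if σ then 0 else 1, fun i r => by simp [okNode], ?_,
        (pot_stp 0).dd_loc, fun i => dd_stp _ _ _⟩
      rintro (_ | _) h'
      · exact (h h').elim
      · rfl
  · exact ⟨0, dd (stp 0), 1, fun i r => by simp [okNode],
      fun σ h => (hc (.orx hk (fun _ _ => rfl) h)).elim, (pot_stp 0).dd_loc,
      fun i => dd_stp _ _ _⟩
  · exact ⟨0, dd (stp 0), 0, fun i r => by simp [okNode], fun _ _ => rfl, (pot_stp 0).dd_loc,
      fun i => dd_stp _ _ _⟩

theorem okNode_zero (k : Kind κ V) (i r) : okNode false k i r 0 0 0 := by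
  rcases k with test | _ | x | _ <;> simp [okNode]

theorem Prog.extend_chain (P : Prog Q κ V) (hκ : 1 ≤ κ)
    (X : Finset (Base Q κ V)) (hX : X.card ≤ κ + 1) (b : Base Q κ V)
    (hc : ∃ r, Chain X none r) (w : Tag Q κ → St κ V → F) (hw : P.Good X w) :
    ∃ δ Y, b ∈ Y ∧ X ⊆ Y ∧ P.Local δ ∧ P.Good Y (δ + w) ∧
      ∀ b ∈ X, ∀ p, δ (tag P.child b.1 b.2.1 p) b.2.2 = 0 := by
  classical
  obtain ⟨ρ, r0, hU, hL, hT, hC⟩ := hw
  obtain ⟨r, hr⟩ := hc
  obtain rfl : r = r0 := funext fun y => hC none r hr y (by simp)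
  have hY : (insert b X).card ≤ κ + 2 := (Finset.card_insert_le _ _).trans (by omega)
  have hCY : Cons (insert b X) r := fun x r' h y hy =>
    chain_agree hκ _ hY h (hr.mono (Finset.subset_insert _ _)) y hy (by simp)
  by_cases hb : Loc (insert b X) ρ
  · exact ⟨0, insert b X, by simp, by simp, fun _ _ _ _ => rfl,
      ⟨ρ, r, by simpa using hU, hb, by simpa using hT, hCY⟩, fun _ _ _ => rfl⟩
  simp only [Loc, Finset.mem_insert, not_forall] at hb
  obtain ⟨q, σ, ω, t1, i1, r1, hb1, hρ⟩ := hb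
  obtain rfl : (Col.wire q σ ω t1, i1, r1) = b :=
    hb1.resolve_right fun h => hρ (hL _ _ _ _ _ _ h)
  clear hb1
  obtain ⟨t2, ht2⟩ := exists_free _ hY q σ ω
  have ht12 : t1.val ≠ t2.val := fun h => ht2 i1 r1 (by rw [← Fin.ext h]; simp)
  have hcf : ¬ P.Der (P.child q σ) r := fun h => hρ (hT.wire q σ ω t1 t1.2 h)
  have hf1 : ∀ (t : Fin (κ + 3)) i r, (Col.wire q σ ω t, i, r) ∈ X →
      t.val ≠ t1.val ∧ t.val ≠ t2.val := fun t i r h =>
    ⟨fun e => hρ (by rw [← e]; exact hL _ _ _ _ _ _ h),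
      fun e => ht2 i r (by rw [← Fin.ext e]; exact Finset.mem_insert_of_mem h)⟩
  let btw : ℕ → F := fun t => if min t1.val t2.val < t ∧ t ≤ max t1.val t2.val then 1 else 0
  have bt0 : btw 0 = 0 := by simp [btw]
  have btL : btw (κ + 3) = 0 := by
    have := t1.2; have := t2.2
    simp only [btw]; rw [if_neg (by omega)]
  have bt1 : btw t1 + btw (t1 + 1) = 1 := by
    simp only [btw]
    split_ifs <;> first | omega | simp
  have bt2 : ∀ t : ℕ, t ≠ t1.val → t ≠ t2.val → btw t + btw (t + 1) = 0 := by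
    intro t h1 h2
    simp only [btw]
    split_ifs <;> first | omega | simp [F_add_self]
  have main : ∀ (i0 : Fin (κ + 1)) (e : Fin (κ + 1) → St κ V → F) (bad : Bool → F),
      (∀ i r, okNode false (P.kind (P.child q σ)) i r (e i r) (bad false * dd (stp i0) i r)
        (bad true * dd (stp i0) i r)) →
      (∀ σ', P.Der (P.child (P.child q σ) σ') r → bad σ' = 0) →
      (∀ i r r', (∀ y, known i y → r y = r' y) → e i r = e i r') →
      ((bad = 0 ∧ e = 0 ∧ ∀ (t : Fin (κ + 3)) r', (Col.wire q σ ω t, i0, r') ∈ X →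
          btw t = 0) ∨
        ∀ b ∈ X, ∃ t : Fin (κ + 3), b.1 = Col.wire q σ ω t ∧ btw t = 1 ∧
          e b.2.1 b.2.2 = if b.2.1 = i0 then 1 else 0) →
      ∃ δ, P.Local δ ∧ P.Good (insert (Col.wire q σ ω t1, i1, r1) X) (δ + w) ∧
        ∀ b ∈ X, ∀ p, δ (tag P.child b.1 b.2.1 p) b.2.2 = 0 := by
    intro i0 e bad m1 m2 m3 m4
    let cH : Q → Bool → Bool → ℕ → F := fun q' σ' ω' t =>
      (if q' = q ∧ σ' = σ ∧ ω' = ω then btw t else 0) +
        (if q' = P.child q σ ∧ ω' ≠ ω ∧ t = κ + 3 then bad σ' else 0)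
    let cO : Q → Bool → F := fun q' σ' => if q' = P.child q σ then bad σ' else 0
    let η : Q → Fin (κ + 1) → St κ V → F := fun q' => if q' = P.child q σ then e else 0
    have hH : ∀ q' σ' ω' t, Pot (cH q' σ' ω' t • stp (V := V) i0) (cH q' σ' ω' t) :=
      fun _ _ _ _ => (pot_stp i0).smul _
    have hH0 : ∀ q' σ' ω', cH q' σ' ω' 0 • stp (V := V) i0 =
        (fun _ : Q => (0 : F) • stp (V := V) i0) (P.child q' σ') := by
      intro q' σ' ω'; simp [cH, bt0]
    have hcX : ∀ q' σ' ω' (t : Fin (κ + 3)) i r', (Col.wire q' σ' ω' t, i, r') ∈ X →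
        cH q' σ' ω' t + cH q' σ' ω' (t + 1) = 0 := by
      intro q' σ' ω' t i r' hm
      have ht : t.val ≠ κ + 3 := t.2.ne
      by_cases hW : q' = q ∧ σ' = σ ∧ ω' = ω
      · obtain ⟨rfl, rfl, rfl⟩ := hW
        simpa [cH] using bt2 t (hf1 t i r' hm).1 (hf1 t i r' hm).2
      · rcases m4 with ⟨rfl, _, _⟩ | m4
        · simp [cH, hW]
        · obtain ⟨t', h1, _⟩ := m4 _ hm
          simp only [Col.wire.injEq] at h1
          exact (hW ⟨h1.1, h1.2.1, h1.2.2.1⟩).elim
    refine ⟨P.delta (fun _ => (0 : F) • stp i0) (fun q' σ' => cO q' σ' • stp i0)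
      (fun q' σ' ω' t => cH q' σ' ω' t • stp i0) η,
      P.delta_local _ _ _ _ (fun _ => 0) cH (fun _ => (pot_stp i0).smul _) hH
        (fun q σ i r r' _ => by simp [dd_stp]) ?_,
      ⟨_, r, hU.modify P _ _ _ _ cH hH0 hH ?_ ?_, ?_, ⟨?_, ?_⟩, hCY⟩, ?_⟩
    · intro q' i r r' h
      simp only [η]
      split_ifs
      · exact m3 i r r' h
      · rfl
    · intro q' σ'
      rw [← add_smul]
      congr 1
      cases ω <;> simp [cH, cO, btL]
    · intro q' i r'
      simp only [dd_smul, zero_mul, zero_add, cO, η]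
      split_ifs with h
      · rw [h]; exact m1 i r'
      · simpa using okNode_zero _ _ _
    · intro q' σ' ω' t i r' hm
      simp only
      rcases Finset.mem_insert.1 hm with hm | hm
      · simp only [Prod.mk.injEq, Col.wire.injEq] at hm
        obtain ⟨⟨rfl, rfl, rfl, rfl⟩, _⟩ := hm
        rw [F_eq_one hρ, add_assoc]
        simp [cH, bt1, F_add_self]
      · rw [add_assoc, hcX _ _ _ _ _ _ hm, hL _ _ _ _ _ _ hm, add_zero]
    · intro q' hd
      have : q' ≠ P.child q σ := fun h => hcf (h ▸ hd)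
      simp [Prog.delta, η, this, hT.node q' hd]
    · intro q' σ' ω' t ht hd
      have h1 : ∀ t, cH q' σ' ω' t = 0 := by
        intro t
        simp only [cH]
        rw [if_neg, zero_add]
        · split_ifs with h
          · exact m2 σ' (h.1 ▸ hd)
          · rfl
        · rintro ⟨rfl, rfl, _⟩; exact hcf hd
      simp [h1, hT.wire q' σ' ω' t ht hd]
    · rintro ⟨c, i, r'⟩ hb p
      have hG : ∀ q' σ' ω' (t : Fin (κ + 3)), c = .wire q' σ' ω' t → ∀ e',
          cH q' σ' ω' t * stp i0 e' r' + cH q' σ' ω' (t + 1) * stp i0 e' r' = 0 := by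
        rintro q' σ' ω' t rfl e'
        rw [← add_mul, hcX _ _ _ _ _ _ hb, zero_mul]
      have hT' := P.delta_hTag (fun _ => (0 : F) • stp i0) (fun q' σ' => cO q' σ' • stp i0)
        (fun q' σ' ω' t => cH q' σ' ω' t • stp i0) η hH0
      rcases m4 with ⟨rfl, rfl, m4⟩ | m4
      · have hη : η = 0 := by funext q'; simp [η]
        rcases c with q' | ⟨q', σ'⟩ | ⟨q', σ', ω', t⟩
        · fin_cases p <;> simp [tag, Prog.delta, hη, cO]
        · fin_cases p <;> simp [tag, Prog.delta, hη, cO, cH, btL]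
        · have h1 : cH q' σ' ω' t * dd (stp i0) i r' = 0 := by
            rw [dd_stp]
            split_ifs with hi
            · subst hi
              simp only [cH, Pi.zero_apply, ite_self, add_zero, mul_one]
              split_ifs with hW
              · obtain ⟨rfl, rfl, rfl⟩ := hW
                exact m4 t r' hb
              · rfl
            · simp
          have h2 : cH q' σ' ω' (t + 1) = cH q' σ' ω' t := by
            linear_combination hcX _ _ _ _ _ _ hb - F_add_self (cH q' σ' ω' t)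
          fin_cases p
          · refine (hT' _ _ _ _ _ _).trans ?_
            simpa [hη] using h1
          · simpa [tag, Prog.delta, hη, h2] using h1
          · simpa [tag, Prog.delta] using hG _ _ _ _ rfl _
          · simpa [tag, Prog.delta] using hG _ _ _ _ rfl _
      · obtain ⟨t, h1, h2, h3⟩ := m4 _ hb
        simp only at h1 h3
        subst h1
        have h4 : cH q σ ω t = 1 := by simp [cH, h2]
        have h5 : cH q σ ω (t + 1) = cH q σ ω t := by
          linear_combination hcX _ _ _ _ _ _ hb - F_add_self (cH q σ ω t)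
        fin_cases p
        · refine (hT' _ _ _ _ _ _).trans ?_
          simp [h4, η, h3, dd_stp, F_add_self]
        · simp [tag, Prog.delta, h4, h5, η, h3, dd_stp, F_add_self]
        · simpa [tag, Prog.delta] using hG _ _ _ _ rfl _
        · simpa [tag, Prog.delta] using hG _ _ _ _ rfl _
  have fin : ∃ δ, P.Local δ ∧ P.Good (insert (Col.wire q σ ω t1, i1, r1) X) (δ + w) ∧
        ∀ b ∈ X, ∀ p, δ (tag P.child b.1 b.2.1 p) b.2.2 = 0 := by
    by_cases h : ∃ i0, ∀ (t : Fin (κ + 3)) r', (Col.wire q σ ω t, i0, r') ∈ X → btw t = 0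
    · obtain ⟨i0, h⟩ := h
      exact main i0 0 0 (fun i r => by simpa using okNode_zero _ _ _) (fun _ _ => rfl)
        (fun _ _ _ _ => rfl) (Or.inl ⟨rfl, rfl, h⟩)
    · push Not at h
      choose ft fr h1 h2 using h
      have hu := unique_rows X hX (fun i => (Col.wire q σ ω (ft i), i, fr i))
        (fun i => ⟨h1 i, rfl⟩)
      obtain ⟨i0, e, bad, m1, m2, m3, m4⟩ := P.false_flip _ r hcf
      refine main i0 e bad m1 m2 m3 (Or.inr fun b hb => ⟨ft b.2.1, ?_, F_eq_one (h2 _), ?_⟩)
      · exact congrArg Prod.fst (hu b hb)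
      · obtain ⟨b', a1, a2, a3⟩ := hr b.2.1
        have : b' = b := by rw [hu b' a1, a2, ← hu b hb]
        subst this
        rw [m3 _ _ r fun y hy => a3 y hy (by simp), m4]
  obtain ⟨δ, h1, h2, h3⟩ := fin
  exact ⟨δ, _, by simp, by simp, h1, h2, h3⟩

theorem Prog.dup (P : Prog Q κ V) [Nonempty V] (hκ : 1 ≤ κ)
    (hroot : ∀ q r, P.kind q = .root → ¬ P.Der (P.child q false) r) : P.sys.Dup (κ + 1) := by
  classical
  let val : (GVar Q κ V → F) → Tag Q κ → St κ V → F := fun x T r => x (P.gv T r)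
  have lift : ∀ δ, P.Local δ → ∃ y, val y = δ := by
    intro δ hδ
    refine ⟨fun z => δ z.1 (fun y => (z.2 y).getD (Classical.arbitrary V)), ?_⟩
    funext T r
    exact hδ T _ _ fun y hy => by simp [Prog.gv, res, hy]
  refine ⟨fun X x => P.Good X (val x), ?_, ?_, ?_, ?_⟩
  · let a : Q → Bool → F := fun q σ => match P.kind q with
      | .root => if σ then 0 else 1
      | _ => 0
    let w : Tag Q κ → St κ V → F := fun T _ => match T with
      | .O q σ i => if i = 0 then a q σ else 0
      | .H q σ ω t i => if ω = false ∧ t = κ + 3 ∧ i = 0 then a q σ else 0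
      | _ => 0
    obtain ⟨x, hx⟩ := lift w (fun T r r' _ => rfl)
    refine ⟨x, fun q σ ω t => if ω = false ∧ t + 1 = κ + 3 then a q σ else 0,
      fun _ => Classical.arbitrary V, ?_, ?_, ?_, ?_⟩
    · rw [hx]
      refine ⟨fun q i r => ?_, fun q σ i r => by simp [w], fun q σ ω t ht i r => ?_⟩
      · simp only [w, a]
        rcases P.kind q with test | _ | x | _ <;> simp [okNode]
      · have : w (hTag P.child q σ ω t i) r = 0 := by
          by_cases h : t = 0
          · simp [hTag, h, w]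
          · simp [hTag, h, w, ht.ne]
        rw [this]
        simp only [okWire, w, ite_self, add_zero, zero_add]
        split_ifs <;> simp_all
    · intro q σ ω t i r h; simp at h
    · rw [hx]
      refine ⟨fun q _ => by simp [w], fun q σ ω t _ hd => ?_⟩
      split_ifs
      · simp only [a]
        rcases hk : P.kind q with test | _ | x | _ <;> try rfl
        cases σ
        · exact (hroot q _ hk hd).elim
        · rfl
      · rfl
    · intro x r h
      obtain ⟨b, hb, _⟩ := h 0
      simp at hb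
  · rintro X x ⟨ρ, r0, hU, hL, _, _⟩ ⟨c, i, r⟩ hb
    rcases c with q | ⟨q, σ⟩ | ⟨q, σ, ω, t⟩
    · exact hU.node q i r
    · exact hU.merge q σ i r
    · have := hU.wire q σ ω t t.2 i r
      rw [hL _ _ _ _ _ _ hb, ite_self] at this
      exact this
  · rintro X Y x ⟨ρ, r0, hU, hL, hT, hC⟩ hY
    exact ⟨ρ, r0, hU, fun q σ ω t i r h => hL q σ ω t i r (hY h), hT,
      fun x r h => hC x r (h.mono hY)⟩
  · intro X x hG hX b
    have : ∃ δ Y, b ∈ Y ∧ X ⊆ Y ∧ P.Local δ ∧ P.Good Y (δ + val x) ∧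
        ∀ b ∈ X, ∀ p, δ (tag P.child b.1 b.2.1 p) b.2.2 = 0 := by
      by_cases hc : ∃ r, Chain X none r
      · exact P.extend_chain hκ X hX b hc _ hG
      · obtain ⟨δ, h1, h2, h3⟩ := P.extend_nochain hκ hroot X (insert b X) hX
          ((Finset.card_insert_le _ _).trans (by omega)) (Finset.subset_insert _ _) hc _ hG
        exact ⟨δ, _, by simp, by simp, h1, h2, h3⟩
    obtain ⟨δ, Y, h1, h2, h3, h4, h5⟩ := this
    obtain ⟨y, rfl⟩ := lift δ h3
    refine ⟨Y, y + x, h4, h1, h2, fun b' hb' p => ?_⟩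
    have : y (P.sys.var b' p) = 0 := h5 b' hb' p
    simp [this]

end Vale.Agent.P310
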