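import Vale.Agent.P310.Grid

namespace Vale.Agent.P310

open Function

section
variable {B Var : Type} {K : ℕ} (S : Sys B Var) (R : (Fin K → B) → (Fin K → A) → Prop)

theorem spo_total (h0 : ∃ b a, R b a)
    (h3 : ∀ b a, R b a → ∀ b', ∃ a', ∀ i, R (update b i b') (update a i a'))
    (β : Fin K → B) : ∃ a, R β a := by
  obtain ⟨b0, a0, h0⟩ := h0
  have key : ∀ j : ℕ, ∃ b a, R b a ∧ ∀ i : Fin K, i.val < j → b i = β i := by
    intro j
    induction j with
    | zero => exact ⟨b0, a0, h0, fun i hi => absurd hi (by omega)⟩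
    | succ j ih =>
      obtain ⟨b, a, hR, hb⟩ := ih
      by_cases hj : j < K
      · obtain ⟨a', ha'⟩ := h3 b a hR (β ⟨j, hj⟩)
        refine ⟨_, _, ha' ⟨j, hj⟩, fun i hi => ?_⟩
        by_cases hij : i = ⟨j, hj⟩
        · subst hij; simp
        · rw [update_of_ne hij]
          apply hb
          have : i.val ≠ j := fun h => hij (Fin.ext h)
          omega
      · exact ⟨b, a, hR, fun i _ => hb i (by have := i.2; omega)⟩
  obtain ⟨b, a, hR, hb⟩ := key K
  have : b = β := funext fun i => hb i i.2
  exact ⟨a, this ▸ hR⟩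

theorem spo_transfer (hK : 2 ≤ K)
    (h2 : ∀ b a, R b a → ∀ i j p p', S.var (b i) p = S.var (b j) p' → a i p = a j p')
    (h3 : ∀ b a, R b a → ∀ b', ∃ a', ∀ i, R (update b i b') (update a i a'))
    (β β' : Fin K → B) (p p' : Fin 4) (hv : ∀ i, S.var (β i) p = S.var (β' i) p')
    (h : ∀ a, R β a → ∑ i, a i p = 0) : ∀ a, R β' a → ∑ i, a i p' = 0 := by
  have key : ∀ m : ℕ, ∀ a, R (fun i => if i.val < m then β' i else β i) a →
      ∑ i, a i (if i.val < m then p' else p) = 0 := by
    intro m
    induction m with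
    | zero => simpa using h
    | succ m ih =>
      intro a ha
      by_cases hm : m < K
      · obtain ⟨a0, h0⟩ := h3 _ _ ha (β ⟨m, hm⟩)
        have e1 : update (fun i : Fin K => if i.val < m + 1 then β' i else β i) ⟨m, hm⟩
            (β ⟨m, hm⟩) = fun i => if i.val < m then β' i else β i := by
          funext i
          by_cases hi : i = ⟨m, hm⟩
          · subst hi; simp
          · rw [update_of_ne hi]
            have : i.val ≠ m := fun h => hi (Fin.ext h)
            by_cases h1 : i.val < m
            · simp [h1, Nat.lt_succ_of_lt h1]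
            · have : ¬ i.val < m + 1 := by omega
              simp [h1, this]
        have h4 := h0 ⟨m, hm⟩
        rw [e1] at h4
        have h5 := ih _ h4
        obtain ⟨j, hj⟩ : ∃ j : Fin K, j ≠ ⟨m, hm⟩ := by
          by_cases hm0 : m = 0
          · exact ⟨⟨1, by omega⟩, by simp [Fin.ext_iff, hm0]⟩
          · exact ⟨⟨0, by omega⟩, by simp [Fin.ext_iff]; omega⟩
        have h6 := h2 _ _ (h0 j) j ⟨m, hm⟩ p p' (by
          rw [update_self, update_of_ne hj.symm]; simpa using hv _)
        rw [update_self, update_of_ne hj.symm] at h6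
        rw [← h5]
        refine Finset.sum_congr rfl fun i _ => ?_
        by_cases hi : i = ⟨m, hm⟩
        · subst hi; simp [h6]
        · rw [update_of_ne hi]
          have : i.val ≠ m := fun h => hi (Fin.ext h)
          by_cases h1 : i.val < m
          · simp [h1, Nat.lt_succ_of_lt h1]
          · have : ¬ i.val < m + 1 := by omega
            simp [h1, this]
      · have e : ∀ i : Fin K, (i.val < m + 1 ↔ i.val < m) := fun i => by have := i.2; omega
        simp only [e] at ha ⊢
        exact ih a ha
  intro a ha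
  have := key K a (by simpa using ha)
  simpa using this

end

variable {κ : ℕ} {V Q : Type}

theorem Prog.not_spo (P : Prog Q κ V) (hκ : 1 ≤ κ) (q0 : Q) (r0 : St κ V)
    (hq0 : P.kind q0 = .root) (hd : P.Der (P.child q0 false) r0) : ¬ P.sys.Spo (κ + 1) := by
  rintro ⟨R, h0, h1, h2, h3⟩
  have tr := spo_transfer P.sys R (by omega) h2 h3
  have wire : ∀ q σ ω r, (∀ a, R (fun i => (.node (P.child q σ), i, r)) a → ∑ i, a i 0 = 0) →
      ∀ t (ht : t < κ + 3), ∀ a, R (fun i => (.wire q σ ω ⟨t, ht⟩, i, r)) a →
        ∑ i, a i 1 = 0 := by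
    intro q σ ω r hN
    have cross : ∀ t : Fin (κ + 3), ∀ a, R (fun i => (.wire q σ ω t, i, r)) a →
        ∑ i, a i 0 = 0 → ∑ i, a i 1 = 0 := by
      intro t a ha hs
      let g : ℕ → F := fun e => if h : e < κ + 1 then a ⟨e, h⟩ 2 else 0
      have := sum_okWire (fun i => a i 0) (fun i => a i 1) g
      rw [hs, zero_add] at this
      rw [← this]
      refine Finset.sum_eq_zero fun i _ => ?_
      have h4 : okWire i (a i 0) (a i 1) (a i 2) (a i 3) = 0 := h1 _ _ ha i
      rw [← h4]
      simp only [okWire, g, i.2, dite_true]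
      congr 1
      split_ifs with h5 h6
      · rfl
      · exact h2 _ _ ha ⟨i.val + 1, h6⟩ i 2 3 rfl
      · exact absurd (Fin.ext (by have := i.2; simp; omega)) h5
    intro t
    induction t with
    | zero =>
      intro ht a ha
      refine cross _ a ha (tr _ _ 0 0 ?_ hN a ha)
      intro i; rfl
    | succ t ih =>
      intro ht a ha
      refine cross _ a ha (tr _ _ 1 0 ?_ (ih (by omega)) a ha)
      intro i; rfl
  have sw : ∀ q σ r r', agreeOff (P.mask q) r r' →
      (∀ a, R (fun i => (.node (P.child q σ), i, r')) a → ∑ i, a i 0 = 0) →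
      ∀ a, R (fun i => (.node q, i, r)) a → ∑ i, a i (if σ then 2 else 1) = 0 := by
    intro q σ r r' hr hN
    have m1 := tr (fun i => (.wire q σ false ⟨κ + 2, by omega⟩, i, r'))
      (fun i => (.merge q σ, i, r')) 1 1 (fun i => rfl)
      (wire q σ false r' hN (κ + 2) (by omega))
    have m2 := tr (fun i => (.wire q σ true ⟨κ + 2, by omega⟩, i, r'))
      (fun i => (.merge q σ, i, r')) 1 2 (fun i => rfl)
      (wire q σ true r' hN (κ + 2) (by omega))
    refine tr (fun i => (.merge q σ, i, r')) _ 0 _ ?_ ?_
    · intro i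
      have : P.gv (.O q σ i) r' = P.gv (.O q σ i) r :=
        P.gv_eq _ fun y hy => (hr y hy.2).symm
      cases σ <;> exact this
    · intro a ha
      have h4 : ∀ i, a i 0 = a i 1 + a i 2 := fun i => h1 _ _ ha i
      simp only [h4, Finset.sum_add_distrib, m1 a ha, m2 a ha, add_zero]
  have main : ∀ q r, P.Der q r → ∀ a, R (fun i => (.node q, i, r)) a → ∑ i, a i 0 = 0 := by
    intro q r hd
    induction hd with
    | @leaf q test r hk ht =>
      intro a ha
      refine Finset.sum_eq_zero fun i _ => ?_
      have h4 : okNode true (P.kind q) i r (a i 0) (a i 1) (a i 2) := h1 _ _ ha i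
      rw [hk] at h4
      exact h4 (ht i)
    | @and q r hk _ _ ih1 ih2 =>
      intro a ha
      have h4 : ∀ i, a i 0 = a i 1 + a i 2 := fun i => by
        have h4 : okNode true (P.kind q) i r (a i 0) (a i 1) (a i 2) := h1 _ _ ha i
        rw [hk] at h4
        exact h4
      have s1 := sw q false r r (fun _ _ => rfl) ih1 a ha
      have s2 := sw q true r r (fun _ _ => rfl) ih2 a ha
      simp only [Bool.false_eq_true, if_false, if_true] at s1 s2
      simp only [h4, Finset.sum_add_distrib, s1, s2, add_zero]
    | @orx q x r r' σ hk hr _ ih =>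
      intro a ha
      have h4 : ∀ i, a i 0 = a i 1 ∧ a i 0 = a i 2 := fun i => by
        have h4 : okNode true (P.kind q) i r (a i 0) (a i 1) (a i 2) := h1 _ _ ha i
        rw [hk] at h4
        exact h4
      have s1 := sw q σ r r' (by simpa [Prog.mask, hk, Kind.mask] using hr) ih a ha
      rw [← s1]
      refine Finset.sum_congr rfl fun i _ => ?_
      cases σ
      · exact (h4 i).1
      · exact (h4 i).2
  obtain ⟨a, ha⟩ := spo_total R h0 h3 (fun i => (.node q0, i, r0))
  have s1 := sw q0 false r0 r0 (fun _ _ => rfl) (main _ _ hd) a ha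
  have h4 : ∀ i, a i 1 = if i = 0 then 1 else 0 := fun i => by
    have h4 : okNode true (P.kind q0) i r0 (a i 0) (a i 1) (a i 2) := h1 _ _ ha i
    rw [hq0] at h4
    simpa [okNode] using h4
  simp [h4] at s1

end Vale.Agent.P310
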