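import Vale.Agent.P310.Defs

namespace Vale.Agent.P310

variable {n : ℕ}

theorem length_adjBits (G : SimpleGraph (Fin n)) : (adjBits G).length = n * n := by
  simp [adjBits]

theorem length_inputBits (G H : SimpleGraph (Fin n)) : (inputBits G H).length = 2 * (n * n) := by
  simp [inputBits, length_adjBits, two_mul]

theorem pos_lt {u v : ℕ} (hu : u < n) (hv : v < n) : u * n + v < n * n := by
  have : (u + 1) * n ≤ n * n := Nat.mul_le_mul_right _ hu
  nlinarith

open Classical in
theorem adjBits_get (G : SimpleGraph (Fin n)) (u v : Fin n) :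
    (adjBits G)[u.val * n + v.val]? = some (decide (G.Adj u v)) := by
  have h := pos_lt u.2 v.2
  have hn : 0 < n := u.pos
  simp only [adjBits, List.getElem?_ofFn, h, dite_true, Option.some.injEq]
  congr 2
  · apply Fin.ext
    simp only [Fin.coe_divNat]
    rw [mul_comm, Nat.mul_add_div hn, Nat.div_eq_of_lt v.2]; rfl
  · apply Fin.ext
    simp only [Fin.coe_modNat]
    rw [mul_comm, Nat.mul_add_mod, Nat.mod_eq_of_lt v.2]

open Classical in
theorem inputBits_get (X : Bool → SimpleGraph (Fin n)) (g : Bool) (u v : Fin n) :
    (inputBits (X false) (X true))[(if g then n * n else 0) + u.val * n + v.val]? =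
      some (decide ((X g).Adj u v)) := by
  have h := pos_lt u.2 v.2
  cases g
  · simp only [inputBits, Bool.false_eq_true, if_false, zero_add]
    rw [List.getElem?_append_left (by rwa [length_adjBits]), adjBits_get]
  · simp only [inputBits, if_true]
    rw [List.getElem?_append_right (by rw [length_adjBits]; omega), length_adjBits,
      show n * n + u.val * n + v.val - n * n = u.val * n + v.val by omega, adjBits_get]

theorem exists_pos {p : ℕ} (hp : p < 2 * (n * n)) :
    ∃ (g : Bool) (u v : Fin n), p = (if g then n * n else 0) + u.val * n + v.val := by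
  have hn : 0 < n := by
    rcases n with _ | n
    · simp at hp
    · omega
  by_cases h : p < n * n
  · refine ⟨false, ⟨p / n, (Nat.div_lt_iff_lt_mul hn).2 h⟩, ⟨p % n, Nat.mod_lt _ hn⟩, ?_⟩
    simp [Nat.div_add_mod']
  · refine ⟨true, ⟨(p - n * n) / n, (Nat.div_lt_iff_lt_mul hn).2 (by omega)⟩,
      ⟨(p - n * n) % n, Nat.mod_lt _ hn⟩, ?_⟩
    simp only [if_true, add_assoc, Nat.div_add_mod']
    omega

end Vale.Agent.P310
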