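import Vale.Agent.P310.Lay
import Vale.Agent.P310.Input

namespace Vale.Agent.P310

open Function

variable {κ : ℕ} {Pn : Type}

def sc10 (a : Fin 10) : Fin 10 := if a < 7 then 6 else 9

/-- the standard layout: blocks `0..6` have `M` digits, blocks `7..9` have seven digits -/
structure SLay (κ M : ℕ) extends Lay κ (Fin 10) where
  hsc : sc = sc10
  big : ∀ a, a < 7 → (blk a).length = M
  small : ∀ a, ¬ a < 7 → (blk a).length = 7

variable {M : ℕ} (L : SLay κ M) {E : Env} {I : Pn → St κ (Fin E.s) → Prop}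

theorem SLay.elim (a : Fin 10) (ha : a ≠ sc10 a) {R : RelQ L.toLay a} {φ : Fm κ Pn} {r}
    (h : (L.cg a R φ).sem E I r) :
    ∃ r', (∀ b, b ≠ a → b ≠ sc10 a → L.bv b r' = L.bv b r) ∧
      R.R E.e0 (L.bv a r') (L.bv a r) ∧ φ.sem E I r' := by
  obtain ⟨r', h1, h2, h3⟩ := L.cg_elim (by rwa [L.hsc]) h
  exact ⟨r', fun b b1 b2 => h1 b b1 (by rwa [L.hsc]), h2, h3⟩

theorem SLay.introB (a : Fin 10) (ha : a < 6) {R : RelQ L.toLay a} {φ : Fm κ Pn} {r} (x : ℕ)
    (hx : x < E.s ^ M) (h1 : R.R E.e0 x (L.bv a r))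
    (h2 : ∀ r', (∀ b, b ≠ a → b ≠ 6 → L.bv b r' = L.bv b r) → L.bv a r' = x → φ.sem E I r') :
    (L.cg a R φ).sem E I r := by
  have h7 : a < 7 := lt_trans ha (by decide)
  have hs : L.sc a = 6 := by rw [L.hsc, sc10, if_pos h7]
  refine L.cg_intro (by rw [hs]; exact ha.ne) x (by rwa [L.big a h7]) h1
    fun r' h3 h4 => h2 r' (fun b b1 b2 => h3 b b1 (by rwa [hs])) h4

theorem SLay.introS (a : Fin 10) (ha : a = 7 ∨ a = 8) {R : RelQ L.toLay a} {φ : Fm κ Pn} {r}
    (x : ℕ) (hx : x < E.s ^ 7) (h1 : R.R E.e0 x (L.bv a r))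
    (h2 : ∀ r', (∀ b, b ≠ a → b ≠ 9 → L.bv b r' = L.bv b r) → L.bv a r' = x → φ.sem E I r') :
    (L.cg a R φ).sem E I r := by
  have h7 : ¬ a < 7 := by rcases ha with rfl | rfl <;> decide
  have hs : L.sc a = 9 := by rw [L.hsc, sc10, if_neg h7]
  refine L.cg_intro (by rw [hs]; rcases ha with rfl | rfl <;> decide) x
    (by rwa [L.small a h7]) h1 fun r' h3 h4 => h2 r' (fun b b1 b2 => h3 b b1 (by rwa [hs])) h4

theorem SLay.bv_big (a : Fin 10) (ha : a < 7) (r : St κ (Fin E.s)) : L.bv a r < E.s ^ M := by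
  have := L.bv_lt a r
  rwa [L.big a ha] at this

def off (n : ℕ) (g : Bool) : ℕ := if g then n * n else 0

/-- block 1 holds the position of the pair (block 7, block 8) in matrix number `g` -/
def SLay.posBody (pos : Pn) (g : Bool) : Fm κ Pn :=
  .or (.and (L.is 1 fun E => off E.n g) (.and (L.is 7 fun _ => 0)
      (.and (L.is 8 fun _ => 0) (.bin fun E _ _ => 0 < E.n))))
    (.or (L.cg 1 (L.rDec 1) (L.cg 8 ((L.rDec 8).and (L.rOld 8 fun E => E.n).not) (.call pos)))
      (.and (L.is 8 fun _ => 0) (L.cg 1 (L.rDec 1)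
        (L.cg 7 ((L.rDec 7).and (L.rOld 7 fun E => E.n).not)
          (L.cg 8 (L.rNew 8 fun E => E.n - 1) (.call pos))))))

def SLay.PosI (g : Bool) (r : St κ (Fin E.s)) : Prop :=
  L.bv 7 r < E.n ∧ L.bv 8 r < E.n ∧ L.bv 1 r = off E.n g + L.bv 7 r * E.n + L.bv 8 r

theorem SLay.pos_sound (pos : Pn) (g : Bool) (hI : ∀ r, I pos r → L.PosI g r) (r)
    (h : (L.posBody pos g).sem E I r) : L.PosI g r := by
  have hn : E.e0.n = E.n := rfl
  simp only [SLay.posBody, Fm.sem_or, Fm.sem_and, Lay.sem_is, hn] at h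
  rcases h with ⟨h1, h2, h3, h4⟩ | h | ⟨h0, h⟩
  · have h5 : 0 < E.n := h4
    exact ⟨by omega, by omega, by simp [h1, h2, h3]⟩
  · obtain ⟨r1, a1, a2, h⟩ := L.elim 1 (by decide) h
    obtain ⟨r2, b1, b2, h⟩ := L.elim 8 (by decide) h
    obtain ⟨c1, c2, c3⟩ := hI _ h
    simp only [Lay.rDec, RelQ.and, RelQ.not, Lay.rOld, hn] at a2 b2
    rw [b1 7 (by decide) (by decide), a1 7 (by decide) (by decide)] at c1 c3
    rw [b1 1 (by decide) (by decide)] at c3
    rw [a1 8 (by decide) (by decide)] at b2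
    exact ⟨c1, by omega, by omega⟩
  · obtain ⟨r1, a1, a2, h⟩ := L.elim 1 (by decide) h
    obtain ⟨r2, b1, b2, h⟩ := L.elim 7 (by decide) h
    obtain ⟨r3, d1, d2, h⟩ := L.elim 8 (by decide) h
    obtain ⟨c1, c2, c3⟩ := hI _ h
    simp only [Lay.rDec, RelQ.and, RelQ.not, Lay.rOld, Lay.rNew, hn] at a2 b2 d2
    rw [d1 7 (by decide) (by decide)] at c1 c3
    rw [d1 1 (by decide) (by decide), b1 1 (by decide) (by decide)] at c3
    rw [a1 7 (by decide) (by decide)] at b2
    refine ⟨by omega, by omega, ?_⟩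
    rw [← b2.1, add_mul, ← a2, c3, d2, h0]
    omega

theorem SLay.pos_complete {body : Pn → Fm κ Pn} (pos : Pn) (g : Bool)
    (hb : body pos = L.posBody pos g) (hn7 : E.n < E.s ^ 7) (r) (h : L.PosI g r) :
    DerF E body (.call pos) r := by
  have hn : E.e0.n = E.n := rfl
  generalize hp : L.bv 1 r = p
  induction p using Nat.strong_induction_on generalizing r with
  | _ p ih =>
    obtain ⟨h1, h2, h3⟩ := h
    apply DerF.call_of_sem
    have hlt := L.bv_big 1 (by decide) r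
    rw [hb]
    simp only [SLay.posBody, Fm.sem_or, Fm.sem_and, Lay.sem_is, hn]
    by_cases hv : L.bv 8 r = 0
    · by_cases hu : L.bv 7 r = 0
      · exact Or.inl ⟨by simp [h3, hu, hv], hu, hv, (by omega : 0 < E.n)⟩
      · refine Or.inr (Or.inr ⟨hv, ?_⟩)
        obtain ⟨u, hu'⟩ := Nat.exists_eq_succ_of_ne_zero hu
        rw [hu', Nat.succ_mul] at h3
        refine L.introB 1 (by decide) (p - 1) (by omega) (by simp only [Lay.rDec]; omega)
          fun r1 a1 a2 => ?_
        refine L.introS 7 (by decide) u (by omega) ?_ fun r2 b1 b2 => ?_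
        · simp only [Lay.rDec, RelQ.and, RelQ.not, Lay.rOld, hn]
          rw [a1 7 (by decide) (by decide)]; omega
        refine L.introS 8 (by decide) (E.n - 1) (by omega) rfl fun r3 c1 c2 => ?_
        have e1 : L.bv 1 r3 = p - 1 := by
          rw [c1 1 (by decide) (by decide), b1 1 (by decide) (by decide), a2]
        have e7 : L.bv 7 r3 = u := by rw [c1 7 (by decide) (by decide), b2]
        exact ih (p - 1) (by omega) r3 ⟨by omega, by omega, by rw [e1, e7, c2]; omega⟩ e1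
    · refine Or.inr (Or.inl ?_)
      refine L.introB 1 (by decide) (p - 1) (by omega) (by simp only [Lay.rDec]; omega)
        fun r1 a1 a2 => ?_
      refine L.introS 8 (by decide) (L.bv 8 r - 1) (by omega) ?_ fun r2 b1 b2 => ?_
      · simp only [Lay.rDec, RelQ.and, RelQ.not, Lay.rOld, hn]
        rw [a1 8 (by decide) (by decide)]; omega
      have e1 : L.bv 1 r2 = p - 1 := by rw [b1 1 (by decide) (by decide), a2]
      have e7 : L.bv 7 r2 = L.bv 7 r := by
        rw [b1 7 (by decide) (by decide), a1 7 (by decide) (by decide)]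
      exact ih (p - 1) (by omega) r2 ⟨by omega, by omega, by rw [e1, e7, b2]; omega⟩ e1

def SLay.blankBody (bl : Pn) : Fm κ Pn :=
  .or (L.is 1 fun E => 2 * (E.n * E.n)) (L.cg 1 (L.rDec 1) (.call bl))

theorem SLay.blank_sound (bl : Pn) (hI : ∀ r, I bl r → 2 * (E.n * E.n) ≤ L.bv 1 r) (r)
    (h : (L.blankBody bl).sem E I r) : 2 * (E.n * E.n) ≤ L.bv 1 r := by
  simp only [SLay.blankBody, Fm.sem_or, Lay.sem_is] at h
  rcases h with h | h
  · exact h.ge
  · obtain ⟨r1, a1, a2, h⟩ := L.elim 1 (by decide) h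
    have := hI _ h
    simp only [Lay.rDec] at a2
    omega

theorem SLay.blank_complete {body : Pn → Fm κ Pn} (bl : Pn) (hb : body bl = L.blankBody bl) (r)
    (h : 2 * (E.n * E.n) ≤ L.bv 1 r) : DerF E body (.call bl) r := by
  generalize hp : L.bv 1 r = p
  induction p using Nat.strong_induction_on generalizing r with
  | _ p ih =>
    apply DerF.call_of_sem
    have hlt := L.bv_big 1 (by decide) r
    rw [hb]
    simp only [SLay.blankBody, Fm.sem_or, Lay.sem_is]
    rcases h.eq_or_lt with h | h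
    · exact Or.inl h.symm
    · exact Or.inr (L.introB 1 (by decide) (p - 1) (by omega) (by simp only [Lay.rDec]; omega)
        fun r1 a1 a2 => ih (p - 1) (by omega) r1 (by omega) a2)

/-- the input symbol at the position held in block 1 is `o` -/
noncomputable def SLay.inAt (adj : Bool → QF κ) (pos : Bool → Pn) (bl : Pn) :
    Option Bool → Fm κ Pn
  | none => .call bl
  | some b => Fm.any fun g => L.cg 7 (L.rAny 7) (L.cg 8 (L.rAny 8)
      (.and (.call (pos g)) ((adj g).toFm b)))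

def SLay.AdjOk (E : Env) (adj : Bool → QF κ) (X : Bool → SimpleGraph (Fin E.n)) : Prop :=
  ∀ g (r : St κ (Fin E.s)) (u v : Fin E.n), L.bv 7 r = u → L.bv 8 r = v →
    ((adj g).sem E (dig r) ↔ (X g).Adj u v)

theorem SLay.inAt_sound {adj : Bool → QF κ} {X : Bool → SimpleGraph (Fin E.n)}
    (hadj : L.AdjOk E adj X) (pos : Bool → Pn) (bl : Pn)
    (h1 : ∀ g r, I (pos g) r → L.PosI g r) (h2 : ∀ r, I bl r → 2 * (E.n * E.n) ≤ L.bv 1 r)
    (o : Option Bool) (r) (h : (L.inAt adj pos bl o).sem E I r) :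
    (inputBits (X false) (X true))[L.bv 1 r]? = o := by
  rcases o with _ | b
  · exact List.getElem?_eq_none (by rw [length_inputBits]; exact h2 r h)
  · simp only [SLay.inAt, Fm.sem_any] at h
    obtain ⟨g, h⟩ := h
    obtain ⟨r1, a1, -, h⟩ := L.elim 7 (by decide) h
    obtain ⟨r2, b1, -, h, h'⟩ := L.elim 8 (by decide) h
    obtain ⟨c1, c2, c3⟩ := h1 g _ h
    rw [QF.sem_toFm, hadj g r2 ⟨_, c1⟩ ⟨_, c2⟩ rfl rfl] at h'
    rw [← a1 1 (by decide) (by decide), ← b1 1 (by decide) (by decide), c3]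
    have := inputBits_get X g ⟨_, c1⟩ ⟨_, c2⟩
    rw [off, this]
    cases b <;> simpa using h'

theorem SLay.inAt_complete {adj : Bool → QF κ} {X : Bool → SimpleGraph (Fin E.n)}
    (hadj : L.AdjOk E adj X) (pos : Bool → Pn) (bl : Pn) (hn7 : E.n < E.s ^ 7)
    (h1 : ∀ g r, L.PosI g r → I (pos g) r) (h2 : ∀ r, 2 * (E.n * E.n) ≤ L.bv 1 r → I bl r) (r) :
    (L.inAt adj pos bl (inputBits (X false) (X true))[L.bv 1 r]?).sem E I r := by
  by_cases hp : L.bv 1 r < 2 * (E.n * E.n)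
  · obtain ⟨g, u, v, h⟩ := exists_pos hp
    rw [h, inputBits_get X g u v]
    simp only [SLay.inAt, Fm.sem_any]
    refine ⟨g, L.introS 7 (by decide) u (by omega) trivial fun r1 a1 a2 =>
      L.introS 8 (by decide) v (by omega) trivial fun r2 b1 b2 => ?_⟩
    have e7 : L.bv 7 r2 = u := by rw [b1 7 (by decide) (by decide), a2]
    have e1 : L.bv 1 r2 = L.bv 1 r := by
      rw [b1 1 (by decide) (by decide), a1 1 (by decide) (by decide)]
    refine ⟨h1 g r2 ⟨by omega, by omega, by rw [e1, e7, b2, h, off]⟩, ?_⟩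
    rw [QF.sem_toFm, hadj g r2 u v e7 b2]
    simp
  · rw [List.getElem?_eq_none (by rw [length_inputBits]; omega)]
    exact h2 r (by omega)

end Vale.Agent.P310
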