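import Vale.Agent.P310.Grid

namespace Vale.Agent.P310

open Function

/-- tables describing the vertex types of the generic graph -/
structure Desc where
  isMain : ℕ → Prop
  isRuler : Fin 7 → ℕ → Prop
  isSpec : Bool → ℕ → Prop
  color : ℕ → ℕ → Prop
  conflict : Fin 4 → Fin 4 → ℕ → ℕ → Prop
  link : Fin 4 → Fin 4 → Fin 5 → Fin 5 → ℕ → ℕ → Prop
  aliveT : Bool → ℕ → Prop
  isEq : Fin 3 → ℕ → Prop
  isBin : ℕ → Prop
  isStar : Bool → ℕ → Prop

structure Env where
  d : Desc
  s : ℕ
  n : ℕ
  st : ℕ → ℕ → ℕ → Prop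

/-- the part of the environment visible to binary tests -/
structure Env0 where
  d : Desc
  s : ℕ
  n : ℕ

def Env.e0 (E : Env) : Env0 := ⟨E.d, E.s, E.n⟩

abbrev Sym := Env0 → ℕ → ℕ → Prop

inductive Fm (κ : ℕ) (Pn : Type) : Type
  | eqA (t : Fin 3) (j : Fin κ)
  | bin (ρ : Sym)
  | star (b : Bool)
  | and (φ ψ : Fm κ Pn)
  | or (φ ψ : Fm κ Pn)
  | ex (y : Reg κ) (φ : Fm κ Pn)
  | call (p : Pn)

variable {κ : ℕ} {Pn : Type}

def Fm.sem (E : Env) (I : Pn → St κ (Fin E.s) → Prop) : Fm κ Pn → St κ (Fin E.s) → Prop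
  | .eqA t j, r => r (.inl t) = r (.inr j)
  | .bin ρ, r => ρ E.e0 (r (.inl 1)) (r (.inl 2))
  | .star b, r => E.st (r (.inl 0)) (r (.inl 1)) (r (.inl 2)) ↔ b = true
  | .and φ ψ, r => φ.sem E I r ∧ ψ.sem E I r
  | .or φ ψ, r => φ.sem E I r ∨ ψ.sem E I r
  | .ex y φ, r => ∃ v, φ.sem E I (update r y v)
  | .call p, r => I p r

inductive DerF (E : Env) (body : Pn → Fm κ Pn) : Fm κ Pn → St κ (Fin E.s) → Prop
  | eqA {t j r} : r (.inl t) = r (.inr j) → DerF E body (.eqA t j) r
  | bin {ρ r} : ρ E.e0 (r (.inl 1)) (r (.inl 2)) → DerF E body (.bin ρ) r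
  | star {b r} : (E.st (r (.inl 0)) (r (.inl 1)) (r (.inl 2)) ↔ b = true) →
      DerF E body (.star b) r
  | and {φ ψ r} : DerF E body φ r → DerF E body ψ r → DerF E body (.and φ ψ) r
  | orl {φ ψ r} : DerF E body φ r → DerF E body (.or φ ψ) r
  | orr {φ ψ r} : DerF E body ψ r → DerF E body (.or φ ψ) r
  | ex {y φ r v} : DerF E body φ (update r y v) → DerF E body (.ex y φ) r
  | call {p r} : DerF E body (body p) r → DerF E body (.call p) r

variable {E : Env} {body : Pn → Fm κ Pn}

theorem DerF.sound {I : Pn → St κ (Fin E.s) → Prop} (hI : ∀ p r, (body p).sem E I r → I p r)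
    {φ r} (h : DerF E body φ r) : φ.sem E I r := by
  induction h with
  | eqA h => exact h
  | bin h => exact h
  | star h => exact h
  | and _ _ h1 h2 => exact ⟨h1, h2⟩
  | orl _ h => exact Or.inl h
  | orr _ h => exact Or.inr h
  | ex _ h => exact ⟨_, h⟩
  | call _ h => exact hI _ _ h

theorem DerF.of_sem {φ : Fm κ Pn} : ∀ {r}, φ.sem E (fun p r => DerF E body (.call p) r) r →
    DerF E body φ r := by
  induction φ with
  | eqA t j => exact fun h => .eqA h
  | bin ρ => exact fun h => .bin h
  | star b => exact fun h => .star h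
  | and φ ψ ih1 ih2 => exact fun h => .and (ih1 h.1) (ih2 h.2)
  | or φ ψ ih1 ih2 => exact fun h => h.elim (fun h => .orl (ih1 h)) (fun h => .orr (ih2 h))
  | ex y φ ih => exact fun ⟨_, h⟩ => .ex (ih h)
  | call p => exact id

theorem DerF.call_of_sem {p : Pn} {r}
    (h : (body p).sem E (fun p r => DerF E body (.call p) r) r) : DerF E body (.call p) r :=
  .call (.of_sem h)

/-! ### compilation to a program -/

def Fm.subs : Fm κ Pn → List (Fm κ Pn)
  | .and φ ψ => .and φ ψ :: (φ.subs ++ ψ.subs)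
  | .or φ ψ => .or φ ψ :: (φ.subs ++ ψ.subs)
  | .ex y φ => .ex y φ :: φ.subs
  | φ => [φ]

def childF (body : Pn → Fm κ Pn) : Fm κ Pn → Bool → Fm κ Pn
  | .and φ ψ, σ => if σ then ψ else φ
  | .or φ ψ, σ => if σ then ψ else φ
  | .ex _ φ, _ => φ
  | .call p, _ => body p
  | φ, _ => φ

theorem Fm.self_mem_subs (φ : Fm κ Pn) : φ ∈ φ.subs := by
  cases φ <;> simp [Fm.subs]

def IsNode (body : Pn → Fm κ Pn) (φ : Fm κ Pn) : Prop :=
  ∃ p, φ = .call p ∨ φ ∈ (body p).subs

theorem childF_mem (body : Pn → Fm κ Pn) (ψ : Fm κ Pn) : ∀ φ ∈ ψ.subs, ∀ σ,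
    childF body φ σ ∈ ψ.subs ∨ ∃ p, childF body φ σ = body p := by
  induction ψ with
  | and a b ih1 ih2 =>
    intro φ h σ
    simp only [Fm.subs, List.mem_cons, List.mem_append] at h ⊢
    rcases h with rfl | h | h
    · cases σ <;> simp [childF, Fm.self_mem_subs]
    · exact (ih1 φ h σ).imp (fun h => Or.inr (Or.inl h)) id
    · exact (ih2 φ h σ).imp (fun h => Or.inr (Or.inr h)) id
  | or a b ih1 ih2 =>
    intro φ h σ
    simp only [Fm.subs, List.mem_cons, List.mem_append] at h ⊢
    rcases h with rfl | h | h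
    · cases σ <;> simp [childF, Fm.self_mem_subs]
    · exact (ih1 φ h σ).imp (fun h => Or.inr (Or.inl h)) id
    · exact (ih2 φ h σ).imp (fun h => Or.inr (Or.inr h)) id
  | ex y a ih =>
    intro φ h σ
    simp only [Fm.subs, List.mem_cons] at h ⊢
    rcases h with rfl | h
    · simp [childF, Fm.self_mem_subs]
    · exact (ih φ h σ).imp Or.inr id
  | call p =>
    intro φ h σ
    simp only [Fm.subs, List.mem_singleton] at h
    subst h
    exact Or.inr ⟨p, rfl⟩
  | eqA t j => intro φ h σ; simp only [Fm.subs, List.mem_singleton] at h ⊢; simp [h, childF]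
  | bin ρ => intro φ h σ; simp only [Fm.subs, List.mem_singleton] at h ⊢; simp [h, childF]
  | star b => intro φ h σ; simp only [Fm.subs, List.mem_singleton] at h ⊢; simp [h, childF]

theorem IsNode.child {φ : Fm κ Pn} (h : IsNode body φ) (σ : Bool) :
    IsNode body (childF body φ σ) := by
  obtain ⟨p, rfl | h⟩ := h
  · exact ⟨p, Or.inr (Fm.self_mem_subs _)⟩
  · rcases childF_mem body _ φ h σ with h | ⟨p', h⟩
    · exact ⟨p, Or.inr h⟩
    · exact ⟨p', Or.inr (h ▸ Fm.self_mem_subs _)⟩

abbrev Nd (body : Pn → Fm κ Pn) := Option {φ // IsNode body φ}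

instance [Finite Pn] : Finite {φ // IsNode body φ} := by
  have : {φ | IsNode body φ} = ⋃ p, insert (.call p) {φ | φ ∈ (body p).subs} := by
    ext φ; simp [IsNode]
  have h : {φ | IsNode body φ}.Finite := by
    rw [this]
    exact Set.finite_iUnion fun p => (List.finite_toSet _).insert _
  exact h

def ndChild (body : Pn → Fm κ Pn) (main : Pn) : Nd body → Bool → Nd body
  | none, _ => some ⟨.call main, main, Or.inl rfl⟩
  | some x, σ => some ⟨childF body x.1 σ, x.2.child σ⟩

def kindF (E : Env) : Fm κ Pn → Kind κ (Fin E.s)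
  | .eqA t j => .leaf fun i r => i = j.castSucc → r (.inl t) = r (.inr j)
  | .bin ρ => .leaf fun _ r => ρ E.e0 (r (.inl 1)) (r (.inl 2))
  | .star b => .leaf fun _ r => E.st (r (.inl 0)) (r (.inl 1)) (r (.inl 2)) ↔ b = true
  | .and _ _ => .and
  | .or _ _ => .orx none
  | .ex y _ => .orx (some y)
  | .call _ => .orx none

def ndKind (E : Env) (body : Pn → Fm κ Pn) : Nd body → Kind κ (Fin E.s)
  | none => .root
  | some x => kindF E x.1

def progOf (E : Env) (body : Pn → Fm κ Pn) (main : Pn) : Prog (Nd body) κ (Fin E.s) where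
  kind := ndKind E body
  child := ndChild body main
  test_local := by
    rintro (_ | ⟨φ, hφ⟩) test h i r r' hr
    · cases h
    · cases φ <;> simp only [ndKind, kindF, Kind.leaf.injEq, reduceCtorEq] at h <;> subst h
      · refine imp_congr_right fun hi => ?_
        rw [hr (.inl _) trivial, hr (.inr _) (Or.inl (by simp [hi]))]
      · simp only [hr (.inl _) trivial]
      · simp only [hr (.inl _) trivial]

theorem der_of_derF (main : Pn) {φ r} (h : DerF E body φ r) (hφ : IsNode body φ) :
    (progOf E body main).Der (some ⟨φ, hφ⟩) r := by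
  induction h with
  | eqA h => exact .leaf rfl fun _ _ => h
  | bin h => exact .leaf rfl fun _ => h
  | star h => exact .leaf rfl fun _ => h
  | and _ _ h1 h2 => exact .and rfl (h1 (hφ.child false)) (h2 (hφ.child true))
  | orl _ h => exact .orx (σ := false) rfl (fun _ _ => rfl) (h (hφ.child false))
  | orr _ h => exact .orx (σ := true) rfl (fun _ _ => rfl) (h (hφ.child true))
  | @ex y φ r v _ h =>
    refine .orx (σ := false) (r' := update r y v) rfl (fun y' hy => ?_) (h (hφ.child false))
    rw [update_of_ne (fun e => hy (by rw [e]))]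
  | call _ h => exact .orx (σ := false) rfl (fun _ _ => rfl) (h (hφ.child false))

theorem derF_of_der (main : Pn) {q r} (h : (progOf E body main).Der q r) :
    ∃ x, q = some x ∧ DerF E body x.1 r := by
  induction h with
  | @leaf q test r hk ht =>
    rcases q with _ | ⟨φ, hφ⟩
    · cases hk
    · refine ⟨_, rfl, ?_⟩
      cases φ <;> simp only [progOf, ndKind, kindF, Kind.leaf.injEq, reduceCtorEq] at hk <;>
        subst hk
      · exact .eqA (ht _ rfl)
      · exact .bin (ht 0)
      · exact .star (ht 0)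
  | @and q r hk _ _ h1 h2 =>
    rcases q with _ | ⟨φ, hφ⟩
    · cases hk
    · refine ⟨_, rfl, ?_⟩
      obtain ⟨_, ⟨⟩, h1⟩ := h1
      obtain ⟨_, ⟨⟩, h2⟩ := h2
      cases φ <;> simp only [progOf, ndKind, kindF, reduceCtorEq] at hk
      exact .and h1 h2
  | @orx q x r r' σ hk hr _ h =>
    rcases q with _ | ⟨φ, hφ⟩
    · cases hk
    · refine ⟨_, rfl, ?_⟩
      obtain ⟨_, ⟨⟩, h⟩ := h
      cases φ <;> simp only [progOf, ndKind, kindF, reduceCtorEq, Kind.orx.injEq] at hk <;>
        subst hk
      · obtain rfl : r = r' := funext fun y => hr y (by simp)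
        cases σ
        · exact .orl h
        · exact .orr h
      · rename_i y φ _
        have : r' = update r y (r' y) := by
          funext y'
          by_cases hy : y' = y
          · subst hy; simp
          · rw [update_of_ne hy, hr y' (by simpa using hy)]
        rw [this] at h
        exact .ex h
      · obtain rfl : r = r' := funext fun y => hr y (by simp)
        exact .call h

end Vale.Agent.P310
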