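import Vale.Agent.P310.Comb

namespace Vale.Agent.P310

open Function

variable {κ : ℕ} {Pn : Type}

/-- a family of disjoint blocks, each with a scratch block of the same length -/
structure Lay (κ : ℕ) (B : Type) where
  blk : B → List (Fin κ)
  sc : B → B
  nodup : ∀ a, (blk a).Nodup
  disj : ∀ a b, a ≠ b → (blk a).Disjoint (blk b)
  len : ∀ a, (blk a).length = (blk (sc a)).length

variable {B : Type} (L : Lay κ B) {E : Env} {I : Pn → St κ (Fin E.s) → Prop}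

def Lay.bv (a : B) (r : St κ (Fin E.s)) : ℕ := bval E.s (dig r) (L.blk a)

theorem Lay.bv_lt (a : B) (r : St κ (Fin E.s)) : L.bv a r < E.s ^ (L.blk a).length :=
  bval_lt (dig_lt r) _

structure RelQ (L : Lay κ B) (a : B) where
  q : QF κ
  R : Env0 → ℕ → ℕ → Prop
  ok : ∀ (E : Env) (r : St κ (Fin E.s)), q.sem E (dig r) ↔ R E.e0 (L.bv (L.sc a) r) (L.bv a r)

def Lay.cg (a : B) (R : RelQ L a) (φ : Fm κ Pn) : Fm κ Pn :=
  chg (L.blk a) (L.blk (L.sc a)) R.q φ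

def Lay.Keep (a : B) (r r' : St κ (Fin E.s)) : Prop :=
  ∀ b, b ≠ a → b ≠ L.sc a → L.bv b r' = L.bv b r

theorem Lay.keep_of {a : B} {r r' : St κ (Fin E.s)}
    (h : ∀ j, j ∉ L.blk a → j ∉ L.blk (L.sc a) → dig r' j = dig r j) : L.Keep a r r' :=
  fun b h1 h2 => bval_congr fun j hj => h j (fun h' => L.disj b a h1 hj h')
    (fun h' => L.disj b _ h2 hj h')

theorem Lay.cg_elim {a : B} (ha : a ≠ L.sc a) {R : RelQ L a} {φ : Fm κ Pn} {r}
    (h : (L.cg a R φ).sem E I r) :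
    ∃ r', L.Keep a r r' ∧ R.R E.e0 (L.bv a r') (L.bv a r) ∧ φ.sem E I r' := by
  obtain ⟨r', h1, h2, h3⟩ := chg_elim (L.len a) (L.disj _ _ ha) (R.ok E) h
  exact ⟨r', L.keep_of h1, h2, h3⟩

theorem Lay.cg_intro {a : B} (ha : a ≠ L.sc a) {R : RelQ L a} {φ : Fm κ Pn} {r} (x : ℕ)
    (hx : x < E.s ^ (L.blk a).length) (h1 : R.R E.e0 x (L.bv a r))
    (h2 : ∀ r', L.Keep a r r' → L.bv a r' = x → φ.sem E I r') : (L.cg a R φ).sem E I r :=
  chg_intro (L.len a) (L.disj _ _ ha) (L.nodup _) (L.nodup _) (R.ok E) x hx h1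
    fun r' h3 h4 => h2 r' (L.keep_of h3) h4

def Lay.rAny (a : B) : RelQ L a := ⟨.cst fun _ => True, fun _ _ _ => True, fun _ _ => Iff.rfl⟩

def Lay.rDec (a : B) : RelQ L a :=
  ⟨.succL (L.blk (L.sc a)) (L.blk a), fun _ x y => x + 1 = y, fun _ r =>
    QF.sem_succL (dig_lt r) _ _ (L.len a).symm⟩

def Lay.rInc (a : B) : RelQ L a :=
  ⟨.succL (L.blk a) (L.blk (L.sc a)), fun _ x y => y + 1 = x, fun _ r =>
    QF.sem_succL (dig_lt r) _ _ (L.len a)⟩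

def Lay.rEq (a : B) : RelQ L a :=
  ⟨.eqL (L.blk (L.sc a)) (L.blk a), fun _ x y => x = y, fun _ r =>
    QF.sem_eqL (dig_lt r) _ _ (L.len a).symm⟩

def Lay.rNew (a : B) (f : Env0 → ℕ) : RelQ L a :=
  ⟨.cstL (L.blk (L.sc a)) f, fun E x _ => x = f E, fun _ r => QF.sem_cstL (dig_lt r) _ _⟩

def Lay.rOld (a : B) (f : Env0 → ℕ) : RelQ L a :=
  ⟨.cstL (L.blk a) f, fun E _ y => y = f E, fun _ r => QF.sem_cstL (dig_lt r) _ _⟩

variable {L}

def RelQ.not {a : B} (R : RelQ L a) : RelQ L a :=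
  ⟨.not R.q, fun E x y => ¬ R.R E x y, fun E r => not_congr (R.ok E r)⟩

def RelQ.and {a : B} (R R' : RelQ L a) : RelQ L a :=
  ⟨.and R.q R'.q, fun E x y => R.R E x y ∧ R'.R E x y,
    fun E r => and_congr (R.ok E r) (R'.ok E r)⟩

def RelQ.or {a : B} (R R' : RelQ L a) : RelQ L a :=
  ⟨.or R.q R'.q, fun E x y => R.R E x y ∨ R'.R E x y,
    fun E r => or_congr (R.ok E r) (R'.ok E r)⟩

variable (L)

/-- test that block `a` holds a constant -/
def Lay.is (a : B) (f : Env0 → ℕ) : Fm κ Pn := (QF.cstL (L.blk a) f).fm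

@[simp] theorem Lay.sem_is (a : B) (f : Env0 → ℕ) (r : St κ (Fin E.s)) :
    (L.is a f : Fm κ Pn).sem E I r ↔ L.bv a r = f E.e0 := by
  rw [Lay.is, QF.sem_fm, QF.sem_cstL (dig_lt r)]; rfl

end Vale.Agent.P310
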