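import Vale.Agent.P310.Defs

namespace Vale.Agent.P310

/-- A deterministic multitape Turing machine with `tapes + 1` one-way infinite read/write tapes,
an arbitrary finite state set and an arbitrary finite alphabet.  Tape `0` holds the input.
A state `q` with `answer q = some b` is a halting state with output `b`. -/
structure TM where
  Q : Type
  Γ : Type
  finQ : Finite Q
  finΓ : Finite Γ
  tapes : ℕ
  blank : Γ
  bit : Bool → Γ
  start : Q
  answer : Q → Option Bool
  δ : Q → (Fin (tapes + 1) → Γ) → Q × (Fin (tapes + 1) → Γ × SignType)

/-- A configuration: state, head positions and tape contents. -/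
structure TM.Cfg (M : TM) where
  state : M.Q
  head : Fin (M.tapes + 1) → ℕ
  tape : Fin (M.tapes + 1) → ℕ → M.Γ

/-- Head movement: left (staying put at the left end), stay, right. -/
def move (p : ℕ) : SignType → ℕ
  | SignType.neg => p - 1
  | SignType.zero => p
  | SignType.pos => p + 1

/-- One step; a halted machine does not move. -/
def TM.step (M : TM) (c : M.Cfg) : M.Cfg :=
  if (M.answer c.state).isSome then c else
    let o := M.δ c.state fun j => c.tape j (c.head j)
    { state := o.1
      head := fun j => move (c.head j) (o.2 j).2
      tape := fun j => Function.update (c.tape j) (c.head j) (o.2 j).1 }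

/-- Initial configuration on the input word `w`. -/
def TM.initial (M : TM) (w : List Bool) : M.Cfg where
  state := M.start
  head := fun _ => 0
  tape := fun j p => if j = 0 then (w[p]?.map M.bit).getD M.blank else M.blank

/-- The output (if already halted) after `t` steps on input `w`. -/
def TM.out (M : TM) (w : List Bool) (t : ℕ) : Option Bool :=
  M.answer (M.step^[t] (M.initial w)).state

/-- `M` decides `k`-WL equivalence of pairs of graphs with the same number of vertices. -/
def TM.DecidesWL (M : TM) (k : ℕ) : Prop :=
  ∀ (n : ℕ) (G H : SimpleGraph (Fin n)), ∃ (t : ℕ) (b : Bool),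
    M.out (inputBits G H) t = some b ∧ (b = true ↔ WLEquiv k G H)

/-- Number of steps until `M` halts on `w`. -/
noncomputable def TM.time (M : TM) (w : List Bool) : ℕ :=
  sInf {t | (M.out w t).isSome}

/-- Worst-case running time `T_M(n)` over pairs of graphs on `n` vertices each. -/
noncomputable def TM.worst (M : TM) (n : ℕ) : ℕ :=
  ⨆ p : SimpleGraph (Fin n) × SimpleGraph (Fin n), M.time (inputBits p.1 p.2)

end Vale.Agent.P310
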