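import Vale.Agent.P310.InProg
import Vale.Agent.P310.Machine

namespace Vale.Agent.P310

open Function

def TM.nxt (A : TM) (q : A.Q) (a : Fin (A.tapes + 1) → A.Γ) :
    A.Q × (Fin (A.tapes + 1) → A.Γ × SignType) :=
  if (A.answer q).isSome then (q, fun j => (a j, 0)) else A.δ q a

def TM.Cfg.rd {A : TM} (c : A.Cfg) : Fin (A.tapes + 1) → A.Γ := fun j => c.tape j (c.head j)

theorem TM.step_state (A : TM) (c : A.Cfg) : (A.step c).state = (A.nxt c.state c.rd).1 := by
  unfold TM.step TM.nxt; split_ifs <;> rfl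

theorem TM.step_head (A : TM) (c : A.Cfg) (j) :
    (A.step c).head j = move (c.head j) ((A.nxt c.state c.rd).2 j).2 := by
  unfold TM.step TM.nxt; split_ifs <;> rfl

theorem TM.step_tape (A : TM) (c : A.Cfg) (j) :
    (A.step c).tape j = update (c.tape j) (c.head j) ((A.nxt c.state c.rd).2 j).1 := by
  unfold TM.step TM.nxt
  split_ifs
  · simp [TM.Cfg.rd]
  · rfl

theorem move_le (p : ℕ) (d : SignType) : move p d ≤ p + 1 := by
  cases d <;> simp only [move] <;> omega

theorem le_move (p : ℕ) (d : SignType) : p ≤ move p d + 1 := by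
  cases d <;> simp only [move] <;> omega

def TM.cfg (A : TM) (w : List Bool) (t : ℕ) : A.Cfg := A.step^[t] (A.initial w)

theorem TM.cfg_succ (A : TM) (w : List Bool) (t : ℕ) : A.cfg w (t + 1) = A.step (A.cfg w t) :=
  iterate_succ_apply' _ _ _

theorem TM.head_le (A : TM) (w : List Bool) (j) : ∀ t, (A.cfg w t).head j ≤ t
  | 0 => le_rfl
  | t + 1 => by
    rw [TM.cfg_succ, TM.step_head]
    exact (move_le _ _).trans (Nat.succ_le_succ (TM.head_le A w j t))

inductive TM.Pn (A : TM) : Type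
  | st (q : A.Q)
  | hd (j : Fin (A.tapes + 1))
  | ce (j : Fin (A.tapes + 1)) (a : A.Γ)
  | pos (g : Bool)
  | blank
  | main

instance (A : TM) : Finite A.Q := A.finQ
instance (A : TM) : Finite A.Γ := A.finΓ

instance (A : TM) : Finite A.Pn := by
  refine Finite.of_surjective
    (α := A.Q ⊕ Fin (A.tapes + 1) ⊕ (Fin (A.tapes + 1) × A.Γ) ⊕ Bool ⊕ Bool)
    (Sum.elim .st (Sum.elim .hd (Sum.elim (fun x => .ce x.1 x.2)
      (Sum.elim .pos (fun b => if b then .blank else .main))))) ?_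
  rintro (q | j | ⟨j, a⟩ | g | _ | _)
  · exact ⟨.inl q, rfl⟩
  · exact ⟨.inr (.inl j), rfl⟩
  · exact ⟨.inr (.inr (.inl (j, a))), rfl⟩
  · exact ⟨.inr (.inr (.inr (.inl g))), rfl⟩
  · exact ⟨.inr (.inr (.inr (.inr true))), rfl⟩
  · exact ⟨.inr (.inr (.inr (.inr false))), rfl⟩

variable {κ M : ℕ} (L : SLay κ M) (A : TM)

def SLay.rMove : SignType → RelQ L.toLay 1
  | .neg => (L.rInc 1).or ((L.rNew 1 fun _ => 0).and (L.rOld 1 fun _ => 0))
  | .zero => L.rEq 1
  | .pos => L.rDec 1

theorem SLay.rMove_R (d : SignType) (E x y) : (L.rMove d).R E x y ↔ y = move x d := by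
  cases d <;>
    simp only [SLay.rMove, RelQ.or, RelQ.and, Lay.rInc, Lay.rNew, Lay.rOld, Lay.rEq, Lay.rDec,
      move] <;> omega

noncomputable def SLay.cf (q : A.Q) (a : Fin (A.tapes + 1) → A.Γ) : Fm κ A.Pn :=
  .and (.call (.st q)) (Fm.all fun j => L.cg 1 (L.rAny 1)
    (.and (.call (.hd j)) (.call (.ce j (a j)))))

noncomputable def SLay.tmBody (adj : Bool → QF κ) : A.Pn → Fm κ A.Pn
  | .st q' => .or (.and (L.is 0 fun _ => 0) (.bin fun _ _ _ => q' = A.start))
      (L.cg 0 (L.rDec 0) (Fm.any fun q => Fm.any fun a =>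
        .guard ((A.nxt q a).1 = q') (L.cf A q a)))
  | .hd j => .or (.and (L.is 0 fun _ => 0) (L.is 1 fun _ => 0))
      (L.cg 0 (L.rDec 0) (Fm.any fun q => Fm.any fun a =>
        .and (L.cf A q a) (L.cg 1 (L.rMove ((A.nxt q a).2 j).2) (.call (.hd j)))))
  | .ce j b => .or (.and (L.is 0 fun _ => 0) (.or (.bin fun _ _ _ => j ≠ 0 ∧ b = A.blank)
        (Fm.any fun o : Option Bool => .guard (j = 0 ∧ (o.map A.bit).getD A.blank = b)
          (L.inAt adj .pos .blank o))))
      (L.cg 0 (L.rDec 0) (.or (.and (L.cg 1 (L.rEq 1).not (.call (.hd j))) (.call (.ce j b)))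
        (.and (.call (.hd j)) (Fm.any fun q => Fm.any fun a =>
          .guard (((A.nxt q a).2 j).1 = b) (L.cf A q a)))))
  | .pos g => L.posBody (.pos g) g
  | .blank => L.blankBody .blank
  | .main => L.cg 0 (L.rAny 0) (Fm.any fun q => .guard (A.answer q = some true) (.call (.st q)))

variable {E : Env}

def SLay.tmI (w : List Bool) : A.Pn → St κ (Fin E.s) → Prop
  | .st q, r => (A.cfg w (L.bv 0 r)).state = q
  | .hd j, r => (A.cfg w (L.bv 0 r)).head j = L.bv 1 r
  | .ce j a, r => (A.cfg w (L.bv 0 r)).tape j (L.bv 1 r) = a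
  | .pos g, r => L.PosI g r
  | .blank, r => 2 * (E.n * E.n) ≤ L.bv 1 r
  | .main, _ => ∃ t < E.s ^ M, A.out w t = some true

theorem SLay.cf_sound (w : List Bool) {q a} {r : St κ (Fin E.s)}
    (h : (L.cf A q a).sem E (L.tmI A w) r) :
    (A.cfg w (L.bv 0 r)).state = q ∧ (A.cfg w (L.bv 0 r)).rd = a := by
  simp only [SLay.cf, Fm.sem_and, Fm.sem_all] at h
  refine ⟨h.1, funext fun j => ?_⟩
  obtain ⟨r1, a1, -, h1, h2⟩ := L.elim 1 (by decide) (h.2 j)
  simp only [Fm.sem_call, SLay.tmI] at h1 h2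
  rw [a1 0 (by decide) (by decide)] at h1 h2
  rw [TM.Cfg.rd, h1, h2]

theorem SLay.tm_sound {adj : Bool → QF κ} {X : Bool → SimpleGraph (Fin E.n)}
    (hadj : L.AdjOk E adj X) (p : A.Pn) (r : St κ (Fin E.s))
    (h : (L.tmBody A adj p).sem E (L.tmI A (inputBits (X false) (X true))) r) :
    L.tmI A (inputBits (X false) (X true)) p r := by
  set w := inputBits (X false) (X true) with hw
  rcases p with q' | j | ⟨j, b⟩ | g | _ | _
  · simp only [SLay.tmBody, Fm.sem_or, Fm.sem_and, Lay.sem_is] at h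
    rcases h with ⟨h1, h2⟩ | h
    · simp only [SLay.tmI, h1]; exact h2.symm
    · obtain ⟨r1, a1, a2, h⟩ := L.elim 0 (by decide) h
      simp only [Fm.sem_any, Fm.sem_guard] at h
      obtain ⟨q, a, h1, h2⟩ := h
      obtain ⟨rfl, rfl⟩ := L.cf_sound A w h2
      simp only [Lay.rDec] at a2
      simp only [SLay.tmI, ← a2, TM.cfg_succ, TM.step_state, h1]
  · simp only [SLay.tmBody, Fm.sem_or, Fm.sem_and, Lay.sem_is] at h
    rcases h with ⟨h1, h2⟩ | h
    · simp only [SLay.tmI, h1, h2]; rfl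
    · obtain ⟨r1, a1, a2, h⟩ := L.elim 0 (by decide) h
      simp only [Fm.sem_any, Fm.sem_and] at h
      obtain ⟨q, a, h2, h1⟩ := h
      obtain ⟨rfl, rfl⟩ := L.cf_sound A w h2
      obtain ⟨r2, b1, b2, h⟩ := L.elim 1 (by decide) h1
      simp only [Lay.rDec] at a2
      simp only [Fm.sem_call, SLay.tmI, SLay.rMove_R] at h b2
      rw [b1 0 (by decide) (by decide)] at h
      simp only [SLay.tmI, ← a2, TM.cfg_succ, TM.step_head, h, ← b2]
      exact a1 1 (by decide) (by decide)
  · simp only [SLay.tmBody, Fm.sem_or, Fm.sem_and, Lay.sem_is] at h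
    rcases h with ⟨h1, h2 | h2⟩ | h
    · obtain ⟨h2, rfl⟩ : j ≠ 0 ∧ b = A.blank := h2
      simp [SLay.tmI, h1, TM.cfg, TM.initial, h2]
    · simp only [Fm.sem_any, Fm.sem_guard] at h2
      obtain ⟨o, ⟨rfl, rfl⟩, h2⟩ := h2
      have := L.inAt_sound (I := L.tmI A w) hadj .pos .blank (fun g r h => h) (fun r h => h) o r h2
      simp [SLay.tmI, h1, TM.cfg, TM.initial, hw, this]
    · obtain ⟨r1, a1, a2, h⟩ := L.elim 0 (by decide) h
      simp only [Lay.rDec] at a2
      simp only [SLay.tmI, ← a2, TM.cfg_succ, TM.step_tape, ← a1 1 (by decide) (by decide)]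
      rcases h with ⟨h1, h2⟩ | ⟨h1, h2⟩
      · obtain ⟨r2, b1, b2, h⟩ := L.elim 1 (by decide) h1
        simp only [Fm.sem_call, SLay.tmI, RelQ.not, Lay.rEq] at h b2 h2
        rw [b1 0 (by decide) (by decide)] at h
        rw [update_of_ne (by rw [h]; exact fun e => b2 e.symm), h2]
      · simp only [Fm.sem_any, Fm.sem_guard] at h2
        obtain ⟨q, a, h3, h2⟩ := h2
        obtain ⟨rfl, rfl⟩ := L.cf_sound A w h2
        simp only [Fm.sem_call, SLay.tmI] at h1
        rw [← h1, update_self, h3]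
  · exact L.pos_sound (I := L.tmI A w) (.pos g) g (fun r h => h) r h
  · exact L.blank_sound (I := L.tmI A w) .blank (fun r h => h) r h
  · obtain ⟨r1, a1, -, h⟩ := L.elim 0 (by decide) h
    simp only [Fm.sem_any, Fm.sem_guard] at h
    obtain ⟨q, h1, h2⟩ := h
    simp only [Fm.sem_call, SLay.tmI] at h2
    exact ⟨_, L.bv_big 0 (by decide) r1, by rw [← h1, ← h2]; rfl⟩

theorem SLay.tm_complete {adj : Bool → QF κ} {X : Bool → SimpleGraph (Fin E.n)}
    (hadj : L.AdjOk E adj X) (hn7 : E.n < E.s ^ 7) (t : ℕ) : ∀ r : St κ (Fin E.s), L.bv 0 r = t →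
      let c := A.cfg (inputBits (X false) (X true)) t
      DerF E (L.tmBody A adj) (.call (.st c.state)) r ∧
      (∀ j, L.bv 1 r = c.head j → DerF E (L.tmBody A adj) (.call (.hd j)) r) ∧
      ∀ j, DerF E (L.tmBody A adj) (.call (.ce j (c.tape j (L.bv 1 r)))) r := by
  set w := inputBits (X false) (X true) with hw
  induction t with
  | zero =>
    intro r hr
    refine ⟨.call_of_sem (Or.inl ⟨by simpa using hr, rfl⟩),
      fun j hj => .call_of_sem (Or.inl ⟨by simpa using hr, (L.sem_is _ _ _).2 hj⟩),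
      fun j => .call_of_sem (Or.inl ⟨by simpa using hr, ?_⟩)⟩
    by_cases hj : j = 0
    · refine Or.inr ?_
      simp only [Fm.sem_any, Fm.sem_guard]
      refine ⟨w[L.bv 1 r]?, ⟨hj, by simp [TM.cfg, TM.initial, hj]⟩, ?_⟩
      exact L.inAt_complete (I := fun p r => DerF E (L.tmBody A adj) (.call p) r) hadj .pos .blank
        hn7 (fun g r h => L.pos_complete (body := L.tmBody A adj) (.pos g) g rfl hn7 r h)
        (fun r h => L.blank_complete (body := L.tmBody A adj) .blank rfl r h) r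
    · exact Or.inl ⟨hj, by simp [TM.cfg, TM.initial, hj]⟩
  | succ t ih =>
    intro r hr
    have hlt := L.bv_big 0 (by decide) r
    have hh := fun j => A.head_le w j t
    have cf : ∀ r' : St κ (Fin E.s), L.bv 0 r' = t →
        (L.cf A (A.cfg w t).state (A.cfg w t).rd).sem E
        (fun p r => DerF E (L.tmBody A adj) (.call p) r) r' := by
      intro r' hr'
      simp only [SLay.cf, Fm.sem_and, Fm.sem_all]
      refine ⟨(ih r' hr').1, fun j => L.introB 1 (by decide) ((A.cfg w t).head j)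
        (by have := hh j; omega) trivial fun r2 b1 b2 => ?_⟩
      have := ih r2 (by rw [b1 0 (by decide) (by decide), hr'])
      refine ⟨this.2.1 j b2, ?_⟩
      have h3 := this.2.2 j
      rw [b2] at h3
      exact h3
    refine ⟨.call_of_sem (Or.inr ?_), fun j hj => .call_of_sem (Or.inr ?_),
      fun j => .call_of_sem (Or.inr ?_)⟩ <;>
      refine L.introB 0 (by decide) t (by omega) hr.symm fun r1 a1 a2 => ?_
    · simp only [Fm.sem_any, Fm.sem_guard]
      exact ⟨_, _, by rw [TM.cfg_succ, TM.step_state], cf r1 a2⟩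
    · simp only [Fm.sem_any, Fm.sem_and]
      refine ⟨_, _, cf r1 a2, L.introB 1 (by decide) ((A.cfg w t).head j)
        (by have := hh j; omega) ?_ fun r2 b1 b2 => ?_⟩
      · rw [SLay.rMove_R, a1 1 (by decide) (by decide), hj, TM.cfg_succ, TM.step_head]
      · exact (ih r2 (by rw [b1 0 (by decide) (by decide), a2])).2.1 j b2
    · rw [TM.cfg_succ, TM.step_tape, ← a1 1 (by decide) (by decide)]
      by_cases h : L.bv 1 r1 = (A.cfg w t).head j
      · refine Or.inr ⟨(ih r1 a2).2.1 j h, ?_⟩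
        simp only [Fm.sem_any, Fm.sem_guard]
        exact ⟨_, _, by rw [h, update_self], cf r1 a2⟩
      · rw [update_of_ne h]
        refine Or.inl ⟨L.introB 1 (by decide) ((A.cfg w t).head j)
          (by have := hh j; omega) (fun e => h e.symm) fun r2 b1 b2 => ?_, (ih r1 a2).2.2 j⟩
        exact (ih r2 (by rw [b1 0 (by decide) (by decide), a2])).2.1 j b2

theorem SLay.tm_main {adj : Bool → QF κ} {X : Bool → SimpleGraph (Fin E.n)}
    (hadj : L.AdjOk E adj X) (hn7 : E.n < E.s ^ 7) (r : St κ (Fin E.s)) :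
    DerF E (L.tmBody A adj) (.call .main) r ↔
      ∃ t < E.s ^ M, A.out (inputBits (X false) (X true)) t = some true := by
  constructor
  · exact fun h => h.sound (L.tm_sound A hadj)
  · rintro ⟨t, ht, h⟩
    refine .call_of_sem (L.introB 0 (by decide) t ht trivial fun r1 _ a2 => ?_)
    simp only [Fm.sem_any, Fm.sem_guard]
    exact ⟨_, h, (L.tm_complete A hadj hn7 t r1 a2).1⟩

end Vale.Agent.P310
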