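import Vale.Agent.P310.Diag
import Vale.Agent.P310.SimTM

namespace Vale.Agent.P310

open Function Filter Asymptotics

theorem TM.out_mono (A : TM) (w : List Bool) {t t' : ℕ} {b : Bool} (h : A.out w t = some b)
    (ht : t ≤ t') : A.out w t' = some b := by
  induction ht with
  | refl => exact h
  | step _ ih =>
    simp only [TM.out, iterate_succ_apply'] at ih ⊢
    rw [TM.step, if_pos (by simp [ih])]
    exact ih

theorem TM.out_unique (A : TM) (w : List Bool) {t t' : ℕ} {b b' : Bool} (h : A.out w t = some b)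
    (h' : A.out w t' = some b') : b = b' := by
  have h1 := A.out_mono w h (le_max_left t t')
  have h2 := A.out_mono w h' (le_max_right t t')
  rw [h1] at h2
  exact Option.some.inj h2

theorem tm_lower {k : ℕ} (hk : 100 ≤ k) (A : TM) (h : A.DecidesWL k) :
    ∀ᶠ n : ℕ in atTop, (n : ℝ) ^ ((1 / 100 : ℝ) * k) ≤ A.worst n := by
  obtain ⟨κ, rfl⟩ : ∃ κ, k = κ + 1 := ⟨k - 1, by omega⟩
  obtain ⟨L, u, v, hu, hv⟩ := exists_lay (κ := κ) ((κ + 1 - 22) / 7) (by omega)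
  obtain ⟨N, hN⟩ := diag (by omega) L u v hu hv (L.tmBody A (adjQ u v)) .main
  obtain ⟨n0, hn0⟩ := exists_root N
  refine eventually_atTop.2 ⟨n0, fun n hn => ?_⟩
  obtain ⟨s, h1, h2, h3, h4⟩ := hn0 n hn
  obtain ⟨E, X, rfl, rfl, hadj, hX⟩ := hN s n h1 h3
  refine rpow_le hk h2 h4 (le_trans ?_ (le_ciSup (f := fun p : SimpleGraph (Fin E.n) ×
    SimpleGraph (Fin E.n) => A.time (inputBits p.1 p.2)) (Set.finite_range _).bddAbove
      (X false, X true)))
  simp only [L.tm_main A hadj h4] at hX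
  obtain ⟨t, b, ht, hb⟩ := h _ (X false) (X true)
  by_contra hlt
  have hne : {t | (A.out (inputBits (X false) (X true)) t).isSome}.Nonempty := ⟨t, by simp [ht]⟩
  obtain ⟨b', hb'⟩ := Option.isSome_iff_exists.1 (Nat.sInf_mem hne)
  obtain rfl := A.out_unique _ ht hb'
  cases b
  · refine absurd (hb.2 (hX.2 ?_)) (by simp)
    rintro _ ⟨t', _, h'⟩
    exact absurd (A.out_unique _ ht h') (by simp)
  · exact hX.1 (hb.1 rfl) (fun _ => ⟨0, by omega⟩) ⟨_, not_le.1 hlt, hb'⟩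

theorem no_little_o {Mach : Type 1} (Dec : Mach → ℕ → Prop) (T : Mach → ℕ → ℕ) {c : ℝ}
    (hc : 0 < c) (k0 : ℕ)
    (h : ∀ k ≥ k0, ∀ A, Dec A k → ∀ᶠ n : ℕ in atTop, (n : ℝ) ^ (c * k) ≤ T A n) :
    ¬ ∃ g : ℕ → ℝ, (g =o[atTop] fun k : ℕ => (k : ℝ)) ∧ ∀ k ≥ 2, ∃ A, Dec A k ∧
      (fun n : ℕ => (T A n : ℝ)) =O[atTop] fun n : ℕ => (n : ℝ) ^ g k := by
  rintro ⟨g, hg, hA⟩
  have h1 := hg.def (half_pos hc)
  obtain ⟨k, hk1, hk2, hk3⟩ := (h1.and ((eventually_ge_atTop k0).and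
    (eventually_ge_atTop 2))).exists
  obtain ⟨A, hA1, hA2⟩ := hA k hk3
  have hkpos : (0 : ℝ) < k := by exact_mod_cast (by omega : 0 < k)
  have hlt : g k < c * k := by
    have : g k ≤ c / 2 * k := (le_abs_self _).trans (by simpa using hk1)
    nlinarith
  obtain ⟨C, hC⟩ := hA2.bound
  have h2 : Tendsto (fun n : ℕ => (n : ℝ) ^ (c * k - g k)) atTop atTop :=
    (tendsto_rpow_atTop (by linarith)).comp tendsto_natCast_atTop_atTop
  obtain ⟨n, a1, a2, a3, a4⟩ := ((h k hk2 A hA1).and (hC.and ((h2.eventually_gt_atTop C).and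
    (eventually_gt_atTop 0)))).exists
  have hn : (0 : ℝ) < n := by exact_mod_cast a4
  have hp : (0 : ℝ) < (n : ℝ) ^ g k := Real.rpow_pos_of_pos hn _
  rw [Real.norm_natCast, Real.norm_of_nonneg hp.le] at a2
  rw [Real.rpow_sub hn, lt_div_iff₀ hp] at a3
  linarith

end Vale.Agent.P310
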