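import Vale.Agent.P310.Gen
import Vale.Agent.P310.InProg
import Vale.Agent.P310.CfiDup
import Vale.Agent.P310.CfiSpo
import Vale.Agent.P310.GridSpo
import Vale.Agent.P310.GridDup3

namespace Vale.Agent.P310

open Function

variable {κ : ℕ} {Pn : Type}

def pos (i : Fin (κ + 1)) : Reg κ → Fin 5
  | .inl t => ⟨t.val, by omega⟩
  | .inr j => if i = j.castSucc then 4 else 3

def reg (i : Fin (κ + 1)) (k : Fin 5) : Reg κ :=
  if h : k.val < 3 then .inl ⟨k.val, h⟩
  else if k.val = 3 then (if h : 0 < i.val then .inr ⟨i.val - 1, by omega⟩ else .inl 0)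
  else (if h : i.val < κ then .inr ⟨i.val, h⟩ else .inl 0)

theorem reg_pos {i : Fin (κ + 1)} {y : Reg κ} (h : known i y) : reg i (pos i y) = y := by
  rcases y with t | j
  · simp [reg, pos]
  · have hj := j.2
    rcases h with h | h
    · have : i = j.castSucc := Fin.ext h
      subst this
      simp [reg, pos]
    · have : i ≠ j.castSucc := fun e => by rw [e] at h; simp at h
      simp [reg, pos, this, h]

def kind0 (body : Pn → Fm κ Pn) : Nd body → Kind κ Unit
  | none => .root
  | some ⟨.eqA _ _, _⟩ => .leaf fun _ _ => True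
  | some ⟨.bin _, _⟩ => .leaf fun _ _ => True
  | some ⟨.star _, _⟩ => .leaf fun _ _ => True
  | some ⟨.and _ _, _⟩ => .and
  | some ⟨.or _ _, _⟩ => .orx none
  | some ⟨.ex y _, _⟩ => .orx (some y)
  | some ⟨.call _, _⟩ => .orx none

def okT (body : Pn → Fm κ Pn) (g : Bool) (c : Col (Nd body) κ) (i : Fin (κ + 1)) (a : A) : Prop :=
  match c with
  | .node q => okNode g (kind0 body q) i (fun _ => ()) (a 0) (a 1) (a 2)
  | .merge _ _ => a 0 = a 1 + a 2
  | .wire _ _ _ _ => okWire i (a 0) (a 1) (a 2) (a 3) = 0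

abbrev Ty (body : Pn → Fm κ Pn) := (Col (Nd body) κ × Fin (κ + 1) × A) ⊕ Fin 7 ⊕ Bool

variable (body : Pn → Fm κ Pn) (main : Pn) (code : Ty body → ℕ)

def descOf : Desc where
  isMain α := ∃ z, code (.inl z) = α
  isRuler c α := code (.inr (.inl c)) = α
  isSpec b α := code (.inr (.inr b)) = α
  color α v := ∃ c i a, code (.inl (c, i, a)) = α ∧ code (.inl (c, i, 0)) = v
  conflict p p' α α' := ∃ c i a c' i' a', code (.inl (c, i, a)) = α ∧
    code (.inl (c', i', a')) = α' ∧
    tag (ndChild body main) c i p = tag (ndChild body main) c' i' p' ∧ a p ≠ a' p'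
  link p _ k k' α α' := ∃ c i a c' i' a', code (.inl (c, i, a)) = α ∧
    code (.inl (c', i', a')) = α' ∧ ∃ y, scope (fun q => (kind0 body q).mask)
      (tag (ndChild body main) c i p) y ∧ pos i y = k ∧ pos i' y = k'
  aliveT g α := ∃ c i a, code (.inl (c, i, a)) = α ∧ okT body g c i a
  isEq t α := ∃ j h a, code (.inl (.node (some ⟨.eqA t j, h⟩), j.castSucc, a)) = α
  isBin α := ∃ ρ h i a, code (.inl (.node (some ⟨.bin ρ, h⟩), i, a)) = α
  isStar b α := ∃ h i a, code (.inl (.node (some ⟨.star b, h⟩), i, a)) = α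

def envOf (s n : ℕ) : Env where
  d := descOf body main code
  s := s
  n := n
  st x y z := ∃ ρ h i a, code (.inl (.node (some ⟨.bin ρ, h⟩), i, a)) = x ∧
    ρ ⟨descOf body main code, s, n⟩ y z

abbrev B1 (body : Pn → Fm κ Pn) (s : ℕ) := (Col (Nd body) κ × Fin (κ + 1)) × (Fin 5 → Fin s)

def toBase {s : ℕ} (b : B1 body s) : Base (Nd body) κ (Fin s) :=
  (b.1.1, b.1.2, fun y => b.2 (pos b.1.2 y))

def ofBase {s : ℕ} (b : Base (Nd body) κ (Fin s)) : B1 body s :=
  ((b.1, b.2.1), fun k => b.2.2 (reg b.2.1 k))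

def dg {s : ℕ} : U (B1 body s) s → Fin 7 → ℕ
  | .inl (b, a) => ![code (.inl (b.1.1, b.1.2, a)), b.2 0, b.2 1, b.2 2, b.2 3, b.2 4, 0]
  | .inr (.inl (c, v)) => ![code (.inr (.inl c)), v, 0, 0, 0, 0, 0]
  | .inr (.inr b) => ![code (.inr (.inr b)), 0, 0, 0, 0, 0, 0]

def crdOf {s : ℕ} (hs : ∀ z, code z < s) (b : B1 body s) : Fin 6 → Fin s :=
  Fin.cons ⟨code (.inl (b.1.1, b.1.2, 0)), hs _⟩ b.2

variable {body code}

theorem crdOf_inj {s : ℕ} (hc : Injective code) (hs : ∀ z, code z < s) :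
    Injective (crdOf body code hs) := by
  rintro ⟨⟨c, i⟩, l⟩ ⟨⟨c', i'⟩, l'⟩ h
  have h0 := hc (congrArg Fin.val (congrFun h 0))
  have h1 : l = l' := funext fun k => congrFun h k.succ
  simp only [Sum.inl.injEq, Prod.mk.injEq] at h0
  rw [h0.1, h0.2.1, h1]

theorem dg_lt {s : ℕ} (hs : ∀ z, code z < s) (a : U (B1 body s) s) (j) : dg body code a j < s := by
  have h0 : 0 < s := lt_of_le_of_lt (Nat.zero_le _) (hs (.inr (.inr true)))
  rcases a with ⟨b, a⟩ | ⟨c, v⟩ | b <;> fin_cases j <;> simp [dg, hs, h0]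

theorem dg_six {s : ℕ} (a : U (B1 body s) s) : dg body code a 6 = 0 := by
  rcases a with ⟨b, a⟩ | ⟨c, v⟩ | b <;> rfl

theorem dg_main {s : ℕ} (b : B1 body s) (a : A) (k : Fin 5) :
    dg body code (.inl (b, a)) (dl k) = b.2 k := by
  fin_cases k <;> rfl

theorem dg_inj {s : ℕ} (hc : Injective code) : Injective (dg body code (s := s)) := by
  intro x y h
  have h0 := congrFun h 0
  have h1 := congrFun h 1
  rcases x with ⟨⟨⟨c, i⟩, l⟩, a⟩ | ⟨c, v⟩ | b <;> rcases y with ⟨⟨⟨c', i'⟩, l'⟩, a'⟩ | ⟨c', v'⟩ | b' <;>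
    have h2 := hc h0 <;> simp only [Sum.inl.injEq, Sum.inr.injEq, Prod.mk.injEq, reduceCtorEq] at h2
  · have : l = l' := funext fun k => Fin.ext (by
      have := congrFun h (dl k)
      rwa [dg_main, dg_main] at this)
    rw [h2.1, h2.2.1, h2.2.2, this]
  · rw [h2, Fin.ext (show v.val = v'.val from h1)]
  · rw [h2]

theorem exists_main {s : ℕ} {d : Fin 7 → ℕ} (hd : ∀ j, d j < s) (h6 : d 6 = 0)
    (h : ∃ z, code (.inl z) = d 0) : ∃ (b : B1 body s) (a : A), dg body code (.inl (b, a)) = d := by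
  obtain ⟨⟨c, i, a⟩, h⟩ := h
  refine ⟨((c, i), fun k => ⟨d (dl k), hd _⟩), a, funext fun j => ?_⟩
  fin_cases j <;> simp [dg, h, h6, dl]

theorem exists_rul {s : ℕ} {d : Fin 7 → ℕ} (hd : ∀ j, d j < s) (h6 : d 6 = 0) (hz : Zr d) {c}
    (h : code (.inr (.inl c)) = d 0) :
    ∃ v : Fin s, dg body code (.inr (.inl (c, v))) = d := by
  obtain ⟨a, b, e, f⟩ := hz
  refine ⟨⟨d 1, hd _⟩, funext fun j => ?_⟩
  fin_cases j <;> simp [dg, h, h6, a, b, e, f]

theorem exists_spec {s : ℕ} {d : Fin 7 → ℕ} (h6 : d 6 = 0) (hz : Zr d) (h1 : d 1 = 0) {c}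
    (h : code (.inr (.inr c)) = d 0) : dg body code (s := s) (.inr (.inr c)) = d := by
  obtain ⟨a, b, e, f⟩ := hz
  refine funext fun j => ?_
  fin_cases j <;> simp [dg, h, h6, h1, a, b, e, f]

theorem mask_eq (E : Env) : (progOf E body main).mask = fun q => (kind0 body q).mask := by
  funext q
  rcases q with _ | ⟨φ, h⟩
  · rfl
  · cases φ <;> rfl

variable (body code) in
noncomputable def sysOf (s n : ℕ) :=
  (progOf (envOf body main code s n) body main).sys.comap (toBase body (s := s))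

theorem alive_iff {s n : ℕ} (hc : Injective code) (g : Bool) (b : B1 body s) (a : A) :
    Alive (envOf body main code s n) g (dg body code (.inl (b, a))) ↔
      (sysOf body main code s n).ok g b a := by
  obtain ⟨⟨c, i⟩, l⟩ := b
  have e0 : dg body code (s := s) (.inl (((c, i), l), a)) 0 = code (.inl (c, i, a)) := rfl
  have e1 : dg body code (s := s) (.inl (((c, i), l), a)) 1 = l 0 := rfl
  have e2 : dg body code (s := s) (.inl (((c, i), l), a)) 2 = l 1 := rfl
  have e3 : dg body code (s := s) (.inl (((c, i), l), a)) 3 = l 2 := rfl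
  have e5 : dg body code (s := s) (.inl (((c, i), l), a)) 5 = l 4 := rfl
  have et : ∀ t : Fin 3, dg body code (s := s) (.inl (((c, i), l), a)) (dt t) =
      l (pos i (.inl t)) := fun t => by fin_cases t <;> rfl
  have t1 : (envOf body main code s n).d.aliveT g (code (.inl (c, i, a))) ↔ okT body g c i a := by
    simp [envOf, descOf, hc.eq_iff]
  have t2 : ∀ t, (envOf body main code s n).d.isEq t (code (.inl (c, i, a))) ↔
      ∃ j h, .node (some ⟨.eqA t j, h⟩) = c ∧ j.castSucc = i := by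
    simp [envOf, descOf, hc.eq_iff]
  have t3 : (envOf body main code s n).d.isBin (code (.inl (c, i, a))) ↔
      ∃ ρ h, .node (some ⟨.bin ρ, h⟩) = c := by
    simp [envOf, descOf, hc.eq_iff]
  have t4 : ∀ b, (envOf body main code s n).d.isStar b (code (.inl (c, i, a))) ↔
      ∃ h, .node (some ⟨.star b, h⟩) = c := by
    simp [envOf, descOf, hc.eq_iff]
  have t5 : ∀ y z, (envOf body main code s n).st (code (.inl (c, i, a))) y z ↔
      ∃ ρ h, .node (some ⟨.bin ρ, h⟩) = c ∧ ρ (envOf body main code s n).e0 y z := by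
    intro y z
    constructor
    · rintro ⟨ρ, h, i', a', h1, h2⟩
      have := hc h1
      simp only [Sum.inl.injEq, Prod.mk.injEq] at this
      exact ⟨ρ, h, this.1, h2⟩
    · rintro ⟨ρ, h, rfl, h2⟩
      exact ⟨ρ, h, i, a, rfl, h2⟩
  simp only [Alive, e0, e1, e2, e3, e5, et, t1, t2, t3, t4, t5]
  show _ ↔ (progOf (envOf body main code s n) body main).okc g c i (fun y => l (pos i y)) a
  clear t1 t2 t3 t4 t5 e0 e1 e2 e3 e5 et
  rcases c with q | ⟨q, σ⟩ | ⟨q, σ, ω, t⟩
  · rcases q with _ | ⟨φ, h⟩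
    · simp [okT, Prog.okc, progOf, ndKind, kind0, okNode]
    · cases φ with
      | eqA t j =>
        simp [okT, Prog.okc, progOf, ndKind, kind0, okNode, kindF, h]
        by_cases hi : i = j.castSucc
        · subst hi
          simp only [pos, Fin.val_inj, if_true, true_and, forall_const]
          tauto
        · simp [hi, Ne.symm hi]
      | bin ρ =>
        simp [okT, Prog.okc, progOf, ndKind, kind0, okNode, kindF, h, pos]
        tauto
      | star b =>
        cases b <;> simp [okT, Prog.okc, progOf, ndKind, kind0, okNode, kindF, h, pos]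
          <;> tauto
      | and φ ψ => simp [okT, Prog.okc, progOf, ndKind, kind0, okNode, kindF]
      | or φ ψ => simp [okT, Prog.okc, progOf, ndKind, kind0, okNode, kindF]
      | ex y φ => simp [okT, Prog.okc, progOf, ndKind, kind0, okNode, kindF]
      | call p => simp [okT, Prog.okc, progOf, ndKind, kind0, okNode, kindF]
  · simp [okT, Prog.okc]
  · simp [okT, Prog.okc]

theorem conflict_iff {s n : ℕ} (hc : Injective code) (b b' : B1 body s) (a a' : A) (p p' : Fin 4) :
    ((envOf body main code s n).d.conflict p p' (dg body code (.inl (b, a)) 0)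
        (dg body code (.inl (b', a')) 0) ∧
      ∀ c c', (envOf body main code s n).d.link p p' c c' (dg body code (.inl (b, a)) 0)
        (dg body code (.inl (b', a')) 0) →
          dg body code (.inl (b, a)) (dl c) = dg body code (.inl (b', a')) (dl c')) ↔
      ((sysOf body main code s n).var b p = (sysOf body main code s n).var b' p' ∧
        a p ≠ a' p') := by
  obtain ⟨⟨c, i⟩, l⟩ := b
  obtain ⟨⟨c', i'⟩, l'⟩ := b'
  have e0 : dg body code (s := s) (.inl (((c, i), l), a)) 0 = code (.inl (c, i, a)) := rfl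
  have e0' : dg body code (s := s) (.inl (((c', i'), l'), a')) 0 = code (.inl (c', i', a')) := rfl
  have t1 : (envOf body main code s n).d.conflict p p' (code (.inl (c, i, a)))
      (code (.inl (c', i', a'))) ↔
      tag (ndChild body main) c i p = tag (ndChild body main) c' i' p' ∧ a p ≠ a' p' := by
    simp [envOf, descOf, hc.eq_iff, and_assoc]
  have t2 : ∀ k k', (envOf body main code s n).d.link p p' k k' (code (.inl (c, i, a)))
      (code (.inl (c', i', a'))) ↔ ∃ y, scope (fun q => (kind0 body q).mask)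
      (tag (ndChild body main) c i p) y ∧ pos i y = k ∧ pos i' y = k' := by
    intro k k'
    simp only [envOf, descOf, hc.eq_iff, Sum.inl.injEq, Prod.mk.injEq, and_assoc,
      exists_and_left, exists_eq_left]
  simp only [e0, e0', t1, t2, dg_main]
  have hv : (sysOf body main code s n).var ((c, i), l) p =
      (sysOf body main code s n).var ((c', i'), l') p' ↔
      tag (ndChild body main) c i p = tag (ndChild body main) c' i' p' ∧
      ∀ y, scope (fun q => (kind0 body q).mask) (tag (ndChild body main) c i p) y →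
        l (pos i y) = l' (pos i' y) := by
    show Prog.gv _ _ _ = Prog.gv _ _ _ ↔ _
    simp only [Prog.gv, Prod.mk.injEq, mask_eq]
    refine and_congr_right fun h => ?_
    have h' : tag (progOf (envOf body main code s n) body main).child
      (toBase body ((c', i'), l')).1 (toBase body ((c', i'), l')).2.1 p' =
      tag (ndChild body main) c i p := Eq.symm h
    rw [h']
    exact res_eq_iff
  rw [hv]
  constructor
  · rintro ⟨⟨h1, h2⟩, h3⟩
    exact ⟨⟨h1, fun y hy => Fin.ext (h3 _ _ ⟨y, hy, rfl, rfl⟩)⟩, h2⟩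
  · rintro ⟨⟨h1, h2⟩, h3⟩
    refine ⟨⟨h1, h3⟩, ?_⟩
    rintro _ _ ⟨y, hy, rfl, rfl⟩
    rw [h2 y hy]

theorem genRel_dg {s n : ℕ} (hc : Injective code) (hs : ∀ z, code z < s) (g : Bool)
    (x y : U (B1 body s) s) :
    GenRel (envOf body main code s n) g (dg body code x) (dg body code y) ↔
      relU (sysOf body main code s n) (crdOf body code hs) g x y := by
  have m1 : ∀ z, (envOf body main code s n).d.isMain (code z) ↔ ∃ z', .inl z' = z := by
    intro z; simp only [envOf, descOf, hc.eq_iff]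
  have m2 : ∀ c z, (envOf body main code s n).d.isRuler c (code z) ↔ .inr (.inl c) = z := by
    intro c z; simp only [envOf, descOf, hc.eq_iff]
  have m3 : ∀ c z, (envOf body main code s n).d.isSpec c (code z) ↔ .inr (.inr c) = z := by
    intro c z; simp only [envOf, descOf, hc.eq_iff]
  have d1 : ∀ (b : B1 body s) a, dg body code (.inl (b, a)) 0 = code (.inl (b.1.1, b.1.2, a)) :=
    fun _ _ => rfl
  have d2 : ∀ c (v : Fin s), dg body code (.inr (.inl (c, v))) 0 = code (.inr (.inl c)) :=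
    fun _ _ => rfl
  have d3 : ∀ c, dg body code (s := s) (.inr (.inr c)) 0 = code (.inr (.inr c)) :=
    fun _ => rfl
  have d4 : ∀ c (v : Fin s), dg body code (.inr (.inl (c, v))) 1 = v := fun _ _ => rfl
  have d5 : ∀ c, dg body code (s := s) (.inr (.inr c)) 1 = 0 := fun _ => rfl
  have z1 : ∀ c (v : Fin s), Zr (dg body code (.inr (.inl (c, v)))) :=
    fun _ _ => ⟨rfl, rfl, rfl, rfl⟩
  have z2 : ∀ c, Zr (dg body code (s := s) (.inr (.inr c))) := fun _ => ⟨rfl, rfl, rfl, rfl⟩
  rcases x with ⟨b, a⟩ | ⟨c, v⟩ | _ | _ <;> rcases y with ⟨b', a'⟩ | ⟨c', v'⟩ | _ | _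
  · simp only [GenRel, dg_six, conflict_iff main hc, relU]
    simp [d1, m1, m2, m3]
  · simp only [GenRel, dg_six, alive_iff main hc, relU, dg_main, z1, d4]
    simp only [d1, d2, m1, m2, m3, Fin.exists_fin_succ (P := fun c'_1 : Fin 6 =>
      c' = c'_1.castSucc ∧ crdOf body code hs b c'_1 = v')]
    have t1 : (envOf body main code s n).d.color (code (.inl (b.1.1, b.1.2, a))) v' ↔
        crdOf body code hs b 0 = v' := by
      rw [Fin.ext_iff]
      simp [envOf, descOf, hc.eq_iff, crdOf, and_assoc]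
    have t2 : ∀ c : Fin 5, dl c = c.succ.castSucc := fun _ => rfl
    simp [t1, t2, crdOf, Fin.val_inj, eq_comm, or_assoc]
  all_goals simp [GenRel, dg_six, relU, d1, d2, d3, d4, d5, m1, m2, m3, z1, z2]
  rfl

theorem genRel_iff {s n : ℕ} (hc : Injective code) (hs : ∀ z, code z < s) (g : Bool)
    {d d' : Fin 7 → ℕ} (hd : ∀ j, d j < s) (hd' : ∀ j, d' j < s) :
    GenRel (envOf body main code s n) g d d' ↔ ∃ x y, dg body code x = d ∧ dg body code y = d' ∧
      relU (sysOf body main code s n) (crdOf body code hs) g x y := by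
  constructor
  · intro h
    have : ∃ x y : U (B1 body s) s, dg body code x = d ∧ dg body code y = d' := by
      obtain ⟨h6, h6', h | h | h | h | h⟩ := h
      · obtain ⟨b, a, h1⟩ := exists_main hd h6 h.1
        obtain ⟨b', a', h2⟩ := exists_main hd' h6' h.2.1
        exact ⟨_, _, h1, h2⟩
      · obtain ⟨b, a, h1⟩ := exists_main hd h6 h.1
        have : ∃ c, code (.inr (.inl c)) = d' 0 := by
          rcases h.2.2 with h | ⟨c, h⟩ | h <;> exact ⟨_, h.1⟩
        obtain ⟨c, h2⟩ := this
        obtain ⟨v, h2⟩ := exists_rul hd' h6' h.2.1 h2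
        exact ⟨_, _, h1, h2⟩
      · obtain ⟨z1, z2, c, c', h1, h2, _⟩ := h
        obtain ⟨v, h1⟩ := exists_rul hd h6 z1 h1
        obtain ⟨v', h2⟩ := exists_rul hd' h6' z2 h2
        exact ⟨_, _, h1, h2⟩
      · obtain ⟨h1, z1, h3, z2, c', h2⟩ := h
        obtain ⟨v', h2⟩ := exists_rul hd' h6' z2 h2
        exact ⟨_, _, exists_spec h6 z1 h3 h1, h2⟩
      · obtain ⟨h1, z1, h3, h2, z2, h4⟩ := h
        exact ⟨_, _, exists_spec h6 z1 h3 h1, exists_spec h6' z2 h4 h2⟩
    obtain ⟨x, y, rfl, rfl⟩ := this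
    exact ⟨x, y, rfl, rfl, (genRel_dg main hc hs g x y).1 h⟩
  · rintro ⟨x, y, rfl, rfl, h⟩
    exact (genRel_dg main hc hs g x y).2 h

end Vale.Agent.P310
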