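import Vale.Agent.P310.Game

namespace Vale.Agent.P310

open Function

abbrev F := ZMod 2
abbrev A := Fin 4 → F

/-- A system of affine constraints over `F`, each on four distinct variables; `ok false` is the
homogeneous version of `ok true`. -/
structure Sys (B Var : Type) where
  var : B → Fin 4 → Var
  ok : Bool → B → A → Prop
  var_inj : ∀ b, Injective (var b)
  ok_zero : ∀ b, ok false b 0
  ok_add : ∀ b a σ, ok true b σ → (ok false b a ↔ ok true b (a + σ))

variable {B B' Var : Type}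

/-- Duplicator survives with `K + 1` pebbles. -/
def Sys.Dup (S : Sys B Var) (K : ℕ) : Prop :=
  ∃ Φ : Finset B → (Var → F) → Prop, (∃ x, Φ ∅ x) ∧
    (∀ X x, Φ X x → ∀ b ∈ X, S.ok true b (fun p => x (S.var b p))) ∧
    (∀ X Y x, Φ X x → Y ⊆ X → Φ Y x) ∧
    (∀ X x, Φ X x → X.card ≤ K → ∀ b, ∃ Y x', Φ Y x' ∧ b ∈ Y ∧ X ⊆ Y ∧
      ∀ b' ∈ X, ∀ p, x' (S.var b' p) = x (S.var b' p))

/-- A joint-update consistent family on `K`-tuples. -/
def Sys.Spo (S : Sys B Var) (K : ℕ) : Prop :=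
  ∃ R : (Fin K → B) → (Fin K → A) → Prop, (∃ b a, R b a) ∧
    (∀ b a, R b a → ∀ i, S.ok true (b i) (a i)) ∧
    (∀ b a, R b a → ∀ i j p p', S.var (b i) p = S.var (b j) p' → a i p = a j p') ∧
    (∀ b a, R b a → ∀ b', ∃ a', ∀ i, R (update b i b') (update a i a'))

def Sys.comap (S : Sys B Var) (π : B' → B) : Sys B' Var where
  var b := S.var (π b)
  ok g b := S.ok g (π b)
  var_inj b := S.var_inj (π b)
  ok_zero b := S.ok_zero (π b)
  ok_add b := S.ok_add (π b)

theorem Sys.Dup.comap {S : Sys B Var} {K : ℕ} (h : S.Dup K) (π : B' → B) :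
    (S.comap π).Dup K := by
  classical
  obtain ⟨Φ, h0, h1, h2, h3⟩ := h
  refine ⟨fun X x => Φ (X.image π) x, by simpa using h0, ?_, ?_, ?_⟩
  · intro X x h b hb
    exact h1 _ _ h (π b) (Finset.mem_image_of_mem _ hb)
  · intro X Y x h hY
    exact h2 _ _ _ h (Finset.image_subset_image hY)
  · intro X x h hX b
    obtain ⟨Y, x', a1, a2, a3, a4⟩ := h3 _ _ h (Finset.card_image_le.trans hX) (π b)
    refine ⟨insert b X, x', h2 _ _ _ a1 ?_, by simp, by simp, ?_⟩
    · rw [Finset.image_insert]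
      exact Finset.insert_subset a2 a3
    · intro b' hb' p
      exact a4 _ (Finset.mem_image_of_mem _ hb') p

theorem Sys.Spo.of_comap {S : Sys B Var} {K : ℕ} (π : B' → B) (h : (S.comap π).Spo K)
    (ρ : B → B') (hv : ∀ b, S.var (π (ρ b)) = S.var b)
    (ho : ∀ b, S.ok true (π (ρ b)) = S.ok true b) : S.Spo K := by
  obtain ⟨R, ⟨b0, a0, h0⟩, h1, h2, h3⟩ := h
  refine ⟨fun b a => R (ρ ∘ b) a, ?_, ?_, ?_, ?_⟩
  · have key : ∀ j : ℕ, ∃ b a, R b a ∧ ∀ i : Fin K, i.val < j → b i = ρ (π (b0 i)) := by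
      intro j
      induction j with
      | zero => exact ⟨b0, a0, h0, fun i hi => absurd hi (by omega)⟩
      | succ j ih =>
        obtain ⟨b, a, hR, hb⟩ := ih
        by_cases hj : j < K
        · obtain ⟨a', ha'⟩ := h3 b a hR (ρ (π (b0 ⟨j, hj⟩)))
          refine ⟨_, _, ha' ⟨j, hj⟩, fun i hi => ?_⟩
          by_cases hij : i = ⟨j, hj⟩
          · subst hij; simp
          · rw [update_of_ne hij]
            apply hb
            have : i.val ≠ j := fun h => hij (Fin.ext h)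
            omega
        · exact ⟨b, a, hR, fun i _ => hb i (by have := i.2; omega)⟩
    obtain ⟨b, a, hR, hb⟩ := key K
    refine ⟨π ∘ b0, a, ?_⟩
    have : ρ ∘ π ∘ b0 = b := funext fun i => (hb i i.2).symm
    show R (ρ ∘ π ∘ b0) a
    rw [this]; exact hR
  · intro b a h i
    have := h1 _ _ h i
    rw [← ho]; exact this
  · intro b a h i j p p' hp
    refine h2 _ _ h i j p p' ?_
    show S.var (π (ρ (b i))) p = S.var (π (ρ (b j))) p'
    rw [hv, hv]; exact hp
  · intro b a h b'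
    obtain ⟨a', ha'⟩ := h3 _ _ h (ρ b')
    refine ⟨a', fun i => ?_⟩
    have := ha' i
    rw [← comp_update] at this
    exact this

/-- Vertices: assignments to constraints, ruler vertices, two special vertices. -/
abbrev U (B : Type) (s : ℕ) := (B × A) ⊕ (Fin 7 × Fin s) ⊕ Bool

def relU {s : ℕ} (S : Sys B Var) (crd : B → Fin 6 → Fin s) (g : Bool) : U B s → U B s → Prop
  | .inl (b, a), .inl (b', a') => ∃ p p', S.var b p = S.var b' p' ∧ a p ≠ a' p'
  | .inl (b, a), .inr (.inl (c, v)) =>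
      (∃ c' : Fin 6, c = c'.castSucc ∧ crd b c' = v) ∨ (c = 6 ∧ v.val = 0 ∧ S.ok g b a)
  | .inr (.inl (c, v)), .inr (.inl (c', v')) =>
      c'.val * s + v'.val = c.val * s + v.val + 1 ∨ (c = 6 ∧ c' = 6)
  | .inr (.inr true), .inr (.inl _) => True
  | .inr (.inr false), .inr (.inr true) => True
  | _, _ => False

def cfi {s n : ℕ} (S : Sys B Var) (crd : B → Fin 6 → Fin s) (ι : U B s ↪ Fin n) (g : Bool) :
    SimpleGraph (Fin n) :=
  SimpleGraph.fromRel fun u v => ∃ a b, ι a = u ∧ ι b = v ∧ relU S crd g a b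

section
variable {s n : ℕ} (S : Sys B Var) (crd : B → Fin 6 → Fin s) (ι : U B s ↪ Fin n) (g : Bool)

theorem cfi_adj (a b : U B s) :
    (cfi S crd ι g).Adj (ι a) (ι b) ↔ a ≠ b ∧ (relU S crd g a b ∨ relU S crd g b a) := by
  simp only [cfi, SimpleGraph.fromRel_adj, ne_eq, EmbeddingLike.apply_eq_iff_eq,
    exists_and_left, exists_eq_left]

theorem cfi_adj_range {u v : Fin n} (h : (cfi S crd ι g).Adj u v) :
    ∃ a b, ι a = u ∧ ι b = v := by
  simp only [cfi, SimpleGraph.fromRel_adj] at h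
  obtain ⟨_, ⟨a, b, h1, h2, _⟩ | ⟨a, b, h1, h2, _⟩⟩ := h
  · exact ⟨a, b, h1, h2⟩
  · exact ⟨b, a, h2, h1⟩

end

end Vale.Agent.P310
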